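import Vale.Agent.P097.H899.Nt2F

/-!
**Two-variable non-tangential limits** (row R3 = (A3) of the ALPHA block): final, lower form.
Coordinates: `x = (u, y)`, edge point `(y + i h(u), u)`; domain below the edge:
`Im t < h(u) + c(u) (Re w - u) + kap p q (Im w)`.
-/

open Complex Metric Filter Topology Set MeasureTheory
open Vale.Agent.P097.H877.Bd

namespace Vale.Agent.P097.H899.Nt

variable {F : ℂ × ℂ → ℂ}

theorem kap_neg (p q b : ℝ) : kap (-q) (-p) (-b) = -kap p q b := by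
  unfold kap
  rw [neg_neg]
  ring

theorem kap_sub (p q ν b : ℝ) : kap (p - ν) (q - ν) b = kap p q b - ν * |b| := by
  unfold kap
  have : max b 0 + max (-b) 0 = |b| := by
    rcases le_total 0 b with h | h
    · rw [max_eq_left h, max_eq_right (by linarith), abs_of_nonneg h, add_zero]
    · rw [max_eq_right h, max_eq_left (by linarith), abs_of_nonpos h, zero_add]
  rw [← this]
  ring

theorem abs_kap_le (p q b : ℝ) : |kap p q b| ≤ (|p| + |q|) * |b| := by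
  unfold kap
  have h1 : |max b 0| ≤ |b| := by
    rcases le_total 0 b with h | h
    · rw [max_eq_left h]
    · rw [max_eq_right h]; simp
  have h2 : |max (-b) 0| ≤ |b| := by
    rcases le_total 0 b with h | h
    · rw [max_eq_right (by linarith)]; simp
    · rw [max_eq_left (by linarith), abs_neg]
  refine (abs_add_le _ _).trans ?_
  rw [abs_mul, abs_mul, add_mul]
  gcongr

/-- lower model cone -/
def TTl (p q k r h₀ u y : ℝ) : Set (ℂ × ℂ) :=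
  {z | |z.1.re - y| + |z.2.re - u| < k * (h₀ + kap p q z.2.im - z.1.im) ∧
    h₀ + kap p q z.2.im - z.1.im < r ∧ |z.2.im| < r}

theorem mem_TTl {p q k r h₀ u y : ℝ} {z : ℂ × ℂ} :
    z ∈ TTl p q k r h₀ u y ↔ (-z.1, -z.2) ∈ TT (-q) (-p) k r (-h₀) (-u) (-y) := by
  unfold TTl TT
  simp only [mem_ofPred_eq, Complex.neg_re, Complex.neg_im, kap_neg, abs_neg]
  have e1 : |-z.1.re - -y| = |z.1.re - y| := by rw [← abs_neg]; congr 1; ring
  have e2 : |-z.2.re - -u| = |z.2.re - u| := by rw [← abs_neg]; congr 1; ring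
  have e3 : -z.1.im - -h₀ - -kap p q z.2.im = h₀ + kap p q z.2.im - z.1.im := by ring
  rw [e1, e2, e3]

/-- **local Fatou theorem in two variables** (lower form), thin cones -/
theorem nt2_low {Dom : Set (ℂ × ℂ)} (hF : DifferentiableOn ℂ F Dom) (hDom : IsOpen Dom)
    {h c : ℝ → ℝ} {p q : ℝ} {E : Set (ℝ × ℝ)}
    (hcone : ∀ x ∈ E, ∃ k > 0, ∃ r > 0, ∃ M : ℝ, TTl p q k r (h x.1) x.1 x.2 ⊆ Dom ∧
      ∀ z ∈ TTl p q k r (h x.1) x.1 x.2, ‖F z‖ ≤ M)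
    (hh : ∀ x ∈ E, ∀ ε > 0, ∃ δ > 0, ∀ x' ∈ E, |x'.1 - x.1| < δ →
      h x.1 + c x.1 * (x'.1 - x.1) - ε * |x'.1 - x.1| ≤ h x'.1) :
    ∀ᵐ x : ℝ × ℝ, x ∈ E → ∃ l : ℂ, ∀ z₁ : ℂ × ℂ,
      z₁.1.im < c x.1 * z₁.2.re + kap p q z₁.2.im →
        Tendsto (fun a => F (sc x.1 x.2 (h x.1) a)) (𝓝[>] 0 ×ˢ 𝓝 z₁) (𝓝 l) ∧
        ∀ᶠ a in 𝓝[>] 0 ×ˢ 𝓝 z₁, sc x.1 x.2 (h x.1) a ∈ Dom := by
  set N : ℂ × ℂ → ℂ × ℂ := fun z => (-z.1, -z.2) with hN
  have hNN : ∀ z, N (N z) = z := fun z => by simp [hN]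
  have hNc : Continuous N := by fun_prop
  set E₁ : Set (ℝ × ℝ) := {x | -x ∈ E} with hE₁
  have hF₁ : DifferentiableOn ℂ (fun z => F (N z)) (N ⁻¹' Dom) := by
    intro z hz
    have h1 := hF.differentiableAt (hDom.mem_nhds hz)
    have h2 : DifferentiableAt ℂ N z := by
      show DifferentiableAt ℂ (fun z : ℂ × ℂ => (-z.1, -z.2)) z
      fun_prop
    exact (h1.comp z h2).differentiableWithinAt
  have key := nt2_up (F := fun z => F (N z)) (p := -q) (q := -p) (Dom := N ⁻¹' Dom) hF₁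
    (h := fun u => -h (-u)) (c := fun u => c (-u)) (E := E₁)
    (fun x hx => by
      obtain ⟨k, hk, r, hr, M, h1, h2⟩ := hcone (-x) hx
      have hmem : ∀ z, z ∈ TT (-q) (-p) k r (-h (-x.1)) x.1 x.2 →
          N z ∈ TTl p q k r (h (-x).1) (-x).1 (-x).2 := by
        intro z hz
        rw [mem_TTl]
        simpa [hN] using hz
      exact ⟨k, hk, r, hr, M, fun z hz => h1 (hmem z hz), fun z hz => h2 _ (hmem z hz)⟩)
    (fun x hx ε hε => by
      obtain ⟨δ, hδ, h1⟩ := hh (-x) hx ε hε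
      refine ⟨δ, hδ, fun x' hx' hxx => ?_⟩
      have e1 : (-x').1 - (-x).1 = -(x'.1 - x.1) := by simp; ring
      have h2 := h1 (-x') hx' (by rw [e1, abs_neg]; exact hxx)
      rw [e1, abs_neg] at h2
      simp only [Prod.fst_neg] at h2
      show -h (-x'.1) ≤ -h (-x.1) + c (-x.1) * (x'.1 - x.1) + ε * |x'.1 - x.1|
      linarith)
  have key2 := (Measure.measurePreserving_neg (volume : Measure (ℝ × ℝ))).quasiMeasurePreserving.ae
    key
  filter_upwards [key2] with x hx hxE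
  obtain ⟨l, hl⟩ := hx (by simpa [hE₁] using hxE)
  refine ⟨l, fun z₁ hz₁ => ?_⟩
  have hsc : ∀ a : ℝ × ℂ × ℂ, N (sc (-x).1 (-x).2 (-h (-(-x).1)) (a.1, N a.2)) =
      sc x.1 x.2 (h x.1) a := by
    intro a
    simp only [hN, sc, Prod.fst_neg, Prod.snd_neg, neg_neg]
    ext
    · push_cast; ring
    · push_cast; ring
  have htr : Tendsto (fun a : ℝ × ℂ × ℂ => (a.1, N a.2)) (𝓝[>] 0 ×ˢ 𝓝 z₁)
      (𝓝[>] 0 ×ˢ 𝓝 (N z₁)) :=
    tendsto_fst.prodMk ((hNc.tendsto z₁).comp tendsto_snd)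
  have h1 := hl (N z₁) (by
    simp only [hN, Prod.fst_neg, neg_neg, Complex.neg_re, Complex.neg_im, kap_neg]
    linarith)
  refine ⟨?_, ?_⟩
  · have h2 := h1.1.comp htr
    refine h2.congr fun a => ?_
    simp only [Function.comp]
    rw [hsc]
  · have h2 := htr.eventually h1.2
    refine h2.mono fun a ha => ?_
    rw [mem_preimage, hsc] at ha
    exact ha

/-- the model cones are contained in the tangent domains -/
theorem TTl_sub {h₀ c₀ p q u y ν r₀ : ℝ} (hν : 0 < ν) (hr₀ : 0 < r₀) :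
    ∃ k > 0, ∃ r > 0, ∀ z ∈ TTl (p - ν) (q - ν) k r h₀ u y,
      |z.1.re - y| < r₀ ∧ ‖z.2 - u‖ < r₀ ∧ h₀ - r₀ < z.1.im ∧
      z.1.im < h₀ + c₀ * (z.2.re - u) + kap p q z.2.im - ν * ‖z.2 - u‖ := by
  have a1 := abs_nonneg c₀
  have a2 := abs_nonneg (p - ν)
  have a3 := abs_nonneg (q - ν)
  refine ⟨1 / (|c₀| + ν + 1), by positivity, r₀ / (2 + |p - ν| + |q - ν|) / 2, by positivity,
    fun z hz => ?_⟩
  set k := 1 / (|c₀| + ν + 1) with hk
  set r := r₀ / (2 + |p - ν| + |q - ν|) / 2 with hr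
  have hk0 : 0 < k := by positivity
  have hk1 : k ≤ 1 := by
    rw [hk, div_le_one (by positivity)]; linarith
  have hk2 : (|c₀| + ν) * k < 1 := by
    rw [hk, mul_one_div, div_lt_one (by positivity)]; linarith
  have hr0 : 0 < r := by positivity
  have hrr : r * (2 + |p - ν| + |q - ν|) = r₀ / 2 := by rw [hr]; field_simp
  obtain ⟨z1, z2, z3⟩ := hz
  obtain ⟨d, hd⟩ : ∃ d, d = h₀ + kap (p - ν) (q - ν) z.2.im - z.1.im := ⟨_, rfl⟩
  rw [← hd] at z1 z2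
  have b1 := abs_nonneg (z.1.re - y)
  have b2 := abs_nonneg (z.2.re - u)
  have b3 := abs_nonneg z.2.im
  have hd0 : 0 < d := by
    by_contra hneg
    push Not at hneg
    have := mul_nonpos_of_nonneg_of_nonpos hk0.le hneg
    linarith
  have hkd : k * d ≤ d := by nlinarith
  have hkap := abs_kap_le (p - ν) (q - ν) z.2.im
  have hkap2 : (|p - ν| + |q - ν|) * |z.2.im| ≤ (|p - ν| + |q - ν|) * r := by gcongr
  have hexp : r * (2 + |p - ν| + |q - ν|) = 2 * r + (|p - ν| + |q - ν|) * r := by ring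
  have hpr : 0 ≤ (|p - ν| + |q - ν|) * r := by positivity
  have hnorm : ‖z.2 - u‖ ≤ |z.2.re - u| + |z.2.im| := by
    have := Complex.norm_le_abs_re_add_abs_im (z.2 - u)
    simpa using this
  refine ⟨by linarith, by linarith, ?_, ?_⟩
  · rw [abs_le] at hkap
    linarith [hkap.1]
  · rw [kap_sub] at hd
    have e1 : (|c₀| + ν) * |z.2.re - u| ≤ (|c₀| + ν) * (k * d) := by
      gcongr
      linarith
    have e2 : (|c₀| + ν) * (k * d) < d := by
      have : (|c₀| + ν) * (k * d) = (|c₀| + ν) * k * d := by ring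
      rw [this]
      nlinarith
    have e3 : -(|c₀| * |z.2.re - u|) ≤ c₀ * (z.2.re - u) := by
      rw [← abs_mul]; exact neg_abs_le _
    have e4 : ν * ‖z.2 - u‖ ≤ ν * |z.2.re - u| + ν * |z.2.im| := by
      rw [← mul_add]; gcongr
    have e5 : (|c₀| + ν) * |z.2.re - u| = |c₀| * |z.2.re - u| + ν * |z.2.re - u| := by ring
    linarith

/-- **two-variable non-tangential limits**: `F` is holomorphic on `Dom`; `E` is an arbitrary set
of pairs `(u, y)`; at every point of `E` the domain `Dom` contains, near `(y + i h(u), u)`, the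
points with `Im t < h(u) + c(u) (Re w - u) + kap p q (Im w) - o(|w - u|)`, and `F` is bounded
there; moreover `h(u') ≥ h(u) + c(u) (u' - u) - o(|u' - u|)` for the other `u'` which occur in
`E`.  Then at almost every point of `E` the blow-ups of `F` converge to a constant `l`, locally
uniformly on the whole tangent cone `Im t' < c(u) Re w' + kap p q (Im w')`. -/
theorem nt2 {Dom : Set (ℂ × ℂ)} (hDom : IsOpen Dom) (hF : DifferentiableOn ℂ F Dom)
    {h c : ℝ → ℝ} {p q : ℝ} {E : Set (ℝ × ℝ)}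
    (hcone : ∀ x ∈ E, ∃ M : ℝ, ∀ ε > 0, ∃ r > 0, ∀ t w : ℂ, |t.re - x.2| < r →
      ‖w - x.1‖ < r → h x.1 - r < t.im →
      t.im < h x.1 + c x.1 * (w.re - x.1) + kap p q w.im - ε * ‖w - x.1‖ →
      (t, w) ∈ Dom ∧ ‖F (t, w)‖ ≤ M)
    (hh : ∀ x ∈ E, ∀ ε > 0, ∃ δ > 0, ∀ x' ∈ E, |x'.1 - x.1| < δ →
      h x.1 + c x.1 * (x'.1 - x.1) - ε * |x'.1 - x.1| ≤ h x'.1) :
    ∀ᵐ x : ℝ × ℝ, x ∈ E → ∃ l : ℂ, ∀ z₁ : ℂ × ℂ,
      z₁.1.im < c x.1 * z₁.2.re + kap p q z₁.2.im →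
        Tendsto (fun a => F (sc x.1 x.2 (h x.1) a)) (𝓝[>] 0 ×ˢ 𝓝 z₁) (𝓝 l) ∧
        ∀ᶠ a in 𝓝[>] 0 ×ˢ 𝓝 z₁, sc x.1 x.2 (h x.1) a ∈ Dom := by
  have hall : ∀ᵐ x : ℝ × ℝ, ∀ n : ℕ, x ∈ E → ∃ l : ℂ, ∀ z₁ : ℂ × ℂ,
      z₁.1.im < c x.1 * z₁.2.re + kap (p - 1 / ((n : ℝ) + 1)) (q - 1 / ((n : ℝ) + 1)) z₁.2.im →
        Tendsto (fun a => F (sc x.1 x.2 (h x.1) a)) (𝓝[>] 0 ×ˢ 𝓝 z₁) (𝓝 l) ∧
        ∀ᶠ a in 𝓝[>] 0 ×ˢ 𝓝 z₁, sc x.1 x.2 (h x.1) a ∈ Dom := by
    rw [ae_all_iff]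
    intro n
    refine nt2_low hF hDom (fun x hx => ?_) hh
    have hν : 0 < 1 / ((n : ℝ) + 1) := by positivity
    obtain ⟨M, hM⟩ := hcone x hx
    obtain ⟨r₀, hr₀, hr⟩ := hM (1 / ((n : ℝ) + 1)) hν
    obtain ⟨k, hk, r, hr', hsub⟩ := TTl_sub (h₀ := h x.1) (c₀ := c x.1) (p := p) (q := q)
      (u := x.1) (y := x.2) hν hr₀
    refine ⟨k, hk, r, hr', M, fun z hz => ?_, fun z hz => ?_⟩
    · obtain ⟨h1, h2, h3, h4⟩ := hsub z hz
      exact (hr z.1 z.2 h1 h2 h3 h4).1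
    · obtain ⟨h1, h2, h3, h4⟩ := hsub z hz
      exact (hr z.1 z.2 h1 h2 h3 h4).2
  filter_upwards [hall] with x hx hxE
  choose l hl using fun n => hx n hxE
  -- all the limits are the same
  have hl0 : ∀ n, l n = l 0 := by
    intro n
    have h1 := (hl n (-I, 0) (by simp)).1
    have h2 := (hl 0 (-I, 0) (by simp)).1
    have : (𝓝[>] (0 : ℝ) ×ˢ 𝓝 ((-I, 0) : ℂ × ℂ)).NeBot := inferInstance
    exact tendsto_nhds_unique h1 h2
  refine ⟨l 0, fun z₁ hz₁ => ?_⟩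
  obtain ⟨n, hn⟩ : ∃ n : ℕ, z₁.1.im < c x.1 * z₁.2.re +
      kap (p - 1 / ((n : ℝ) + 1)) (q - 1 / ((n : ℝ) + 1)) z₁.2.im := by
    have h1 : Tendsto (fun n : ℕ => c x.1 * z₁.2.re +
        kap (p - 1 / ((n : ℝ) + 1)) (q - 1 / ((n : ℝ) + 1)) z₁.2.im) atTop
        (𝓝 (c x.1 * z₁.2.re + (kap p q z₁.2.im - 0 * |z₁.2.im|))) := by
      simp only [kap_sub]
      refine Tendsto.const_add _ (Tendsto.const_sub _ (Tendsto.mul_const _ ?_))
      exact tendsto_one_div_add_atTop_nhds_zero_nat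
    rw [zero_mul, sub_zero] at h1
    exact (h1.eventually (lt_mem_nhds hz₁)).exists
  have h1 := hl n z₁ hn
  rw [hl0 n] at h1
  exact h1

end Vale.Agent.P097.H899.Nt
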