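import Vale.Agent.P097.H877.Bd.Priv

/-!
Two-variable non-tangential limits, part A: two-constants estimates in one variable
(sawtooth domains with the barrier of `H877/Bd`, half discs).
-/

open Complex Metric Filter Topology Set MeasureTheory
open Vale.Agent.P097.H877.Bd

namespace Vale.Agent.P097.H899.Nt

/-- two-constants estimate on a sawtooth domain -/
theorem saw_max {k h : ℝ} (hk : 0 < k) (hh : 0 < h) {K : Set ℝ} (hK : IsCompact K) {f : ℂ → ℂ}
    (hf : DifferentiableOn ℂ f (saw k h K)) (h1 : ∀ z ∈ saw k h K, ‖f z‖ ≤ 1) {s : ℝ} (hs : 0 ≤ s)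
    (hbd : ∀ x ∈ K, ∀ δ > 0, ∀ᶠ z : ℂ in 𝓝 (x : ℂ), z ∈ saw k h K →
      ‖f z‖ ≤ Real.exp (-(s * Real.pi)) + δ)
    (hsmall : (volume K).toReal / (h / 2) ≤ Real.pi - 2 * Real.arctan (k / 2)) :
    ∀ z ∈ saw (k / 2) (h / 2) K, ‖f z‖ *
      Real.exp (s * ((cau K z).im - (Real.pi - 2 * Real.arctan (k / 2)))) ≤ 1 := by
  have hKf : volume K ≠ ⊤ := hK.measure_lt_top.ne
  obtain ⟨c, hc⟩ : ∃ c, c = Real.pi - 2 * Real.arctan (k / 2) := ⟨_, rfl⟩
  rw [← hc] at hsmall ⊢
  have hk2 : 0 < k / 2 := by positivity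
  have hc0 : 0 ≤ c := by
    refine le_trans ?_ hsmall
    positivity
  have hsub : saw (k / 2) (h / 2) K ⊆ saw k h K :=
    saw_mono hk2 (by linarith) (by linarith) subset_rfl
  set G : ℂ → ℂ := fun z => f z * Complex.exp (s * bar K c z) with hG
  have hGn : ∀ z, ‖G z‖ = ‖f z‖ * Real.exp (s * ((cau K z).im - c)) := by
    intro z
    simp only [hG, norm_mul, Complex.norm_exp]
    congr 2
    simp [bar_re]
  have hGd : ∀ z ∈ saw k h K, DifferentiableAt ℂ G z := by
    intro z hz
    refine (hf.differentiableAt ((isOpen_saw k h K).mem_nhds hz)).mul ?_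
    exact ((differentiableAt_bar hKf c (saw_im_pos hk hz)).const_mul (s : ℂ)).cexp
  have hmain : ∀ z ∈ saw (k / 2) (h / 2) K, ‖G z‖ ≤ 1 := by
    refine norm_le_of_frontier (isBounded_saw hk2 hK.isBounded) (isOpen_saw _ _ _)
      (fun z hz => (hGd z (hsub hz)).differentiableWithinAt) ?_
    intro ζ hζ δ hδ
    rw [(isOpen_saw _ _ _).frontier_eq] at hζ
    obtain ⟨x, hxK, hx1, hx2⟩ := closure_saw hK hζ.1
    have him : 0 ≤ ζ.im := by
      have := (abs_nonneg _).trans hx1
      by_contra hneg
      push Not at hneg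
      nlinarith
    rcases him.eq_or_lt with him | him
    · -- a point of the real axis
      have hζx : ζ = (x : ℂ) := by
        rw [← him, mul_zero] at hx1
        have h3 : ζ.re - x = 0 := abs_eq_zero.mp (le_antisymm hx1 (abs_nonneg _))
        apply Complex.ext
        · simp; linarith
        · simp [← him]
      have hev := hbd x hxK (δ * Real.exp (-(s * Real.pi))) (by positivity)
      rw [← hζx] at hev
      filter_upwards [mem_nhdsWithin_of_mem_nhds hev, self_mem_nhdsWithin] with z hz1 hz2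
      have hzs := hsub hz2
      have hzim := saw_im_pos hk hzs
      have h3 := hz1 hzs
      rw [hGn]
      have h4 : (cau K z).im - c ≤ Real.pi := by
        rw [cau_im hKf hzim]
        linarith [setIntegral_pk_le (K := K) hzim]
      have h5 : Real.exp (s * ((cau K z).im - c)) ≤ Real.exp (s * Real.pi) := by
        apply Real.exp_le_exp.mpr
        exact mul_le_mul_of_nonneg_left h4 hs
      calc ‖f z‖ * Real.exp (s * ((cau K z).im - c))
          ≤ (Real.exp (-(s * Real.pi)) + δ * Real.exp (-(s * Real.pi))) * Real.exp (s * Real.pi) :=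
            mul_le_mul h3 h5 (Real.exp_pos _).le (by positivity)
        _ = (1 + δ) * (Real.exp (-(s * Real.pi)) * Real.exp (s * Real.pi)) := by ring
        _ = 1 + δ := by rw [← Real.exp_add]; simp
    · -- a point of the upper half plane
      have hζs : ζ ∈ saw k h K := by
        refine mem_saw.mpr ⟨x, hxK, ?_, by linarith⟩
        nlinarith [mul_pos hk him]
      have hfar : (cau K ζ).im ≤ c := by
        rcases le_or_gt (h / 2) ζ.im with h6 | h6
        · refine (cau_le_of_high hKf him).trans (le_trans ?_ hsmall)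
          gcongr
        · rw [hc]
          refine cau_le_of_far hKf him hk2 fun t ht => ?_
          by_contra hcon
          push Not at hcon
          exact hζ.2 (mem_saw.mpr ⟨t, ht, hcon, h6⟩)
      have hle : ‖G ζ‖ ≤ 1 := by
        rw [hGn]
        have h7 : Real.exp (s * ((cau K ζ).im - c)) ≤ 1 := by
          rw [Real.exp_le_one_iff]
          exact mul_nonpos_of_nonneg_of_nonpos hs (by linarith)
        calc _ ≤ 1 * 1 := mul_le_mul (h1 ζ hζs) h7 (Real.exp_pos _).le zero_le_one
          _ = 1 := one_mul 1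
      have h8 : ∀ᶠ z in 𝓝 ζ, ‖G z‖ < 1 + δ :=
        (hGd ζ hζs).continuousAt.norm.eventually (gt_mem_nhds (by linarith))
      exact mem_nhdsWithin_of_mem_nhds (h8.mono fun z hz => hz.le)
  intro z hz
  rw [← hGn]
  exact hmain z hz

/-- lower bound of the harmonic measure of a set which fills almost a window -/
theorem cau_ge_window {K : Set ℝ} (hKm : MeasurableSet K) (hK : volume K ≠ ⊤) {z : ℂ}
    (hz : 0 < z.im) {a b m : ℝ} (hab : a ≤ b) (hm0 : 0 ≤ m)
    (hm : volume (Icc a b \ K) ≤ ENNReal.ofReal m) :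
    Real.arctan ((b - z.re) / z.im) - Real.arctan ((a - z.re) / z.im) - m / z.im
      ≤ (cau K z).im := by
  rw [cau_im hK hz]
  set J := Icc a b with hJ
  have h3 : ∫ t in J, pk z t =
      Real.arctan ((b - z.re) / z.im) - Real.arctan ((a - z.re) / z.im) := by
    rw [← integral_pk hz, hJ, integral_Icc_eq_integral_Ioc, intervalIntegral.integral_of_le hab]
  have h4 : ∫ t in J, pk z t = (∫ t in J ∩ K, pk z t) + ∫ t in J \ K, pk z t :=
    (integral_inter_add_sdiff hKm (integrable_pk hz).integrableOn).symm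
  have h5 : ∫ t in J ∩ K, pk z t ≤ ∫ t in K, pk z t :=
    setIntegral_mono_set (integrable_pk hz).integrableOn
      (Eventually.of_forall fun t => (pk_pos hz t).le)
      (Eventually.of_forall fun t ht => ht.2)
  have hfin2 : volume (J \ K) ≠ ⊤ := (hm.trans_lt ENNReal.ofReal_lt_top).ne
  have h6 : ∫ t in J \ K, pk z t ≤ (volume (J \ K)).toReal / z.im := by
    rw [← cau_im hfin2 hz]
    exact cau_le_of_high hfin2 hz
  have h7 : (volume (J \ K)).toReal / z.im ≤ m / z.im := by
    have := ENNReal.toReal_le_of_le_ofReal hm0 hm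
    gcongr
  linarith

/-- two constants theorem on a half disc, at a point of the axis of symmetry -/
theorem two_const_axis {R C s : ℝ} (hR : 1 < R) (hC : 0 ≤ C) (hs : 0 ≤ s) {g : ℂ → ℂ}
    (hd : ∀ z : ℂ, ‖z‖ ≤ R → 0 ≤ z.im → DifferentiableAt ℂ g z)
    (hb : ∀ z : ℂ, ‖z‖ ≤ R → 0 ≤ z.im → ‖g z‖ ≤ C)
    (h0 : ∀ x : ℝ, |x| ≤ R → ‖g x‖ ≤ C * Real.exp (-s)) :
    ‖g I‖ ≤ C * Real.exp (-((1 - 1 / R) ^ 2 * s)) := by
  have hR0 : 0 < R := by linarith
  set U : Set ℂ := {z | ‖z‖ < R ∧ 0 < z.im} with hU
  have hUb : Bornology.IsBounded U := by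
    refine (isBounded_ball (x := (0 : ℂ)) (r := R)).subset fun w hw => ?_
    rw [mem_ball, dist_zero_right]
    exact hw.1
  have hUcl : closure U ⊆ {z | ‖z‖ ≤ R ∧ 0 ≤ z.im} := by
    refine closure_minimal (fun w hw => ⟨hw.1.le, hw.2.le⟩) ?_
    have e1 : IsClosed {z : ℂ | ‖z‖ ≤ R} := isClosed_le (by fun_prop) continuous_const
    have e2 : IsClosed {z : ℂ | 0 ≤ z.im} := isClosed_le continuous_const (by fun_prop)
    exact e1.inter e2
  have hUo : IsOpen U := by
    have e1 : IsOpen {z : ℂ | ‖z‖ < R} := isOpen_lt (by fun_prop) continuous_const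
    have e2 : IsOpen {z : ℂ | 0 < z.im} := isOpen_lt continuous_const (by fun_prop)
    exact e1.inter e2
  set q : ℂ → ℂ := fun w => (w / R) ^ 2 - 2 * I * (w / R) with hq
  have hqre : ∀ w : ℂ, (q w).re = (w.re ^ 2 - w.im ^ 2) / R ^ 2 + 2 * w.im / R := by
    intro w
    have e1 : w / (R : ℂ) = (w.re / R : ℝ) + (w.im / R : ℝ) * I := by
      apply Complex.ext
      · simp [Complex.div_ofReal_re]
      · simp [Complex.div_ofReal_im]
    simp only [hq, e1]
    simp only [pow_two, Complex.sub_re, Complex.mul_re, Complex.add_re, Complex.ofReal_re,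
      Complex.ofReal_im, Complex.I_re, Complex.I_im, Complex.add_im, Complex.mul_im,
      Complex.re_ofNat, Complex.im_ofNat]
    field_simp
    ring
  set G : ℂ → ℂ := fun w => g w * Complex.exp (s * (1 - q w)) with hG
  have hnorm : ∀ w, ‖G w‖ = ‖g w‖ * Real.exp (s * (1 - (q w).re)) := by
    intro w
    rw [hG]
    simp only [norm_mul, Complex.norm_exp]
    congr 2
    simp
  have hGd : DiffContOnCl ℂ G U := by
    have h1 : ∀ w ∈ closure U, DifferentiableAt ℂ G w := by
      intro w hw
      have := hUcl hw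
      refine (hd w this.1 this.2).mul ?_
      rw [hq]
      fun_prop
    exact ⟨fun w hw => (h1 w (subset_closure hw)).differentiableWithinAt,
      fun w hw => (h1 w hw).continuousAt.continuousWithinAt⟩
  have hfr : ∀ w ∈ frontier U, ‖G w‖ ≤ C := by
    intro w hw
    rw [hUo.frontier_eq] at hw
    obtain ⟨hw1, hw2⟩ := hUcl hw.1
    rw [hnorm]
    have hcase : ‖w‖ = R ∨ w.im = 0 := by
      by_contra hcon
      push Not at hcon
      exact hw.2 ⟨lt_of_le_of_ne hw1 hcon.1, lt_of_le_of_ne hw2 (Ne.symm hcon.2)⟩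
    rcases hcase with hcase | hcase
    · have h1 : 1 ≤ (q w).re := by
        rw [hqre]
        have h2 : w.re ^ 2 + w.im ^ 2 = R ^ 2 := by
          rw [← hcase, ← Complex.normSq_eq_norm_sq, Complex.normSq_apply]
          ring
        have h3 : w.im ≤ R := by
          have := Complex.abs_im_le_norm w
          rw [hcase] at this
          exact (le_abs_self _).trans this
        have h4 : (w.re ^ 2 - w.im ^ 2) / R ^ 2 + 2 * w.im / R - 1
            = 2 * w.im * (R - w.im) / R ^ 2 := by
          have h5 : w.re ^ 2 = R ^ 2 - w.im ^ 2 := by linarith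
          rw [h5]
          field_simp
          ring
        have h6 : 0 ≤ 2 * w.im * (R - w.im) / R ^ 2 := by
          have := sub_nonneg.mpr h3
          have hw2' : 0 ≤ w.im := hw2
          positivity
        linarith
      have h7 : Real.exp (s * (1 - (q w).re)) ≤ 1 := by
        rw [Real.exp_le_one_iff]
        exact mul_nonpos_of_nonneg_of_nonpos hs (by linarith)
      calc ‖g w‖ * Real.exp (s * (1 - (q w).re)) ≤ C * 1 :=
            mul_le_mul (hb w hw1 hw2) h7 (Real.exp_pos _).le hC
        _ = C := mul_one C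
    · have h1 : 0 ≤ (q w).re := by
        rw [hqre, hcase]
        have : 0 ≤ (w.re ^ 2 - 0 ^ 2) / R ^ 2 := by
          have := sq_nonneg w.re
          apply div_nonneg
          · linarith
          · positivity
        simpa using this
      have h7 : Real.exp (s * (1 - (q w).re)) ≤ Real.exp s := by
        apply Real.exp_le_exp.mpr
        nlinarith
      have hwx : w = (w.re : ℂ) := by
        apply Complex.ext
        · simp
        · simp [hcase]
      have hwn : |w.re| ≤ R := (Complex.abs_re_le_norm w).trans hw1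
      have h8 : ‖g w‖ ≤ C * Real.exp (-s) := by
        rw [hwx]
        exact h0 w.re hwn
      calc ‖g w‖ * Real.exp (s * (1 - (q w).re)) ≤ (C * Real.exp (-s)) * Real.exp s :=
            mul_le_mul h8 h7 (Real.exp_pos _).le (by positivity)
        _ = C := by rw [mul_assoc, ← Real.exp_add]; simp
  have hzU : (I : ℂ) ∈ U := ⟨by simpa using hR, by simp⟩
  have h1 := Complex.norm_le_of_forall_mem_frontier_norm_le hUb hGd hfr (subset_closure hzU)
  rw [hnorm] at h1
  have h2 : s * (1 - (q I).re) = (1 - 1 / R) ^ 2 * s := by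
    rw [hqre]
    simp only [Complex.I_re, Complex.I_im]
    field_simp
    ring
  rw [h2] at h1
  rw [Real.exp_neg, ← div_eq_mul_inv, le_div_iff₀ (Real.exp_pos _)]
  exact h1

end Vale.Agent.P097.H899.Nt
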