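import Vale.Agent.P097.H899.Nt2A

/-!
Two-variable non-tangential limits, part B: density points in the plane, the model cones and
the covering lemma.
-/

open Complex Metric Filter Topology Set MeasureTheory
open Vale.Agent.P097.H877.Bd

namespace Vale.Agent.P097.H899.Nt

/-- density point of a subset of the plane (squares) -/
def Dens2 (S : Set (ℝ × ℝ)) (x : ℝ × ℝ) : Prop :=
  ∀ ε > 0, ∃ r₀ > 0, ∀ r, 0 < r → r < r₀ →
    volume (closedBall x r \ S) ≤ ENNReal.ofReal (ε * r ^ 2)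

theorem vol_square (x : ℝ × ℝ) {r : ℝ} (hr : 0 ≤ r) :
    volume (closedBall x r) = ENNReal.ofReal (4 * r ^ 2) := by
  rw [← closedBall_prod_same, Measure.volume_eq_prod, Measure.prod_prod,
    Real.volume_closedBall, Real.volume_closedBall, ← ENNReal.ofReal_mul (by positivity)]
  congr 1
  ring

theorem ae_dens2 {S : Set (ℝ × ℝ)} (hS : MeasurableSet S) :
    ∀ᵐ x ∂(volume : Measure (ℝ × ℝ)), x ∈ S → Dens2 S x := by
  filter_upwards [Besicovitch.ae_tendsto_measure_inter_div_of_measurableSet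
    (volume : Measure (ℝ × ℝ)) hS.compl] with x hx hxS ε hε
  have h0 : (Sᶜ).indicator (1 : ℝ × ℝ → ENNReal) x = 0 := by
    simp [hxS]
  rw [h0] at hx
  have h1 : ∀ᶠ r in 𝓝[>] (0:ℝ), volume (Sᶜ ∩ closedBall x r) / volume (closedBall x r)
      < ENNReal.ofReal (ε / 4) :=
    hx.eventually (gt_mem_nhds (by simpa using hε))
  rw [eventually_nhdsWithin_iff] at h1
  obtain ⟨r₀, hr₀, h2⟩ := Metric.eventually_nhds_iff.mp h1
  refine ⟨r₀, hr₀, fun r hr hr0 => ?_⟩
  have h3 := h2 (y := r) (by simpa [abs_of_pos hr] using hr0) hr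
  rw [vol_square x hr.le] at h3
  have h4 : ENNReal.ofReal (4 * r ^ 2) ≠ 0 := by
    have : 0 < 4 * r ^ 2 := by positivity
    exact (ENNReal.ofReal_pos.mpr this).ne'
  have h5 := (ENNReal.div_lt_iff (Or.inl h4) (Or.inl ENNReal.ofReal_ne_top)).mp h3
  rw [← ENNReal.ofReal_mul (by positivity)] at h5
  have h6 : closedBall x r \ S = Sᶜ ∩ closedBall x r := by
    ext z; simp [and_comm]
  rw [h6]
  refine h5.le.trans (le_of_eq ?_)
  congr 1
  ring

theorem Dens2.near {S : Set (ℝ × ℝ)} {x : ℝ × ℝ} (h : Dens2 S x) {δ : ℝ} (hδ : 0 < δ) :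
    ∃ r₀ > 0, ∀ r, 0 < r → r < r₀ → ∀ t, dist t x ≤ r → ∃ s ∈ S, dist s t ≤ δ * r := by
  set δ' := min δ 1 with hδ'
  have hδ'0 : 0 < δ' := lt_min hδ one_pos
  obtain ⟨r₀, hr₀, h1⟩ := h (δ' ^ 2 / 2) (by positivity)
  refine ⟨r₀ / 2, by positivity, fun r hr hr0 t ht => ?_⟩
  by_contra hcon
  push Not at hcon
  have hsub : closedBall t (δ' * r) ⊆ closedBall x (2 * r) \ S := by
    intro s hs
    rw [mem_closedBall] at hs
    refine ⟨?_, fun hsS => ?_⟩
    · rw [mem_closedBall]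
      have h2 := dist_triangle s t x
      have h3 : δ' * r ≤ 1 * r := by
        gcongr
        exact min_le_right _ _
      linarith
    · have h2 := hcon s hsS
      have h3 : δ' * r ≤ δ * r := by
        gcongr
        exact min_le_left _ _
      linarith
  have h2 := (measure_mono hsub).trans (h1 (2 * r) (by positivity) (by linarith))
  rw [vol_square t (by positivity)] at h2
  rw [ENNReal.ofReal_le_ofReal_iff (by positivity)] at h2
  have h3 : 0 < δ' ^ 2 * r ^ 2 := by positivity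
  nlinarith

/-- the support function of the imaginary part of the cones -/
noncomputable def kap (p q b : ℝ) : ℝ := p * max b 0 + q * max (-b) 0

theorem continuous_kap (p q : ℝ) : Continuous (kap p q) := by
  unfold kap
  fun_prop

theorem kap_mul {p q a : ℝ} (ha : 0 ≤ a) (b : ℝ) : kap p q (a * b) = a * kap p q b := by
  unfold kap
  have h1 : max (a * b) 0 = a * max b 0 := by
    rw [← mul_zero a, mul_max_of_nonneg _ _ ha]; simp
  have h2 : max (-(a * b)) 0 = a * max (-b) 0 := by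
    rw [← mul_neg]
    conv_lhs => rw [← mul_zero a]
    rw [mul_max_of_nonneg _ _ ha]
  rw [h1, h2]
  ring

@[simp] theorem kap_zero (p q : ℝ) : kap p q 0 = 0 := by simp [kap]

/-- model cone with vertex `(y + i h₀, u)` -/
def TT (p q k r h₀ u y : ℝ) : Set (ℂ × ℂ) :=
  {z | |z.1.re - y| + |z.2.re - u| < k * (z.1.im - h₀ - kap p q z.2.im) ∧
    z.1.im - h₀ - kap p q z.2.im < r ∧ |z.2.im| < r}

theorem isOpen_TT (p q k r h₀ u y : ℝ) : IsOpen (TT p q k r h₀ u y) := by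
  have hk := continuous_kap p q
  have h1 : IsOpen {z : ℂ × ℂ |
      |z.1.re - y| + |z.2.re - u| < k * (z.1.im - h₀ - kap p q z.2.im)} :=
    isOpen_lt (by fun_prop) (by fun_prop)
  have h2 : IsOpen {z : ℂ × ℂ | z.1.im - h₀ - kap p q z.2.im < r} :=
    isOpen_lt (by fun_prop) (by fun_prop)
  have h3 : IsOpen {z : ℂ × ℂ | |z.2.im| < r} := isOpen_lt (by fun_prop) (by fun_prop)
  exact h1.inter (h2.inter h3)

/-- the cones vary continuously with the vertex -/
theorem TT_eventually {p q k r h₀ u y : ℝ} {z : ℂ × ℂ} (hz : z ∈ TT p q k r h₀ u y) :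
    ∀ᶠ a : ℝ × ℝ × ℝ in 𝓝 (h₀, u, y), z ∈ TT p q k r a.1 a.2.1 a.2.2 := by
  have h1 : IsOpen {a : ℝ × ℝ × ℝ |
      |z.1.re - a.2.2| + |z.2.re - a.2.1| < k * (z.1.im - a.1 - kap p q z.2.im)} :=
    isOpen_lt (by fun_prop) (by fun_prop)
  have h2 : IsOpen {a : ℝ × ℝ × ℝ | z.1.im - a.1 - kap p q z.2.im < r} :=
    isOpen_lt (by fun_prop) (by fun_prop)
  filter_upwards [h1.mem_nhds hz.1, h2.mem_nhds hz.2.1] with a e1 e2
  exact ⟨e1, e2, hz.2.2⟩

/-- the scaling map -/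
noncomputable def sc (u₀ y₀ h₀ : ℝ) (a : ℝ × ℂ × ℂ) : ℂ × ℂ :=
  ((y₀ : ℂ) + (h₀ : ℂ) * I + (a.1 : ℂ) * a.2.1, (u₀ : ℂ) + (a.1 : ℂ) * a.2.2)

theorem continuous_sc (u₀ y₀ h₀ : ℝ) : Continuous (sc u₀ y₀ h₀) := by
  unfold sc
  fun_prop

/-- the arithmetic in the covering lemma -/
theorem cover_core {k η d δ B r G E X Y b : ℝ} (hk : 0 < k) (hη0 : 0 < η) (hd0 : 0 < d)
    (_hδ0 : 0 < δ) (hδ1 : δ < k * d / 8) (hE : |E| ≤ η * (d / 4)) (hG : 3 / 4 * d < G)
    (hGB : G < B) (hb : |b| < B) (hr : η * (B + 1 + d) < r) (hX : |X| ≤ δ * η)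
    (hY : |Y| ≤ δ * η) :
    |X| + |Y| < k * (η * G - E) ∧ η * G - E < r ∧ |η * b| < r := by
  rw [abs_le] at hE
  have g1 : η * (3 / 4 * d) < η * G := by gcongr
  have g2 : η * G < η * B := by gcongr
  have g3 : 0 < η * d := by positivity
  have g4 : η * (B + 1 + d) = η * B + η + η * d := by ring
  refine ⟨?_, ?_, ?_⟩
  · have h3 : k * (η * (d / 2)) ≤ k * (η * G - E) := by
      gcongr
      linarith [hE.2]
    have h4 : δ * η < k * d / 8 * η := by gcongr
    have h5 : k * (η * (d / 2)) = 4 * (k * d / 8 * η) := by ring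
    have h6 : 0 < k * d / 8 * η := by positivity
    linarith
  · linarith [hE.1]
  · rw [abs_mul, abs_of_pos hη0]
    have h1 : η * |b| < η * B := by gcongr
    linarith

/-- **covering lemma**: every point of the tangent cone is, after scaling, in the model cone
of a point of `S` -/
theorem cover {h : ℝ → ℝ} {c u₀ y₀ p q k r : ℝ} (hk : 0 < k) (hr : 0 < r)
    (hd : HasDerivAt h c u₀) {S : Set (ℝ × ℝ)} (hS : Dens2 S (u₀, y₀)) {z₁ : ℂ × ℂ}
    (hz₁ : c * z₁.2.re + kap p q z₁.2.im < z₁.1.im) :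
    ∀ᶠ a : ℝ × ℂ × ℂ in 𝓝[>] 0 ×ˢ 𝓝 z₁,
      ∃ x ∈ S, sc u₀ y₀ (h u₀) a ∈ TT p q k r (h x.1) x.1 x.2 := by
  obtain ⟨d, hd0, hd1⟩ : ∃ d, 0 < d ∧ d = z₁.1.im - c * z₁.2.re - kap p q z₁.2.im :=
    ⟨_, by linarith, rfl⟩
  have hkc := continuous_kap p q
  -- constants
  obtain ⟨B, hB1, hB⟩ : ∃ B : ℝ, 1 ≤ B ∧ ∀ᶠ z : ℂ × ℂ in 𝓝 z₁,
      |z.1.re| < B ∧ |z.2.re| < B ∧ |z.2.im| < B ∧
      z.1.im - c * z.2.re - kap p q z.2.im < B := by
    refine ⟨|z₁.1.re| + |z₁.2.re| + |z₁.2.im| + d + 1, ?_, ?_⟩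
    · have := abs_nonneg z₁.1.re
      have := abs_nonneg z₁.2.re
      have := abs_nonneg z₁.2.im
      linarith
    · have a1 := abs_nonneg z₁.1.re
      have a2 := abs_nonneg z₁.2.re
      have a3 := abs_nonneg z₁.2.im
      have h1 : ∀ᶠ z : ℂ × ℂ in 𝓝 z₁, |z.1.re| < |z₁.1.re| + 1 :=
        (isOpen_lt (f := fun z : ℂ × ℂ => |z.1.re|) (by fun_prop) continuous_const).mem_nhds
          (by show |z₁.1.re| < _; linarith)
      have h2 : ∀ᶠ z : ℂ × ℂ in 𝓝 z₁, |z.2.re| < |z₁.2.re| + 1 :=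
        (isOpen_lt (f := fun z : ℂ × ℂ => |z.2.re|) (by fun_prop) continuous_const).mem_nhds
          (by show |z₁.2.re| < _; linarith)
      have h3 : ∀ᶠ z : ℂ × ℂ in 𝓝 z₁, |z.2.im| < |z₁.2.im| + 1 :=
        (isOpen_lt (f := fun z : ℂ × ℂ => |z.2.im|) (by fun_prop) continuous_const).mem_nhds
          (by show |z₁.2.im| < _; linarith)
      have h4 : ∀ᶠ z : ℂ × ℂ in 𝓝 z₁, z.1.im - c * z.2.re - kap p q z.2.im < d + 1 :=
        (isOpen_lt (f := fun z : ℂ × ℂ => z.1.im - c * z.2.re - kap p q z.2.im)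
          (by fun_prop) continuous_const).mem_nhds
          (by show z₁.1.im - c * z₁.2.re - kap p q z₁.2.im < _; linarith)
      filter_upwards [h1, h2, h3, h4] with z e1 e2 e3 e4
      exact ⟨by linarith, by linarith, by linarith, by linarith⟩
  have hB0 : 0 < B := by linarith
  obtain ⟨δ, hδ0, hδ1, hδ2, hδ3⟩ : ∃ δ : ℝ, 0 < δ ∧ δ < k * d / 8 ∧ |c| * δ < d / 8 ∧ δ ≤ 1 := by
    refine ⟨min (min (k * d / 16) (d / (8 * (|c| + 1)) / 2)) 1, ?_, ?_, ?_, ?_⟩
    · have := abs_nonneg c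
      positivity
    · have : 0 < k * d := by positivity
      exact (min_le_left _ _).trans_lt ((min_le_left _ _).trans_lt (by linarith))
    · have hc0 := abs_nonneg c
      have h1 : min (min (k * d / 16) (d / (8 * (|c| + 1)) / 2)) 1 ≤ d / (8 * (|c| + 1)) / 2 :=
        (min_le_left _ _).trans (min_le_right _ _)
      have h2 : |c| * (d / (8 * (|c| + 1)) / 2) < d / 8 := by
        have h3 : |c| * (d / (8 * (|c| + 1)) / 2) = d / 8 * (|c| / (|c| + 1)) / 2 := by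
          field_simp
        rw [h3]
        have h4 : |c| / (|c| + 1) < 1 := by
          rw [div_lt_one (by linarith)]
          linarith
        nlinarith
      exact (mul_le_mul_of_nonneg_left h1 hc0).trans_lt h2
    · exact min_le_right _ _
  -- near points
  obtain ⟨r₀, hr₀, hnear⟩ := hS.near (δ := δ / B) (by positivity)
  -- differentiability
  have hlo := hd.isLittleO.def (c := d / (8 * (B + 1))) (by positivity)
  obtain ⟨ρ, hρ, hρh⟩ := Metric.eventually_nhds_iff.mp hlo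
  have hη : ∀ᶠ η : ℝ in 𝓝[>] 0, 0 < η ∧ η * B < r₀ ∧ η * (B + 1) < ρ ∧ η * (B + 1 + d) < r := by
    have h1 : ∀ {m e : ℝ}, 0 < m → 0 < e → ∀ᶠ η : ℝ in 𝓝[>] 0, η * m < e := by
      intro m e hm he
      have : ∀ᶠ η : ℝ in 𝓝 0, η * m < e :=
        (isOpen_lt (f := fun η : ℝ => η * m) (by fun_prop) continuous_const).mem_nhds
          (by simpa using he)
      exact nhdsWithin_le_nhds this
    filter_upwards [self_mem_nhdsWithin, h1 hB0 hr₀, h1 (m := B + 1) (by linarith) hρ,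
      h1 (m := B + 1 + d) (by linarith) hr] with η e1 e2 e3 e4
    exact ⟨e1, e2, e3, e4⟩
  have hz : ∀ᶠ z : ℂ × ℂ in 𝓝 z₁, 3 / 4 * d < z.1.im - c * z.2.re - kap p q z.2.im :=
    (isOpen_lt (f := fun _ : ℂ × ℂ => 3 / 4 * d)
      (g := fun z : ℂ × ℂ => z.1.im - c * z.2.re - kap p q z.2.im)
      continuous_const (by fun_prop)).mem_nhds
      (by show 3 / 4 * d < z₁.1.im - c * z₁.2.re - kap p q z₁.2.im; linarith)
  filter_upwards [hη.prod_mk (hB.and hz)] with a ha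
  obtain ⟨⟨hη0, hηr₀, hηρ, hηr⟩, ⟨hb1, hb2, hb3, hb4⟩, hz2⟩ := ha
  obtain ⟨η, t, w⟩ := a
  simp only at hη0 hηr₀ hηρ hηr hb1 hb2 hb3 hb4 hz2
  obtain ⟨x, hxS, hx⟩ := hnear (η * B) (by positivity) hηr₀ (u₀ + η * w.re, y₀ + η * t.re) (by
    rw [Prod.dist_eq, max_le_iff, Real.dist_eq, Real.dist_eq]
    simp only [add_sub_cancel_left, abs_mul, abs_of_pos hη0]
    exact ⟨by gcongr, by gcongr⟩)
  have hδη : δ / B * (η * B) = δ * η := by field_simp
  rw [hδη, Prod.dist_eq, max_le_iff, Real.dist_eq, Real.dist_eq] at hx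
  simp only at hx
  obtain ⟨hx1, hx2⟩ := hx
  refine ⟨x, hxS, ?_⟩
  have hu : |x.1 - u₀| ≤ η * (B + 1) := by
    have h1 : |x.1 - u₀| ≤ |x.1 - (u₀ + η * w.re)| + |η * w.re| := by
      have h0 := abs_add_le (x.1 - (u₀ + η * w.re)) (η * w.re)
      have h01 : x.1 - (u₀ + η * w.re) + η * w.re = x.1 - u₀ := by ring
      rwa [h01] at h0
    rw [abs_mul, abs_of_pos hη0] at h1
    have h2 : η * |w.re| ≤ η * B := by gcongr
    have h3 : δ * η ≤ 1 * η := by gcongr
    linarith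
  have hh := hρh (y := x.1) (by rw [Real.dist_eq]; linarith)
  rw [Real.norm_eq_abs, Real.norm_eq_abs, smul_eq_mul] at hh
  have hh2 : |h x.1 - h u₀ - (x.1 - u₀) * c| ≤ η * (d / 8) := by
    refine hh.trans ?_
    calc d / (8 * (B + 1)) * |x.1 - u₀| ≤ d / (8 * (B + 1)) * (η * (B + 1)) := by gcongr
      _ = η * (d / 8) := by field_simp
  have hh3 : |(x.1 - u₀) * c - η * w.re * c| ≤ η * (d / 8) := by
    have h1 : (x.1 - u₀) * c - η * w.re * c = (x.1 - (u₀ + η * w.re)) * c := by ring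
    rw [h1, abs_mul]
    calc |x.1 - (u₀ + η * w.re)| * |c| ≤ (δ * η) * |c| := by gcongr
      _ = η * (|c| * δ) := by ring
      _ ≤ η * (d / 8) := by gcongr
  have hhh : |h x.1 - h u₀ - η * (c * w.re)| ≤ η * (d / 4) := by
    have h1 : h x.1 - h u₀ - η * (c * w.re) =
        (h x.1 - h u₀ - (x.1 - u₀) * c) + ((x.1 - u₀) * c - η * w.re * c) := by ring
    rw [h1]
    refine (abs_add_le _ _).trans ?_
    linarith
  have e1 : (sc u₀ y₀ (h u₀) (η, t, w)).1.re = y₀ + η * t.re := by simp [sc]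
  have e2 : (sc u₀ y₀ (h u₀) (η, t, w)).1.im = h u₀ + η * t.im := by simp [sc]
  have e3 : (sc u₀ y₀ (h u₀) (η, t, w)).2.re = u₀ + η * w.re := by simp [sc]
  have e4 : (sc u₀ y₀ (h u₀) (η, t, w)).2.im = η * w.im := by simp [sc]
  show _ ∧ _ ∧ _
  rw [e1, e2, e3, e4, kap_mul hη0.le]
  have hdep : h u₀ + η * t.im - h x.1 - η * kap p q w.im =
      η * (t.im - c * w.re - kap p q w.im) - (h x.1 - h u₀ - η * (c * w.re)) := by ring
  rw [hdep]
  exact cover_core hk hη0 hd0 hδ0 hδ1 hhh hz2 hb4 hb3 hηr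
    (by rw [abs_sub_comm]; exact hx2) (by rw [abs_sub_comm]; exact hx1)

end Vale.Agent.P097.H899.Nt
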