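import Vale.Agent.P097.H899.Nt2B

/-!
Two-variable non-tangential limits, part C: estimates on real slices.
-/

open Complex Metric Filter Topology Set MeasureTheory
open Vale.Agent.P097.H877.Bd

namespace Vale.Agent.P097.H899.Nt

/-- one-variable estimate from approximate boundary values -/
theorem slice_est {k r M : ℝ} (hk : 0 < k) (hr : 0 < r) (hM : 0 < M) {K : Set ℝ}
    (hK : IsCompact K) {f : ℂ → ℂ} (hf : DifferentiableOn ℂ f (saw k r K))
    (hfM : ∀ z ∈ saw k r K, ‖f z‖ ≤ M) {l : ℂ} (hl : ‖l‖ ≤ M) {s : ℝ} (hs : 0 ≤ s)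
    {σ : ℕ → ℝ} (hσ0 : ∀ n, 0 < σ n) (hσ : Tendsto σ atTop (𝓝 0))
    (hb : ∀ᶠ n in atTop, ∀ x ∈ K, ‖f (x + (σ n : ℂ) * I) - l‖ ≤
      2 * M * Real.exp (-(s * Real.pi)))
    (hsmall : (volume K).toReal / (r / 2 / 2) ≤ Real.pi - 2 * Real.arctan (k / 2)) :
    ∀ z ∈ saw (k / 2) (r / 2 / 2) K, ‖f z - l‖ *
      Real.exp (s * ((cau K z).im - (Real.pi - 2 * Real.arctan (k / 2)))) ≤ 2 * M := by
  intro z hz
  have hsub : saw (k / 2) (r / 2 / 2) K ⊆ saw k r K :=
    saw_mono (by positivity) (by linarith) (by linarith) subset_rfl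
  have hshift : ∀ n, σ n < r / 2 → ∀ w ∈ saw k (r / 2) K, w + (σ n : ℂ) * I ∈ saw k r K := by
    intro n hn w hw
    obtain ⟨x, hxK, hx⟩ := mem_saw.mp hw
    refine mem_saw.mpr ⟨x, hxK, ?_, ?_⟩
    · have := hx.1
      simp only [Complex.add_re, Complex.mul_re, Complex.ofReal_re, Complex.I_re, mul_zero,
        Complex.ofReal_im, Complex.I_im, mul_one, sub_self, add_zero, Complex.add_im,
        Complex.mul_im]
      nlinarith [hσ0 n]
    · have := hx.2
      simp only [Complex.add_im, Complex.mul_im, Complex.ofReal_re, Complex.I_im, mul_one,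
        Complex.ofReal_im, Complex.I_re, mul_zero, add_zero]
      linarith
  have hsm : ∀ᶠ n in atTop, σ n < r / 2 := hσ.eventually (gt_mem_nhds (by positivity))
  have hev : ∀ᶠ n in atTop, ‖f (z + (σ n : ℂ) * I) - l‖ *
      Real.exp (s * ((cau K z).im - (Real.pi - 2 * Real.arctan (k / 2)))) ≤ 2 * M := by
    filter_upwards [hb, hsm] with n hbn hn
    set g : ℂ → ℂ := fun w => (f (w + (σ n : ℂ) * I) - l) / (2 * M : ℝ) with hg
    have hgn : ∀ w, ‖g w‖ = ‖f (w + (σ n : ℂ) * I) - l‖ / (2 * M) := by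
      intro w
      rw [hg]
      simp only [norm_div, Complex.norm_real, Real.norm_eq_abs]
      rw [abs_of_pos (by positivity : (0:ℝ) < 2 * M)]
    have hfd : ∀ w : ℂ, w + (σ n : ℂ) * I ∈ saw k r K → DifferentiableAt ℂ g w := by
      intro w hw
      have h1 : DifferentiableAt ℂ f (w + (σ n : ℂ) * I) :=
        hf.differentiableAt ((isOpen_saw k r K).mem_nhds hw)
      have h2 : DifferentiableAt ℂ (fun w : ℂ => f (w + (σ n : ℂ) * I)) w :=
        h1.comp w ((differentiableAt_id).add_const _)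
      exact (h2.sub_const l).div_const _
    have h1 := saw_max (f := g) hk (half_pos hr) hK
      (fun w hw => (hfd w (hshift n hn w hw)).differentiableWithinAt)
      (fun w hw => by
        rw [hgn, div_le_one (by positivity)]
        have h2 := hfM _ (hshift n hn w hw)
        have h3 := norm_sub_le (f (w + (σ n : ℂ) * I)) l
        linarith) hs
      (fun x hx δ hδ => by
        have h2 : (x : ℂ) + (σ n : ℂ) * I ∈ saw k r K := by
          refine mem_saw.mpr ⟨x, hx, ?_, ?_⟩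
          · simp only [Complex.add_re, Complex.ofReal_re, Complex.mul_re, Complex.I_re, mul_zero,
              Complex.ofReal_im, Complex.I_im, mul_one, sub_self, add_zero, abs_zero,
              Complex.add_im, Complex.mul_im, zero_add]
            have := hσ0 n
            positivity
          · simp only [Complex.add_im, Complex.mul_im, Complex.ofReal_re, Complex.I_im, mul_one,
              Complex.ofReal_im, Complex.I_re, mul_zero, add_zero, zero_add]
            linarith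
        have h3 : ContinuousAt (fun w => ‖g w‖) (x : ℂ) := (hfd _ h2).continuousAt.norm
        have h4 : ‖g x‖ ≤ Real.exp (-(s * Real.pi)) := by
          rw [hgn, div_le_iff₀ (by positivity)]
          refine (hbn x hx).trans (le_of_eq ?_)
          ring
        have h5 : ∀ᶠ w in 𝓝 (x : ℂ), ‖g w‖ < Real.exp (-(s * Real.pi)) + δ :=
          h3.eventually (gt_mem_nhds (by linarith))
        exact h5.mono fun w hw _ => hw.le) hsmall z hz
    rw [hgn, div_mul_eq_mul_div, div_le_one (by positivity)] at h1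
    exact h1
  have hcont : ContinuousAt f z :=
    (hf.differentiableAt ((isOpen_saw k r K).mem_nhds (hsub hz))).continuousAt
  have ht : Tendsto (fun n => z + (σ n : ℂ) * I) atTop (𝓝 z) := by
    have h1 : Tendsto (fun n => (σ n : ℂ)) atTop (𝓝 ((0 : ℝ) : ℂ)) :=
      (Complex.continuous_ofReal.tendsto 0).comp hσ
    have h2 := (h1.mul_const I).const_add z
    simpa using h2
  have ht2 : Tendsto (fun n => ‖f (z + (σ n : ℂ) * I) - l‖ *
      Real.exp (s * ((cau K z).im - (Real.pi - 2 * Real.arctan (k / 2))))) atTop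
      (𝓝 (‖f z - l‖ *
      Real.exp (s * ((cau K z).im - (Real.pi - 2 * Real.arctan (k / 2)))))) :=
    ((hcont.tendsto.comp ht).sub_const l).norm.mul_const _
  exact le_of_tendsto ht2 hev

/-- most real slices near a density point are nearly full -/
theorem good_dense {S : Set (ℝ × ℝ)} (hSm : MeasurableSet S) {u₀ y₀ : ℝ}
    (hD : Dens2 S (u₀, y₀)) {W m B δ : ℝ} (hW : 0 < W) (hm : 0 < m) (hB : 0 < B) (hδ : 0 < δ) :
    ∀ᶠ η : ℝ in 𝓝[>] 0, ∀ u : ℝ, |u| ≤ B → ∃ u' : ℝ, |u' - u| ≤ δ ∧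
      volume (Icc (y₀ - η * W) (y₀ + η * W) \ {y | (u₀ + η * u', y) ∈ S}) ≤
        ENNReal.ofReal (m * η) := by
  set R := W + B + δ with hR
  have hR0 : 0 < R := by positivity
  obtain ⟨r₀, hr₀, hr⟩ := hD (δ * m / R ^ 2) (by positivity)
  have h1 : ∀ᶠ η : ℝ in 𝓝[>] 0, η * R < r₀ := by
    have : ∀ᶠ η : ℝ in 𝓝 0, η * R < r₀ :=
      (isOpen_lt (f := fun η : ℝ => η * R) (by fun_prop) continuous_const).mem_nhds
        (by simpa using hr₀)
    exact nhdsWithin_le_nhds this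
  filter_upwards [h1, self_mem_nhdsWithin] with η hη1 hη0 u hu
  have hη0' : 0 < η := hη0
  by_contra hcon
  push Not at hcon
  set Q := closedBall (u₀, y₀) (η * R) \ S with hQ
  have hQm : MeasurableSet Q := isClosed_closedBall.measurableSet.diff hSm
  have hQv : volume Q ≤ ENNReal.ofReal (δ * m / R ^ 2 * (η * R) ^ 2) :=
    hr (η * R) (by positivity) hη1
  rw [Measure.volume_eq_prod, Measure.prod_apply hQm] at hQv
  set J := Icc (u₀ + η * (u - δ)) (u₀ + η * (u + δ)) with hJ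
  have h2 : ∀ v ∈ J, ENNReal.ofReal (m * η) ≤ volume (Prod.mk v ⁻¹' Q) := by
    intro v hv
    have h3 : |(v - u₀) / η - u| ≤ δ := by
      rw [abs_le]
      constructor
      · rw [← sub_nonneg]
        have : (v - u₀) / η - u - -δ = (v - (u₀ + η * (u - δ))) / η := by field_simp; ring
        rw [this]
        exact div_nonneg (by linarith [hv.1]) hη0'.le
      · rw [← sub_nonneg]
        have : δ - ((v - u₀) / η - u) = ((u₀ + η * (u + δ)) - v) / η := by field_simp; ring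
        rw [this]
        exact div_nonneg (by linarith [hv.2]) hη0'.le
    have h4 := hcon ((v - u₀) / η) h3
    have h5 : u₀ + η * ((v - u₀) / η) = v := by field_simp; ring
    rw [h5] at h4
    refine h4.le.trans (measure_mono ?_)
    intro y hy
    refine ⟨?_, hy.2⟩
    rw [mem_closedBall, Prod.dist_eq, max_le_iff, Real.dist_eq, Real.dist_eq]
    have h6 : η * R = η * W + η * B + η * δ := by rw [hR]; ring
    have h7 : 0 < η * W := by positivity
    have h8 : 0 < η * B := by positivity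
    have h9 : 0 < η * δ := by positivity
    have h10 : η * (u - δ) = η * u - η * δ := by ring
    have h11 : η * (u + δ) = η * u + η * δ := by ring
    have h12 : |η * u| ≤ η * B := by
      rw [abs_mul, abs_of_pos hη0']; gcongr
    rw [abs_le] at h12
    have hv1 := hv.1
    have hv2 := hv.2
    have hy1 := hy.1.1
    have hy2 := hy.1.2
    constructor
    · rw [abs_le]
      constructor <;> linarith
    · rw [abs_le]
      constructor <;> linarith
  have h3 : ENNReal.ofReal (m * η) * volume J ≤ ∫⁻ v, volume (Prod.mk v ⁻¹' Q) := by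
    rw [← setLIntegral_const]
    refine (setLIntegral_mono' measurableSet_Icc h2).trans ?_
    exact setLIntegral_le_lintegral _ _
  have h4 := h3.trans hQv
  rw [hJ, Real.volume_Icc, ← ENNReal.ofReal_mul (by positivity),
    ENNReal.ofReal_le_ofReal_iff (by positivity)] at h4
  have h5 : δ * m / R ^ 2 * (η * R) ^ 2 = δ * m * η ^ 2 := by field_simp
  rw [h5] at h4
  have h6 : m * η * (u₀ + η * (u + δ) - (u₀ + η * (u - δ))) = 2 * (δ * m * η ^ 2) := by ring
  rw [h6] at h4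
  have h7 : 0 < δ * m * η ^ 2 := by positivity
  linarith

/-- one-variable estimate in a window which is nearly filled by `K` -/
theorem window_est {k r M : ℝ} (hk : 0 < k) (hr : 0 < r) (hM : 0 < M) {K : Set ℝ}
    (hKc : IsCompact K) {f : ℂ → ℂ} (hf : DifferentiableOn ℂ f (saw k r K))
    (hfM : ∀ z ∈ saw k r K, ‖f z‖ ≤ M) {l : ℂ} (hl : ‖l‖ ≤ M) {s : ℝ} (hs : 0 ≤ s)
    {σ : ℕ → ℝ} (hσ0 : ∀ n, 0 < σ n) (hσ : Tendsto σ atTop (𝓝 0))
    (hb : ∀ᶠ n in atTop, ∀ x ∈ K, ‖f (x + (σ n : ℂ) * I) - l‖ ≤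
      2 * M * Real.exp (-(s * Real.pi)))
    {y₀ η B W X a d m : ℝ} (hη0 : 0 < η) (hB0 : 0 < B) (hd0 : 0 < d) (hX0 : 0 < X)
    (ha : a = Real.arctan (k / 2)) (ha0 : 0 < a) (hW : W = B + 2 * B * X) (hXk : k / 2 ≤ X)
    (hXa : Real.pi / 2 - a / 4 < Real.arctan X) (hm0 : 0 < m) (hm1 : m ≤ k * d / 4)
    (hm2 : m ≤ d * a / 8) (hKI : K ⊆ Icc (y₀ - η * W) (y₀ + η * W))
    (hvol : volume (Icc (y₀ - η * W) (y₀ + η * W) \ K) ≤ ENNReal.ofReal (m * η))
    (hη3 : η * (2 * B) < r / 2 / 2) (hη4 : η * (2 * W) < (Real.pi - 2 * a) * (r / 2 / 2))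
    {ζ : ℂ} (hre : |ζ.re - y₀| ≤ η * B) (him1 : η * d / 2 ≤ ζ.im) (him2 : ζ.im ≤ η * (2 * B)) :
    ‖f ζ - l‖ * Real.exp (s * a) ≤ 2 * M := by
  have hηd : 0 < η * d := by positivity
  have hηB : 0 < η * B := by positivity
  have him0 : 0 < ζ.im := by linarith
  have hKm : MeasurableSet K := hKc.measurableSet
  have hKf : volume K ≠ ⊤ := hKc.measure_lt_top.ne
  have hwin : η * W = η * B + η * (2 * B) * X := by rw [hW]; ring
  have hkX : k / 2 * ζ.im ≤ η * (2 * B) * X := by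
    calc k / 2 * ζ.im ≤ X * (η * (2 * B)) := by gcongr
      _ = η * (2 * B) * X := by ring
  rw [abs_le] at hre
  have hηX : 0 < η * (2 * B) * X := by positivity
  have hmem : ζ ∈ saw (k / 2) (r / 2 / 2) K := by
    by_contra hcon
    have h1 : Ioo (ζ.re - k / 2 * ζ.im) (ζ.re + k / 2 * ζ.im) ⊆
        Icc (y₀ - η * W) (y₀ + η * W) \ K := by
      intro y hy
      have hyI : y ∈ Icc (y₀ - η * W) (y₀ + η * W) := by
        constructor <;> linarith [hy.1, hy.2, hre.1, hre.2]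
      refine ⟨hyI, fun hyS => hcon (mem_saw.mpr ⟨y, hyS, ?_, by linarith⟩)⟩
      rw [abs_lt]
      constructor <;> linarith [hy.1, hy.2]
    have h2 := (measure_mono h1).trans hvol
    rw [Real.volume_Ioo, ENNReal.ofReal_le_ofReal_iff (by positivity)] at h2
    have h3 : m * η ≤ k * d / 4 * η := by gcongr
    have h4 : k * (η * d / 2) ≤ k * ζ.im := by gcongr
    have h5 : 0 < k * d / 4 * η := by positivity
    have h6 : k * (η * d / 2) = 2 * (k * d / 4 * η) := by ring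
    linarith
  have hsmall : (volume K).toReal / (r / 2 / 2) ≤ Real.pi - 2 * Real.arctan (k / 2) := by
    rw [← ha, div_le_iff₀ (by positivity)]
    have h1 : volume K ≤ ENNReal.ofReal (η * (2 * W)) := by
      refine (measure_mono hKI).trans ?_
      rw [Real.volume_Icc]
      refine ENNReal.ofReal_le_ofReal (le_of_eq ?_)
      ring
    have h2 := ENNReal.toReal_le_of_le_ofReal (by rw [mul_left_comm]; linarith) h1
    linarith
  have hest := slice_est hk hr hM hKc hf hfM hl hs hσ0 hσ hb hsmall ζ hmem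
  have hcau := cau_ge_window hKm hKf him0 (a := y₀ - η * W) (b := y₀ + η * W) (m := m * η)
    (by linarith) (by positivity) hvol
  have hXi : X * ζ.im ≤ η * (2 * B) * X := by
    calc X * ζ.im ≤ X * (η * (2 * B)) := by gcongr
      _ = η * (2 * B) * X := by ring
  have hX2 : X ≤ (y₀ + η * W - ζ.re) / ζ.im := by
    rw [le_div_iff₀ him0]
    linarith [hre.2]
  have hX3 : (y₀ - η * W - ζ.re) / ζ.im ≤ -X := by
    rw [div_le_iff₀ him0]
    linarith [hre.1]
  have h1 := Real.arctan_strictMono.monotone hX2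
  have h2 := Real.arctan_strictMono.monotone hX3
  rw [Real.arctan_neg] at h2
  have h3 : m * η / ζ.im ≤ a / 4 := by
    rw [div_le_iff₀ him0]
    have h4 : m * η ≤ d * a / 8 * η := by gcongr
    have h5 : a / 4 * (η * d / 2) ≤ a / 4 * ζ.im := by gcongr
    have h6 : a / 4 * (η * d / 2) = d * a / 8 * η := by ring
    linarith
  have h4 : a ≤ (cau K ζ).im - (Real.pi - 2 * Real.arctan (k / 2)) := by
    rw [← ha]; linarith
  have h5 : Real.exp (s * a) ≤
      Real.exp (s * ((cau K ζ).im - (Real.pi - 2 * Real.arctan (k / 2)))) := by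
    apply Real.exp_le_exp.mpr
    gcongr
  exact (mul_le_mul_of_nonneg_left h5 (norm_nonneg _)).trans hest

/-- the data of a uniform piece -/
structure Dat (h : ℝ → ℝ) (F : ℂ × ℂ → ℂ) (S : Set (ℝ × ℝ)) (U : Set (ℂ × ℂ))
    (p q k r M : ℝ) : Prop where
  hk : 0 < k
  hr : 0 < r
  hM : 0 < M
  hS : IsCompact S
  hU : IsOpen U
  hF : DifferentiableOn ℂ F U
  hFM : ∀ z ∈ U, ‖F z‖ ≤ M
  hT : ∀ x ∈ S, TT p q k r (h x.1) x.1 x.2 ⊆ U

variable {h : ℝ → ℝ} {F : ℂ × ℂ → ℂ} {S : Set (ℝ × ℝ)} {U : Set (ℂ × ℂ)} {p q k r M : ℝ}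

theorem Dat.mem (D : Dat h F S U p q k r M) {u y : ℝ} (hx : (u, y) ∈ S) {ζ : ℂ}
    (hζ : ζ ∈ cone k r y) : (ζ + (h u : ℂ) * I, (u : ℂ)) ∈ U := by
  refine D.hT (u, y) hx ⟨?_, ?_, ?_⟩
  · have := hζ.1
    simpa using this
  · have := hζ.2
    simpa using this
  · simpa using D.hr

theorem Dat.diff (D : Dat h F S U p q k r M) {u : ℝ} {K : Set ℝ} (hK : ∀ y ∈ K, (u, y) ∈ S) :
    DifferentiableOn ℂ (fun ζ : ℂ => F (ζ + (h u : ℂ) * I, (u : ℂ))) (saw k r K) := by
  intro ζ hζ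
  obtain ⟨y, hy, hζy⟩ := mem_saw.mp hζ
  have h1 := D.hF.differentiableAt (D.hU.mem_nhds (D.mem (hK y hy) hζy))
  have h2 : DifferentiableAt ℂ (fun ζ : ℂ => (ζ + (h u : ℂ) * I, (u : ℂ))) ζ :=
    (differentiableAt_id.add_const _).prodMk (differentiableAt_const _)
  exact (h1.comp ζ h2).differentiableWithinAt

/-- estimate on the good slices -/
theorem good_est (D : Dat h F S U p q k r M) {u₀ y₀ c : ℝ} (hd : HasDerivAt h c u₀)
    {l : ℂ} (hl : ‖l‖ ≤ M) {σ : ℕ → ℝ} (hσ0 : ∀ n, 0 < σ n) (hσ : Tendsto σ atTop (𝓝 0))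
    (hg : ∀ ε > 0, ∃ ρ > 0, ∀ᶠ n in atTop, ∀ x ∈ S, dist x (u₀, y₀) < ρ →
      ‖F ((x.2 : ℂ) + (σ n : ℂ) * I + (h x.1 : ℂ) * I, (x.1 : ℂ)) - l‖ ≤ ε)
    {d B : ℝ} (hd0 : 0 < d) (hB : 1 ≤ B) :
    ∃ W > 0, ∃ m > 0, ∀ ε > 0, ∀ᶠ η : ℝ in 𝓝[>] 0, ∀ (u : ℝ) (t : ℂ), |u| ≤ B → |t.re| ≤ B →
      d ≤ t.im - c * u → t.im - c * u ≤ B →
      volume (Icc (y₀ - η * W) (y₀ + η * W) \ {y | (u₀ + η * u, y) ∈ S}) ≤
        ENNReal.ofReal (m * η) → ‖F (sc u₀ y₀ (h u₀) (η, t, (u : ℂ))) - l‖ ≤ ε := by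
  have hk := D.hk
  have hr := D.hr
  have hM := D.hM
  have hB0 : 0 < B := by linarith
  obtain ⟨a, ha⟩ : ∃ a, a = Real.arctan (k / 2) := ⟨_, rfl⟩
  have ha0 : 0 < a := by rw [ha]; exact Real.arctan_pos.mpr (by positivity)
  have ha1 : a < Real.pi / 2 := by rw [ha]; exact Real.arctan_lt_pi_div_two _
  -- the window
  obtain ⟨X, hX0, hXk, hXa⟩ : ∃ X : ℝ, 0 < X ∧ k / 2 ≤ X ∧ Real.pi / 2 - a / 4 < Real.arctan X := by
    have h1 : ∀ᶠ X in atTop, Real.pi / 2 - a / 4 < Real.arctan X :=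
      (tendsto_nhds_of_tendsto_nhdsWithin Real.tendsto_arctan_atTop).eventually
        (lt_mem_nhds (by linarith))
    obtain ⟨X, h2, h3, h4⟩ := (h1.and ((eventually_gt_atTop 0).and
      (eventually_ge_atTop (k / 2)))).exists
    exact ⟨X, h3, h4, h2⟩
  set W : ℝ := B + 2 * B * X with hW
  have hW0 : 0 < W := by positivity
  set m : ℝ := min (k * d / 4) (d * a / 8) with hm
  have hm0 : 0 < m := by positivity
  have hm1 : m ≤ k * d / 4 := min_le_left _ _
  have hm2 : m ≤ d * a / 8 := min_le_right _ _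
  refine ⟨W, hW0, m, hm0, fun ε hε => ?_⟩
  -- the exponent
  obtain ⟨s, hs0, hs⟩ : ∃ s : ℝ, 0 ≤ s ∧ 2 * M * Real.exp (-(s * a)) ≤ ε := by
    have h1 : Tendsto (fun s : ℝ => 2 * M * Real.exp (-(s * a))) atTop (𝓝 (2 * M * 0)) := by
      refine Tendsto.const_mul _ (Real.tendsto_exp_neg_atTop_nhds_zero.comp ?_)
      exact tendsto_id.atTop_mul_const ha0
    rw [mul_zero] at h1
    obtain ⟨s, hs1, hs2⟩ := ((h1.eventually (gt_mem_nhds hε)).and (eventually_ge_atTop 0)).exists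
    exact ⟨s, hs2, hs1.le⟩
  obtain ⟨ρ, hρ, hρg⟩ := hg (2 * M * Real.exp (-(s * Real.pi))) (by positivity)
  have hlo := hd.isLittleO.def (c := d / (2 * B)) (by positivity)
  obtain ⟨ρ₂, hρ₂, hρh⟩ := Metric.eventually_nhds_iff.mp hlo
  have hc' : 0 < Real.pi - 2 * a := by linarith
  have hη : ∀ᶠ η : ℝ in 𝓝[>] 0, 0 < η ∧ η * (W + B) < ρ ∧ η * (B + 1) < ρ₂ ∧
      η * (2 * B) < r / 2 / 2 ∧ η * (2 * W) < (Real.pi - 2 * a) * (r / 2 / 2) := by
    have h1 : ∀ {m e : ℝ}, 0 < e → ∀ᶠ η : ℝ in 𝓝[>] 0, η * m < e := by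
      intro m e he
      have : ∀ᶠ η : ℝ in 𝓝 0, η * m < e :=
        (isOpen_lt (f := fun η : ℝ => η * m) (by fun_prop) continuous_const).mem_nhds
          (by simpa using he)
      exact nhdsWithin_le_nhds this
    filter_upwards [self_mem_nhdsWithin, h1 (m := W + B) hρ, h1 (m := B + 1) hρ₂,
      h1 (m := 2 * B) (e := r / 2 / 2) (by positivity),
      h1 (m := 2 * W) (e := (Real.pi - 2 * a) * (r / 2 / 2)) (by positivity)]
      with η e1 e2 e3 e4 e5
    exact ⟨e1, e2, e3, e4, e5⟩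
  filter_upwards [hη] with η hη' u t hu ht hdt hBt hvol
  obtain ⟨hη0, hη1, hη2, hη3, hη4⟩ := hη'
  obtain ⟨v, hv⟩ : ∃ v, v = u₀ + η * u := ⟨_, rfl⟩
  rw [← hv] at hvol
  set K : Set ℝ := {y | (v, y) ∈ S} ∩ Icc (y₀ - η * W) (y₀ + η * W) with hK
  have hclosed : IsClosed {y : ℝ | (v, y) ∈ S} :=
    D.hS.isClosed.preimage (f := fun y : ℝ => (v, y)) (by fun_prop)
  have hKc : IsCompact K := isCompact_Icc.inter_left hclosed
  have hKS : ∀ y ∈ K, (v, y) ∈ S := fun y hy => hy.1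
  have hKm : MeasurableSet K := hKc.measurableSet
  have hKf : volume K ≠ ⊤ := hKc.measure_lt_top.ne
  have hηu : |η * u| ≤ η * B := by rw [abs_mul, abs_of_pos hη0]; gcongr
  have hηt : |η * t.re| ≤ η * B := by rw [abs_mul, abs_of_pos hη0]; gcongr
  have hηB : 0 < η * B := by positivity
  have hηW : 0 < η * W := by positivity
  have hvu : v - u₀ = η * u := by rw [hv]; ring
  -- the height of the slice
  have hh := hρh (y := v) (by rw [Real.dist_eq, hvu]; linarith)
  rw [Real.norm_eq_abs, Real.norm_eq_abs, smul_eq_mul, hvu] at hh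
  have hh2 : |h v - h u₀ - η * u * c| ≤ η * (d / 2) := by
    refine hh.trans ?_
    calc d / (2 * B) * |η * u| ≤ d / (2 * B) * (η * B) := by gcongr
      _ = η * (d / 2) := by field_simp
  obtain ⟨ζ, hζ⟩ : ∃ ζ : ℂ, ζ = (y₀ : ℂ) + (η : ℂ) * t + ((h u₀ - h v : ℝ) : ℂ) * I := ⟨_, rfl⟩
  have hζre : ζ.re = y₀ + η * t.re := by rw [hζ]; simp
  have hζim : ζ.im = η * (t.im - c * u) - (h v - h u₀ - η * u * c) := by
    rw [hζ]; simp; ring
  rw [abs_le] at hh2
  have hg1 : η * d ≤ η * (t.im - c * u) := by gcongr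
  have hg2 : η * (t.im - c * u) ≤ η * B := by gcongr
  have hηd : 0 < η * d := by positivity
  have hdB : d ≤ B := hdt.trans hBt
  have hηdB : η * d ≤ η * B := by gcongr
  have him1 : η * d / 2 ≤ ζ.im := by rw [hζim]; linarith [hh2.2]
  have him2 : ζ.im ≤ η * (2 * B) := by rw [hζim]; linarith [hh2.1]
  -- the estimate
  rw [abs_le] at hηt
  have hest := window_est (f := fun ζ : ℂ => F (ζ + (h v : ℂ) * I, (v : ℂ))) hk hr hM hKc
    (D.diff hKS) (fun z hz => by
      obtain ⟨y, hy, hzy⟩ := mem_saw.mp hz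
      exact D.hFM _ (D.mem (hKS y hy) hzy)) hl hs0 hσ0 hσ
    (by
      filter_upwards [hρg] with n hn y hy
      refine hn (v, y) (hKS y hy) ?_
      rw [Prod.dist_eq, max_lt_iff, Real.dist_eq, Real.dist_eq]
      have hy1 := hy.2.1
      have hy2 := hy.2.2
      have h1 : η * (W + B) = η * W + η * B := by ring
      constructor
      · show |v - u₀| < ρ
        rw [hvu]; linarith
      · show |y - y₀| < ρ
        rw [abs_lt]
        constructor <;> linarith)
    hη0 hB0 hd0 hX0 ha ha0 hW hXk hXa hm0 hm1 hm2 inter_subset_right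
    (by
      have h1 : Icc (y₀ - η * W) (y₀ + η * W) \ K =
          Icc (y₀ - η * W) (y₀ + η * W) \ {y | (v, y) ∈ S} := by
        ext y
        simp only [hK, Set.mem_sdiff, mem_inter_iff, mem_ofPred_eq]
        tauto
      rw [h1]; exact hvol)
    hη3 hη4 (ζ := ζ) (by
      rw [hζre, abs_le]
      constructor <;> linarith [hηt.1, hηt.2]) him1 him2
  have h6 : F (ζ + (h v : ℂ) * I, (v : ℂ)) = F (sc u₀ y₀ (h u₀) (η, t, (u : ℂ))) := by
    congr 1
    rw [hζ, hv]
    simp only [sc]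
    ext
    · push_cast; ring
    · push_cast; ring
  simp only [h6] at hest
  refine le_trans ?_ hs
  rw [Real.exp_neg, ← div_eq_mul_inv, le_div_iff₀ (Real.exp_pos _)]
  exact hest

end Vale.Agent.P097.H899.Nt
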