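import Vale.Agent.P097.H899.Nt2C

/-!
Two-variable non-tangential limits, part D: the blow-ups converge to a constant.
-/

open Complex Metric Filter Topology Set MeasureTheory
open Vale.Agent.P097.H877.Bd

namespace Vale.Agent.P097.H899.Nt

variable {h : ℝ → ℝ} {F : ℂ × ℂ → ℂ} {S : Set (ℝ × ℝ)} {U : Set (ℂ × ℂ)} {p q k r M : ℝ}

theorem Dat.cover (D : Dat h F S U p q k r M) {c u₀ y₀ : ℝ} (hd : HasDerivAt h c u₀)
    (hS : Dens2 S (u₀, y₀)) {z₁ : ℂ × ℂ} (hz₁ : c * z₁.2.re + kap p q z₁.2.im < z₁.1.im) :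
    ∀ᶠ a : ℝ × ℂ × ℂ in 𝓝[>] 0 ×ˢ 𝓝 z₁, sc u₀ y₀ (h u₀) a ∈ U := by
  filter_upwards [Nt.cover D.hk D.hr hd hS hz₁] with a ha
  obtain ⟨x, hx, hxa⟩ := ha
  exact D.hT x hx hxa

theorem eventually_mul_lt {m e : ℝ} (he : 0 < e) : ∀ᶠ η : ℝ in 𝓝[>] 0, η * m < e := by
  have : ∀ᶠ η : ℝ in 𝓝 0, η * m < e :=
    (isOpen_lt (f := fun η : ℝ => η * m) (by fun_prop) continuous_const).mem_nhds
      (by simpa using he)
  exact nhdsWithin_le_nhds this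

/-- the blow-ups are uniformly Lipschitz in the second variable -/
theorem lip_w (D : Dat h F S U p q k r M) {u₀ y₀ h₀ η ρ : ℝ} {t w w' : ℂ}
    (hin : ∀ v ∈ ball w ρ, sc u₀ y₀ h₀ (η, t, v) ∈ U) (hw' : w' ∈ ball w ρ) :
    ‖F (sc u₀ y₀ h₀ (η, t, w')) - F (sc u₀ y₀ h₀ (η, t, w))‖ ≤ 2 * M / ρ * ‖w' - w‖ := by
  have hρ : 0 < ρ := by
    have := mem_ball.mp hw'
    exact lt_of_le_of_lt dist_nonneg this
  have hd : DifferentiableOn ℂ (fun v : ℂ => F (sc u₀ y₀ h₀ (η, t, v))) (ball w ρ) := by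
    intro v hv
    have h1 := D.hF.differentiableAt (D.hU.mem_nhds (hin v hv))
    have h2 : DifferentiableAt ℂ (fun v : ℂ => sc u₀ y₀ h₀ (η, t, v)) v := by
      show DifferentiableAt ℂ (fun v : ℂ =>
        ((y₀ : ℂ) + (h₀ : ℂ) * I + (η : ℂ) * t, (u₀ : ℂ) + (η : ℂ) * v)) v
      fun_prop
    exact (h1.comp v h2).differentiableWithinAt
  have h1 := Complex.dist_le_div_mul_dist_of_mapsTo_ball (R₂ := 2 * M) hd (fun v hv => by
    rw [mem_closedBall, dist_eq_norm]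
    have e1 := D.hFM _ (hin v hv)
    have e2 := D.hFM _ (hin w (mem_ball_self hρ))
    refine (norm_sub_le _ _).trans ?_
    linarith) hw'
  rw [dist_eq_norm, dist_eq_norm] at h1
  exact h1

/-- convergence on real slices -/
theorem real_slice (D : Dat h F S U p q k r M) {u₀ y₀ c : ℝ} (hd : HasDerivAt h c u₀)
    (hS : Dens2 S (u₀, y₀)) {l : ℂ} (hl : ‖l‖ ≤ M) {σ : ℕ → ℝ} (hσ0 : ∀ n, 0 < σ n)
    (hσ : Tendsto σ atTop (𝓝 0))
    (hg : ∀ ε > 0, ∃ ρ > 0, ∀ᶠ n in atTop, ∀ x ∈ S, dist x (u₀, y₀) < ρ →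
      ‖F ((x.2 : ℂ) + (σ n : ℂ) * I + (h x.1 : ℂ) * I, (x.1 : ℂ)) - l‖ ≤ ε)
    {z₁ : ℂ × ℂ} (hz₁ : c * z₁.2.re < z₁.1.im) (hz₀ : z₁.2.im = 0) {ε : ℝ} (hε : 0 < ε) :
    ∀ᶠ a : ℝ × ℂ × ℂ in 𝓝[>] 0 ×ˢ 𝓝 z₁, a.2.2.im = 0 →
      ‖F (sc u₀ y₀ (h u₀) a) - l‖ ≤ ε := by
  have hM := D.hM
  obtain ⟨d, hd0, hd1⟩ : ∃ d, 0 < d ∧ z₁.1.im - c * z₁.2.re = 4 * d :=
    ⟨(z₁.1.im - c * z₁.2.re) / 4, by linarith, by ring⟩
  obtain ⟨pa, hpa, pb, hpb, hpab⟩ := Filter.eventually_prod_iff.mp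
    (D.cover hd hS (z₁ := z₁) (by rw [hz₀, kap_zero]; linarith))
  obtain ⟨ρ, hρ, hρb⟩ := Metric.eventually_nhds_iff_ball.mp hpb
  set B : ℝ := |z₁.1.re| + |z₁.2.re| + 6 * d + 2 with hB
  have a1 := abs_nonneg z₁.1.re
  have a2 := abs_nonneg z₁.2.re
  have a3 := abs_nonneg c
  have hB1 : 1 ≤ B := by linarith
  obtain ⟨δ, hδ0, hδ1, hδ2, hδ3, hδ4⟩ : ∃ δ : ℝ, 0 < δ ∧ δ < ρ / 2 ∧
      2 * M / (ρ / 2) * δ ≤ ε / 2 ∧ |c| * δ ≤ d / 2 ∧ δ ≤ 1 := by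
    refine ⟨min (min (ρ / 4) (ε * ρ / (8 * M))) (min (d / (2 * (|c| + 1))) 1), by positivity,
      ?_, ?_, ?_, ?_⟩
    · exact (min_le_left _ _).trans_lt ((min_le_left _ _).trans_lt (by linarith))
    · have h1 : min (min (ρ / 4) (ε * ρ / (8 * M))) (min (d / (2 * (|c| + 1))) 1) ≤
          ε * ρ / (8 * M) := (min_le_left _ _).trans (min_le_right _ _)
      calc _ ≤ 2 * M / (ρ / 2) * (ε * ρ / (8 * M)) := by gcongr
        _ = ε / 2 := by field_simp; ring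
    · have h1 : min (min (ρ / 4) (ε * ρ / (8 * M))) (min (d / (2 * (|c| + 1))) 1) ≤
          d / (2 * (|c| + 1)) := (min_le_right _ _).trans (min_le_left _ _)
      calc _ ≤ |c| * (d / (2 * (|c| + 1))) := by gcongr
        _ = d / 2 * (|c| / (|c| + 1)) := by field_simp
        _ ≤ d / 2 * 1 := by
            gcongr
            rw [div_le_one (by linarith)]
            linarith
        _ = d / 2 := mul_one _
    · exact (min_le_right _ _).trans (min_le_right _ _)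
  obtain ⟨W, hW, m, hm, hest⟩ := good_est D hd hl hσ0 hσ hg hd0 hB1
  have hB0 : 0 < B := by linarith
  have e1 := hest (ε / 2) (by positivity)
  have e2 := good_dense D.hS.isClosed.measurableSet hS hW hm hB0 hδ0
  have hz : ∀ᶠ z : ℂ × ℂ in 𝓝 z₁, dist z z₁ < ρ / 2 ∧ |z.1.re| < |z₁.1.re| + 1 ∧
      |z.2.re| < |z₁.2.re| + 1 ∧ 3 * d < z.1.im - c * z.2.re ∧
      z.1.im - c * z.2.re < 5 * d := by
    have h0 : ∀ᶠ z : ℂ × ℂ in 𝓝 z₁, dist z z₁ < ρ / 2 := Metric.ball_mem_nhds _ (half_pos hρ)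
    have h1 : ∀ᶠ z : ℂ × ℂ in 𝓝 z₁, |z.1.re| < |z₁.1.re| + 1 :=
      (isOpen_lt (f := fun z : ℂ × ℂ => |z.1.re|) (by fun_prop) continuous_const).mem_nhds
        (by show |z₁.1.re| < _; linarith)
    have h2 : ∀ᶠ z : ℂ × ℂ in 𝓝 z₁, |z.2.re| < |z₁.2.re| + 1 :=
      (isOpen_lt (f := fun z : ℂ × ℂ => |z.2.re|) (by fun_prop) continuous_const).mem_nhds
        (by show |z₁.2.re| < _; linarith)
    have h3 : ∀ᶠ z : ℂ × ℂ in 𝓝 z₁, 3 * d < z.1.im - c * z.2.re :=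
      (isOpen_lt (f := fun _ : ℂ × ℂ => 3 * d) (g := fun z : ℂ × ℂ => z.1.im - c * z.2.re)
        continuous_const (by fun_prop)).mem_nhds
        (by show 3 * d < z₁.1.im - c * z₁.2.re; linarith)
    have h4 : ∀ᶠ z : ℂ × ℂ in 𝓝 z₁, z.1.im - c * z.2.re < 5 * d :=
      (isOpen_lt (f := fun z : ℂ × ℂ => z.1.im - c * z.2.re)
        (by fun_prop) continuous_const).mem_nhds
        (by show z₁.1.im - c * z₁.2.re < _; linarith)
    filter_upwards [h0, h1, h2, h3, h4] with z g0 g1 g2 g3 g4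
    exact ⟨g0, g1, g2, g3, g4⟩
  filter_upwards [((hpa.and (e1.and e2)).prod_mk hz)] with a ha him
  obtain ⟨⟨g1, g2, g3⟩, hz0, hz1, hz2, hz3, hz4⟩ := ha
  obtain ⟨η, t, w⟩ := a
  simp only at g1 g2 g3 hz0 hz1 hz2 hz3 hz4 him
  obtain ⟨u', hu', hvol⟩ := g3 w.re (by linarith)
  rw [abs_le] at hu'
  have hwre : w = (w.re : ℂ) := by
    apply Complex.ext
    · simp
    · simp [him]
  have hcu : |c * u' - c * w.re| ≤ d / 2 := by
    rw [← mul_sub, abs_mul]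
    refine le_trans ?_ hδ3
    gcongr
    rw [abs_le]; exact hu'
  rw [abs_le] at hcu
  have hes := g2 u' t (by
    rw [abs_le]
    have := abs_le.mp hz2.le
    constructor <;> linarith [hu'.1, hu'.2]) (by linarith) (by linarith [hcu.2])
    (by linarith [hcu.1]) hvol
  have hball : ∀ v ∈ ball w (ρ / 2), sc u₀ y₀ (h u₀) (η, t, v) ∈ U := by
    intro v hv
    refine hpab g1 (hρb _ ?_)
    rw [mem_ball, Prod.dist_eq, max_lt_iff]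
    rw [Prod.dist_eq, max_lt_iff] at hz0
    rw [mem_ball] at hv
    refine ⟨hz0.1.trans (by linarith), ?_⟩
    have := dist_triangle v w z₁.2
    linarith [hz0.2]
  have hnu : ‖(u' : ℂ) - w‖ ≤ δ := by
    rw [hwre, ← Complex.ofReal_sub, Complex.norm_real, Real.norm_eq_abs, abs_le]
    exact hu'
  have hlip := lip_w D (h₀ := h u₀) hball (w' := (u' : ℂ)) (by
    rw [mem_ball, dist_eq_norm]; linarith)
  have hlip2 : 2 * M / (ρ / 2) * ‖(u' : ℂ) - w‖ ≤ ε / 2 := by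
    refine le_trans ?_ hδ2
    gcongr
  have hfin : F (sc u₀ y₀ (h u₀) (η, t, w)) - l =
      (F (sc u₀ y₀ (h u₀) (η, t, (u' : ℂ))) - l) -
      (F (sc u₀ y₀ (h u₀) (η, t, (u' : ℂ))) - F (sc u₀ y₀ (h u₀) (η, t, w))) := by ring
  rw [hfin]
  refine (norm_sub_le _ _).trans ?_
  linarith

/-- the complex line through a target point along which we come down from the real slices -/
noncomputable def pth (A c : ℝ) (z : ℂ × ℂ) (ζ : ℂ) : ℂ × ℂ :=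
  (z.1 + (-(A : ℂ) + (c : ℂ) * (z.2.im : ℂ) * I) * (ζ - I), (z.2.re : ℂ) + (z.2.im : ℂ) * ζ)

theorem continuous_pth (A c : ℝ) : Continuous fun x : (ℂ × ℂ) × ℂ => pth A c x.1 x.2 := by
  unfold pth
  fun_prop

theorem pth_I (A c : ℝ) (z : ℂ × ℂ) : pth A c z I = z := by
  unfold pth
  simp

theorem pth_depth (A c : ℝ) (z : ℂ × ℂ) (ζ : ℂ) :
    (pth A c z ζ).1.im - c * (pth A c z ζ).2.re = z.1.im - c * z.2.re + A * (1 - ζ.im) := by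
  simp [pth]
  ring

theorem pth_im (A c : ℝ) (z : ℂ × ℂ) (ζ : ℂ) : (pth A c z ζ).2.im = ζ.im * z.2.im := by
  simp [pth]
  ring

/-- uniformity over compact sets -/
theorem ev_forall {α Y : Type*} [TopologicalSpace Y] {l : Filter α} {K : Set Y} (hK : IsCompact K)
    {P : α → Y → Prop} (h : ∀ y ∈ K, ∀ᶠ z in l ×ˢ 𝓝 y, P z.1 z.2) :
    ∀ᶠ a in l, ∀ y ∈ K, P a y := by
  have h1 := hK.mem_prod_nhdsSet_of_forall (s := {z | P z.1 z.2}) h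
  rw [Filter.mem_prod_iff] at h1
  obtain ⟨t₁, ht₁, t₂, ht₂, hsub⟩ := h1
  filter_upwards [ht₁] with a ha y hy
  exact hsub (mk_mem_prod ha (subset_of_mem_nhdsSet ht₂ hy))

/-- **blow-up theorem** at a good point -/
theorem blowup (D : Dat h F S U p q k r M) {u₀ y₀ c : ℝ} (hd : HasDerivAt h c u₀)
    (hS : Dens2 S (u₀, y₀)) {l : ℂ} (hl : ‖l‖ ≤ M) {σ : ℕ → ℝ} (hσ0 : ∀ n, 0 < σ n)
    (hσ : Tendsto σ atTop (𝓝 0))
    (hg : ∀ ε > 0, ∃ ρ > 0, ∀ᶠ n in atTop, ∀ x ∈ S, dist x (u₀, y₀) < ρ →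
      ‖F ((x.2 : ℂ) + (σ n : ℂ) * I + (h x.1 : ℂ) * I, (x.1 : ℂ)) - l‖ ≤ ε)
    {z₁ : ℂ × ℂ} (hz₁ : c * z₁.2.re + kap p q z₁.2.im < z₁.1.im) :
    Tendsto (fun a => F (sc u₀ y₀ (h u₀) a)) (𝓝[>] 0 ×ˢ 𝓝 z₁) (𝓝 l) := by
  have hM := D.hM
  rw [Metric.tendsto_nhds]
  intro ε hε
  -- parameters
  obtain ⟨κ, hκ⟩ : ∃ κ, κ = kap p q z₁.2.im := ⟨_, rfl⟩
  obtain ⟨τ, hτ⟩ : ∃ τ, τ = z₁.1.im - c * z₁.2.re := ⟨_, rfl⟩
  have hτκ : κ < τ := by rw [hκ, hτ]; linarith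
  obtain ⟨A, hA0, hA1⟩ : ∃ A : ℝ, 0 < A ∧ 0 < τ + A := ⟨|τ| + 1, by positivity, by
    have := neg_abs_le τ
    linarith⟩
  obtain ⟨R, hR1, hR⟩ : ∃ R : ℝ, 1 < R ∧ ∀ Y : ℝ, 0 ≤ Y → Y ≤ R →
      Y * κ < τ + A * (1 - Y) := by
    refine ⟨1 + (τ - κ) / (2 * (A + |κ| + 1)), ?_, fun Y hY0 hY1 => ?_⟩
    · have : 0 < (τ - κ) / (2 * (A + |κ| + 1)) := by
        have : 0 < τ - κ := by linarith
        positivity
      linarith
    · rcases le_or_gt Y 1 with h1 | h1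
      · rcases eq_or_lt_of_le hY0 with h2 | h2
        · rw [← h2]; linarith
        · nlinarith
      · have h2 : (Y - 1) * (A + |κ| + 1) ≤ (τ - κ) / 2 := by
          have h3 : Y - 1 ≤ (τ - κ) / (2 * (A + |κ| + 1)) := by linarith
          calc (Y - 1) * (A + |κ| + 1) ≤ (τ - κ) / (2 * (A + |κ| + 1)) * (A + |κ| + 1) := by
                gcongr
            _ = (τ - κ) / 2 := by field_simp
        have h3 : (Y - 1) * (A + κ) ≤ (Y - 1) * (A + |κ| + 1) := by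
          have := le_abs_self κ
          exact mul_le_mul_of_nonneg_left (by linarith) (by linarith)
        nlinarith
  obtain ⟨s, hs0, hs⟩ : ∃ s : ℝ, 0 ≤ s ∧ 2 * M * Real.exp (-((1 - 1 / R) ^ 2 * s)) < ε := by
    have h0 : 0 < (1 - 1 / R) ^ 2 := by
      have : 1 / R < 1 := by rw [div_lt_one (by linarith)]; exact hR1
      have : 0 < 1 - 1 / R := by linarith
      positivity
    have h1 : Tendsto (fun s : ℝ => 2 * M * Real.exp (-((1 - 1 / R) ^ 2 * s))) atTop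
        (𝓝 (2 * M * 0)) := by
      refine Tendsto.const_mul _ (Real.tendsto_exp_neg_atTop_nhds_zero.comp ?_)
      exact tendsto_id.const_mul_atTop h0
    rw [mul_zero] at h1
    obtain ⟨s, hs1, hs2⟩ := ((h1.eventually (gt_mem_nhds hε)).and (eventually_ge_atTop 0)).exists
    exact ⟨s, hs2, hs1⟩
  have hcp := continuous_pth A c
  -- the transport of eventual properties along the paths
  have htr : ∀ ζ : ℂ, Tendsto (fun x : (ℝ × ℂ × ℂ) × ℂ => (x.1.1, pth A c x.1.2 x.2))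
      ((𝓝[>] 0 ×ˢ 𝓝 z₁) ×ˢ 𝓝 ζ) (𝓝[>] 0 ×ˢ 𝓝 (pth A c z₁ ζ)) := by
    intro ζ
    refine Tendsto.prodMk (tendsto_fst.comp tendsto_fst) ?_
    have h1 : Tendsto (fun x : (ℝ × ℂ × ℂ) × ℂ => (x.1.2, x.2))
        ((𝓝[>] 0 ×ˢ 𝓝 z₁) ×ˢ 𝓝 ζ) (𝓝 z₁ ×ˢ 𝓝 ζ) :=
      (tendsto_snd.comp tendsto_fst).prodMk tendsto_snd
    rw [← nhds_prod_eq] at h1
    exact (hcp.tendsto (z₁, ζ)).comp h1
  have hHD : IsCompact {ζ : ℂ | ‖ζ‖ ≤ R ∧ 0 ≤ ζ.im} := by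
    have h1 : {ζ : ℂ | ‖ζ‖ ≤ R ∧ 0 ≤ ζ.im} = closedBall 0 R ∩ {ζ : ℂ | 0 ≤ ζ.im} := by
      ext ζ
      simp
    rw [h1]
    exact (isCompact_closedBall _ _).inter_right
      (isClosed_le continuous_const Complex.continuous_im)
  have hI : IsCompact ((fun x : ℝ => (x : ℂ)) '' Icc (-R) R) :=
    isCompact_Icc.image Complex.continuous_ofReal
  have key1 : ∀ᶠ a : ℝ × ℂ × ℂ in 𝓝[>] 0 ×ˢ 𝓝 z₁, ∀ ζ ∈ {ζ : ℂ | ‖ζ‖ ≤ R ∧ 0 ≤ ζ.im},
      sc u₀ y₀ (h u₀) (a.1, pth A c a.2 ζ) ∈ U := by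
    refine ev_forall (P := fun (a : ℝ × ℂ × ℂ) (ζ : ℂ) => sc u₀ y₀ (h u₀) (a.1, pth A c a.2 ζ) ∈ U) hHD
      fun ζ hζ => ?_
    have h1 : c * (pth A c z₁ ζ).2.re + kap p q (pth A c z₁ ζ).2.im < (pth A c z₁ ζ).1.im := by
      have h2 := pth_depth A c z₁ ζ
      have h3 : ζ.im ≤ R := (le_abs_self _).trans ((Complex.abs_im_le_norm ζ).trans hζ.1)
      have h4 := hR ζ.im hζ.2 h3
      rw [pth_im, kap_mul hζ.2, ← hκ]
      rw [← hτ] at h2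
      linarith
    exact (htr ζ).eventually (D.cover hd hS h1)
  have key2 : ∀ᶠ a : ℝ × ℂ × ℂ in 𝓝[>] 0 ×ˢ 𝓝 z₁, ∀ ζ ∈ (fun x : ℝ => (x : ℂ)) '' Icc (-R) R,
      ((pth A c a.2 ζ).2.im = 0 →
      ‖F (sc u₀ y₀ (h u₀) (a.1, pth A c a.2 ζ)) - l‖ ≤ 2 * M * Real.exp (-s)) := by
    refine ev_forall (P := fun (a : ℝ × ℂ × ℂ) (ζ : ℂ) => ((pth A c a.2 ζ).2.im = 0 →
      ‖F (sc u₀ y₀ (h u₀) (a.1, pth A c a.2 ζ)) - l‖ ≤ 2 * M * Real.exp (-s))) hI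
      fun ζ hζ => ?_
    obtain ⟨x, hx, rfl⟩ := hζ
    have h0 : (pth A c z₁ (x : ℂ)).2.im = 0 := by rw [pth_im]; simp
    have h1 : c * (pth A c z₁ (x : ℂ)).2.re < (pth A c z₁ (x : ℂ)).1.im := by
      have h2 := pth_depth A c z₁ (x : ℂ)
      rw [← hτ] at h2
      simp only [Complex.ofReal_im, sub_zero, mul_one] at h2
      linarith
    exact (htr (x : ℂ)).eventually (real_slice D hd hS hl hσ0 hσ hg h1 h0
      (ε := 2 * M * Real.exp (-s)) (by positivity))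
  filter_upwards [key1, key2] with a h1 h2
  rw [dist_eq_norm]
  obtain ⟨g, hg'⟩ : ∃ g : ℂ → ℂ, g = fun ζ => F (sc u₀ y₀ (h u₀) (a.1, pth A c a.2 ζ)) - l :=
    ⟨_, rfl⟩
  have hres := two_const_axis (g := g) (C := 2 * M) hR1 (by positivity) hs0
    (fun ζ hζ1 hζ2 => by
      have h3 := D.hF.differentiableAt (D.hU.mem_nhds (h1 ζ ⟨hζ1, hζ2⟩))
      have h4 : DifferentiableAt ℂ (fun ζ : ℂ => sc u₀ y₀ (h u₀) (a.1, pth A c a.2 ζ)) ζ := by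
        show DifferentiableAt ℂ (fun ζ : ℂ => ((y₀ : ℂ) + ((h u₀ : ℝ) : ℂ) * I + (a.1 : ℂ) *
          (a.2.1 + (-(A : ℂ) + (c : ℂ) * (a.2.2.im : ℂ) * I) * (ζ - I)),
          (u₀ : ℂ) + (a.1 : ℂ) * ((a.2.2.re : ℂ) + (a.2.2.im : ℂ) * ζ))) ζ
        fun_prop
      rw [hg']
      exact (h3.comp ζ h4).sub_const l)
    (fun ζ hζ1 hζ2 => by
      rw [hg']
      have h3 := D.hFM _ (h1 ζ ⟨hζ1, hζ2⟩)
      refine (norm_sub_le _ _).trans ?_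
      linarith)
    (fun x hx => by
      rw [hg']
      exact h2 (x : ℂ) ⟨x, abs_le.mp hx, rfl⟩ (by rw [pth_im]; simp))
  rw [hg'] at hres
  simp only [pth_I] at hres
  exact hres.trans_lt hs

end Vale.Agent.P097.H899.Nt
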