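import Vale.Agent.P097.H899.Nt2D
import Vale.Agent.P097.H877.Bd.Fat3

/-!
Two-variable non-tangential limits, part E: the almost everywhere statement on a uniform piece.
-/

open Complex Metric Filter Topology Set MeasureTheory
open Vale.Agent.P097.H877.Bd

namespace Vale.Agent.P097.H899.Nt

variable {h : ℝ → ℝ} {F : ℂ × ℂ → ℂ} {S : Set (ℝ × ℝ)} {U : Set (ℂ × ℂ)} {p q k r M : ℝ}

/-- approximate boundary values -/
noncomputable def bv (h : ℝ → ℝ) (F : ℂ × ℂ → ℂ) (σ : ℝ) (x : ℝ × ℝ) : ℂ :=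
  F ((x.2 : ℂ) + (σ : ℂ) * I + (h x.1 : ℂ) * I, (x.1 : ℂ))

theorem Dat.bv_mem (D : Dat h F S U p q k r M) {x : ℝ × ℝ} (hx : x ∈ S) {σ : ℝ} (hσ : 0 < σ)
    (hσr : σ < r) : ((x.2 : ℂ) + (σ : ℂ) * I + (h x.1 : ℂ) * I, (x.1 : ℂ)) ∈ U := by
  refine D.mem (u := x.1) (y := x.2) hx ⟨?_, ?_⟩
  · simp
    exact mul_pos D.hk hσ
  · simpa using hσr

theorem Dat.bv_cont (D : Dat h F S U p q k r M) (hh : Continuous h) {σ : ℝ} (hσ : 0 < σ)
    (hσr : σ < r) : ContinuousOn (bv h F σ) S := by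
  have h1 : Continuous fun x : ℝ × ℝ =>
      (((x.2 : ℂ) + (σ : ℂ) * I + (h x.1 : ℂ) * I, (x.1 : ℂ)) : ℂ × ℂ) := by fun_prop
  exact D.hF.continuousOn.comp h1.continuousOn fun x hx => D.bv_mem hx hσ hσr

theorem Dat.mono (D : Dat h F S U p q k r M) {S' : Set (ℝ × ℝ)} (hS' : IsCompact S')
    (hsub : S' ⊆ S) : Dat h F S' U p q k r M :=
  ⟨D.hk, D.hr, D.hM, hS', D.hU, D.hF, D.hFM, fun x hx => D.hT x (hsub hx)⟩

/-- the radial limits exist almost everywhere -/
theorem Dat.ae_lim (D : Dat h F S U p q k r M) (hh : Continuous h) {σ : ℕ → ℝ}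
    (hσ0 : ∀ n, 0 < σ n) (hσr : ∀ n, σ n < r) (hσ : Tendsto σ atTop (𝓝 0)) :
    ∃ g : ℝ × ℝ → ℂ, Measurable g ∧ (∀ n, Measurable (S.indicator (bv h F (σ n)))) ∧
      ∀ᵐ x : ℝ × ℝ, Tendsto (fun n => S.indicator (bv h F (σ n)) x) atTop (𝓝 (g x)) := by
  classical
  have hSm : MeasurableSet S := D.hS.isClosed.measurableSet
  have hm : ∀ n, Measurable (S.indicator (bv h F (σ n))) := by
    intro n
    have h1 := ContinuousOn.measurable_piecewise (D.bv_cont hh (hσ0 n) (hσr n))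
      (continuousOn_const (c := (0 : ℂ))) hSm
    have h2 : S.piecewise (bv h F (σ n)) (fun _ => (0 : ℂ)) = S.indicator (bv h F (σ n)) := by
      ext x
      by_cases hx : x ∈ S
      · simp [hx]
      · simp [hx]
    rwa [h2] at h1
  have hconv : ∀ᵐ x : ℝ × ℝ, ∃ l, Tendsto (fun n => S.indicator (bv h F (σ n)) x) atTop
      (𝓝 l) := by
    have hms := measurableSet_exists_tendsto (l := atTop) hm
    have h0 : (volume : Measure (ℝ × ℝ)) {x | ∃ l, Tendsto (fun n =>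
        S.indicator (bv h F (σ n)) x) atTop (𝓝 l)}ᶜ = 0 := by
      rw [Measure.volume_eq_prod, Measure.measure_prod_null hms.compl]
      refine Eventually.of_forall fun u => ?_
      show volume (Prod.mk u ⁻¹' _) = 0
      have hfat := fatloc (D := {ζ : ℂ | (ζ + (h u : ℂ) * I, (u : ℂ)) ∈ U})
        (f := fun ζ : ℂ => F (ζ + (h u : ℂ) * I, (u : ℂ))) (by
          intro ζ hζ
          have h1 := D.hF.differentiableAt (D.hU.mem_nhds hζ)
          have h2 : DifferentiableAt ℂ (fun ζ : ℂ => (ζ + (h u : ℂ) * I, (u : ℂ))) ζ :=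
            (differentiableAt_id.add_const _).prodMk (differentiableAt_const _)
          exact (h1.comp ζ h2).differentiableWithinAt) (E := {y | (u, y) ∈ S})
        (fun y hy => ⟨k, D.hk, r, D.hr, M, fun ζ hζ => D.mem hy hζ,
          fun ζ hζ => D.hFM _ (D.mem hy hζ)⟩)
      rw [ae_iff] at hfat
      refine measure_mono_null ?_ hfat
      intro y hy
      simp only [mem_preimage, mem_compl_iff, mem_ofPred_eq] at hy
      simp only [mem_ofPred_eq, Classical.not_imp]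
      have hyS : (u, y) ∈ S := by
        by_contra hcon
        apply hy
        refine ⟨0, ?_⟩
        simp only [indicator_of_notMem hcon]
        exact tendsto_const_nhds
      refine ⟨hyS, fun hL => ?_⟩
      apply hy
      obtain ⟨L, hL⟩ := hL
      refine ⟨L, ?_⟩
      obtain ⟨h', hh', _, hlim⟩ := hL 1 one_pos
      have hin : ∀ᶠ n in atTop, (y : ℂ) + (σ n : ℂ) * I ∈ cone 1 h' y := by
        filter_upwards [hσ.eventually (gt_mem_nhds hh')] with n hn
        refine ⟨?_, ?_⟩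
        · simp
          exact hσ0 n
        · simpa using hn
      have ht : Tendsto (fun n => (y : ℂ) + (σ n : ℂ) * I) atTop (𝓝[cone 1 h' y] (y : ℂ)) := by
        refine tendsto_nhdsWithin_iff.mpr ⟨?_, hin⟩
        have h1 : Tendsto (fun n => (σ n : ℂ)) atTop (𝓝 ((0 : ℝ) : ℂ)) :=
          (Complex.continuous_ofReal.tendsto 0).comp hσ
        have h2 := (h1.mul_const I).const_add (y : ℂ)
        simpa using h2
      have h3 := hlim.comp ht
      refine h3.congr fun n => ?_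
      simp only [indicator_of_mem hyS, bv, Function.comp]
    exact measure_eq_zero_iff_ae_notMem.mp h0 |>.mono fun x hx => by
      by_contra hcon
      exact hx hcon
  obtain ⟨g, hg, hgl⟩ := measurable_limit_of_tendsto_metrizable_ae
    (fun n => (hm n).aemeasurable) hconv
  exact ⟨g, hg, hm, hgl⟩

/-- **blow-up theorem** on a uniform piece -/
theorem Dat.ae_blowup (D : Dat h F S U p q k r M) (hh : Continuous h)
    (hdiff : ∀ᵐ u : ℝ, DifferentiableAt ℝ h u) :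
    ∀ᵐ x : ℝ × ℝ, x ∈ S → Dens2 S x ∧ ∃ c : ℝ, ∃ l : ℂ, HasDerivAt h c x.1 ∧
      ∀ z₁ : ℂ × ℂ, c * z₁.2.re + kap p q z₁.2.im < z₁.1.im →
        Tendsto (fun a => F (sc x.1 x.2 (h x.1) a)) (𝓝[>] 0 ×ˢ 𝓝 z₁) (𝓝 l) ∧
        ∀ᶠ a in 𝓝[>] 0 ×ˢ 𝓝 z₁, sc x.1 x.2 (h x.1) a ∈ U := by
  have hr := D.hr
  obtain ⟨σ, hσ0, hσr, hσ⟩ : ∃ σ : ℕ → ℝ, (∀ n, 0 < σ n) ∧ (∀ n, σ n < r) ∧
      Tendsto σ atTop (𝓝 0) := by
    refine ⟨fun n => r / ((n : ℝ) + 2), fun n => by positivity, fun n => ?_, ?_⟩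
    · rw [div_lt_iff₀ (by positivity)]
      have : (0 : ℝ) ≤ n := Nat.cast_nonneg n
      nlinarith
    · have h1 : Tendsto (fun n : ℕ => (n : ℝ) + 2) atTop atTop :=
        tendsto_atTop_add_const_right _ _ tendsto_natCast_atTop_atTop
      exact h1.const_div_atTop r
  obtain ⟨g, hg, hm, hgl⟩ := D.ae_lim hh hσ0 hσr hσ
  have hSm : MeasurableSet S := D.hS.isClosed.measurableSet
  have hSf : volume S ≠ ⊤ := D.hS.measure_lt_top.ne
  -- Egorov and inner regularity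
  have hK : ∀ j : ℕ, ∃ K : Set (ℝ × ℝ), K ⊆ S ∧ IsCompact K ∧
      volume (S \ K) ≤ ENNReal.ofReal (2 / ((j : ℝ) + 1)) ∧
      TendstoUniformlyOn (fun n => S.indicator (bv h F (σ n))) g atTop K := by
    intro j
    have hj : 0 < 1 / ((j : ℝ) + 1) := by positivity
    obtain ⟨t, htS, htm, htv, htu⟩ := tendstoUniformlyOn_of_ae_tendsto
      (μ := (volume : Measure (ℝ × ℝ))) (fun n => (hm n).stronglyMeasurable)
      hg.stronglyMeasurable hSm hSf (hgl.mono fun x hx _ => hx) hj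
    have h1 : MeasurableSet (S \ t) := hSm.diff htm
    have h2 : volume (S \ t) ≠ ⊤ := measure_ne_top_of_subset sdiff_subset hSf
    obtain ⟨K, hKs, hKc, hKv⟩ := h1.exists_isCompact_sdiff_lt h2
      (ε := ENNReal.ofReal (1 / ((j : ℝ) + 1))) (by simpa using hj)
    refine ⟨K, hKs.trans sdiff_subset, hKc, ?_, htu.mono hKs⟩
    have h3 : S \ K ⊆ t ∪ ((S \ t) \ K) := by
      intro x hx
      by_cases hxt : x ∈ t
      · exact Or.inl hxt
      · exact Or.inr ⟨⟨hx.1, hxt⟩, hx.2⟩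
    refine (measure_mono h3).trans ((measure_union_le _ _).trans ?_)
    refine (add_le_add htv hKv.le).trans (le_of_eq ?_)
    rw [← ENNReal.ofReal_add hj.le hj.le]
    congr 1
    ring
  choose K hKS hKc hKv hKu using hK
  have hnull : volume (S \ ⋃ j, K j) = 0 := by
    have h1 : ∀ j : ℕ, volume (S \ ⋃ j, K j) ≤ ENNReal.ofReal (2 / ((j : ℝ) + 1)) := fun j =>
      (measure_mono (sdiff_subset_sdiff_right (subset_iUnion K j))).trans (hKv j)
    have h2 : Tendsto (fun j : ℕ => ENNReal.ofReal (2 / ((j : ℝ) + 1))) atTop (𝓝 0) := by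
      rw [← ENNReal.ofReal_zero]
      refine ENNReal.tendsto_ofReal ?_
      have h3 : Tendsto (fun n : ℕ => (n : ℝ) + 1) atTop atTop :=
        tendsto_atTop_add_const_right _ _ tendsto_natCast_atTop_atTop
      exact h3.const_div_atTop 2
    exact le_antisymm (ge_of_tendsto' h2 h1) zero_le
  have hd2 : ∀ᵐ x : ℝ × ℝ, DifferentiableAt ℝ h x.1 := by
    rw [Measure.volume_eq_prod]
    exact Measure.quasiMeasurePreserving_fst.ae hdiff
  have hdK : ∀ᵐ x : ℝ × ℝ, ∀ j, x ∈ K j → Dens2 (K j) x :=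
    ae_all_iff.mpr fun j => ae_dens2 (hKc j).isClosed.measurableSet
  filter_upwards [hgl, hd2, hdK, ae_dens2 hSm, measure_eq_zero_iff_ae_notMem.mp hnull]
    with x hx1 hx2 hx3 hx4 hx5 hxS
  refine ⟨hx4 hxS, ?_⟩
  obtain ⟨j, hj⟩ : ∃ j, x ∈ K j := by
    by_contra hcon
    exact hx5 ⟨hxS, by simpa using hcon⟩
  refine ⟨deriv h x.1, g x, hx2.hasDerivAt, fun z₁ hz₁ => ?_⟩
  have D' := D.mono (hKc j) (hKS j)
  have hl : ‖g x‖ ≤ M := by
    refine le_of_tendsto hx1.norm (Eventually.of_forall fun n => ?_)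
    rw [indicator_of_mem hxS]
    exact D.hFM _ (D.bv_mem hxS (hσ0 n) (hσr n))
  have hgc : ContinuousOn g (K j) := by
    refine (hKu j).continuousOn (Frequently.of_forall fun n => ?_)
    have h1 := (D'.bv_cont hh (hσ0 n) (hσr n))
    refine h1.congr fun y hy => ?_
    rw [indicator_of_mem (hKS j hy)]
  have hg' : ∀ ε > 0, ∃ ρ > 0, ∀ᶠ n in atTop, ∀ y ∈ K j, dist y (x.1, x.2) < ρ →
      ‖F ((y.2 : ℂ) + (σ n : ℂ) * I + (h y.1 : ℂ) * I, (y.1 : ℂ)) - g x‖ ≤ ε := by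
    intro ε hε
    obtain ⟨ρ, hρ, hρ2⟩ := Metric.continuousOn_iff.mp hgc x hj (ε / 2) (by positivity)
    refine ⟨ρ, hρ, ?_⟩
    filter_upwards [Metric.tendstoUniformlyOn_iff.mp (hKu j) (ε / 2) (by positivity)]
      with n hn y hy hyx
    have h1 := hn y hy
    have h2 := hρ2 y hy hyx
    rw [indicator_of_mem (hKS j hy), dist_comm, dist_eq_norm] at h1
    rw [dist_eq_norm] at h2
    have h3 : F ((y.2 : ℂ) + (σ n : ℂ) * I + (h y.1 : ℂ) * I, (y.1 : ℂ)) - g x =
        (bv h F (σ n) y - g y) + (g y - g x) := by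
      simp only [bv]; ring
    rw [h3]
    refine (norm_add_le _ _).trans ?_
    linarith
  exact ⟨blowup D' hx2.hasDerivAt (hx3 j hj) hl hσ0 hσ hg' hz₁,
    D'.cover hx2.hasDerivAt (hx3 j hj) hz₁⟩

end Vale.Agent.P097.H899.Nt
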