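import Vale.Agent.P097.H899.Nt2E

/-!
Two-variable non-tangential limits, part F: the general statement (countable decomposition).
-/

open Complex Metric Filter Topology Set MeasureTheory
open Vale.Agent.P097.H877.Bd

namespace Vale.Agent.P097.H899.Nt

variable {F : ℂ × ℂ → ℂ} {p q : ℝ}

/-- a piece of `E` with uniform constants, over a short interval -/
theorem piece {Dom : Set (ℂ × ℂ)} (hF : DifferentiableOn ℂ F Dom)
    {h c : ℝ → ℝ} {P : Set (ℝ × ℝ)} {k r M C ρ : ℝ} (hk : 0 < k) (hr : 0 < r) (hM : 0 < M)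
    (hC : 0 ≤ C)
    (hP : ∀ x ∈ P, TT p q k r (h x.1) x.1 x.2 ⊆ Dom ∧
      ∀ z ∈ TT p q k r (h x.1) x.1 x.2, ‖F z‖ ≤ M)
    (hlip : ∀ x ∈ P, ∀ x' ∈ P, |x'.1 - x.1| < ρ → h x'.1 ≤ h x.1 + C * |x'.1 - x.1|)
    (hb : Bornology.IsBounded P) (hdiam : ∀ x ∈ P, ∀ x' ∈ P, |x'.1 - x.1| < ρ)
    (hc : ∀ x ∈ P, ∀ ε > 0, ∃ δ > 0, ∀ x' ∈ P, |x'.1 - x.1| < δ →
      h x'.1 ≤ h x.1 + c x.1 * (x'.1 - x.1) + ε * |x'.1 - x.1|) :
    ∀ᵐ x : ℝ × ℝ, x ∈ P → ∃ l : ℂ, ∀ z₁ : ℂ × ℂ,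
      c x.1 * z₁.2.re + kap p q z₁.2.im < z₁.1.im →
        Tendsto (fun a => F (sc x.1 x.2 (h x.1) a)) (𝓝[>] 0 ×ˢ 𝓝 z₁) (𝓝 l) ∧
        ∀ᶠ a in 𝓝[>] 0 ×ˢ 𝓝 z₁, sc x.1 x.2 (h x.1) a ∈ Dom := by
  -- the Lipschitz extension
  have hL : LipschitzOnWith C.toNNReal h (Prod.fst '' P) := by
    refine LipschitzOnWith.of_dist_le_mul ?_
    rintro _ ⟨x, hx, rfl⟩ _ ⟨x', hx', rfl⟩
    rw [Real.dist_eq, Real.dist_eq, Real.coe_toNNReal _ hC, abs_le]
    have h1 := hlip x hx x' hx' (hdiam x hx x' hx')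
    have h2 := hlip x' hx' x hx (hdiam x' hx' x hx)
    rw [abs_sub_comm x'.1 x.1] at h1
    constructor <;> linarith
  obtain ⟨g, hgL, hgh⟩ := hL.extend_real
  have hgc : Continuous g := hgL.continuous
  have hgP : ∀ x ∈ P, g x.1 = h x.1 := fun x hx => (hgh ⟨x, hx, rfl⟩).symm
  -- the closure
  set S := closure P with hS
  have hSc : IsCompact S := hb.isCompact_closure
  set U : Set (ℂ × ℂ) := ⋃ x ∈ S, TT p q k r (g x.1) x.1 x.2 with hU
  have hUo : IsOpen U := isOpen_biUnion fun x _ => isOpen_TT _ _ _ _ _ _ _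
  have hUP : ∀ z ∈ U, ∃ x ∈ P, z ∈ TT p q k r (h x.1) x.1 x.2 := by
    intro z hz
    simp only [hU, mem_iUnion] at hz
    obtain ⟨x, hxS, hxz⟩ := hz
    have h1 := TT_eventually hxz
    have h2 : Tendsto (fun y : ℝ × ℝ => (g y.1, y.1, y.2)) (𝓝 x) (𝓝 (g x.1, x.1, x.2)) :=
      (by fun_prop : Continuous fun y : ℝ × ℝ => (g y.1, y.1, y.2)).tendsto x
    have h3 := h2.eventually h1
    obtain ⟨y, hy, hyP⟩ := (mem_closure_iff_frequently.mp hxS).and_eventually h3 |>.exists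
    exact ⟨y, hy, by rw [← hgP y hy]; exact hyP⟩
  have hUD : U ⊆ Dom := fun z hz => by
    obtain ⟨x, hx, hxz⟩ := hUP z hz
    exact (hP x hx).1 hxz
  have D : Dat g F S U p q k r M := by
    refine ⟨hk, hr, hM, hSc, hUo, hF.mono hUD, fun z hz => ?_, fun x hx z hz => ?_⟩
    · obtain ⟨x, hx, hxz⟩ := hUP z hz
      exact (hP x hx).2 z hxz
    · exact mem_biUnion hx hz
  filter_upwards [D.ae_blowup hgc hgL.ae_differentiableAt_real] with x hx hxP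
  obtain ⟨hdens, c', l, hc', hl⟩ := hx (subset_closure hxP)
  -- the slope
  have hcc : c' = c x.1 := by
    have hlo : ∀ ε > 0, ∃ δ > 0, ∀ u, |u - x.1| < δ → |g u - g x.1 - (u - x.1) * c'| ≤
        ε * |u - x.1| := by
      intro ε hε
      obtain ⟨δ, hδ, h1⟩ := Metric.eventually_nhds_iff.mp (hc'.isLittleO.def hε)
      refine ⟨δ, hδ, fun u hu => ?_⟩
      have := h1 (y := u) (by rw [Real.dist_eq]; exact hu)
      simpa [Real.norm_eq_abs] using this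
    obtain ⟨r₀, hr₀, hnear⟩ := hdens.near (δ := 1 / 4) (by positivity)
    -- points of `P` on both sides
    have hside : ∀ s : ℝ, |s| = 1 → ∀ δ > 0, ∃ y ∈ P, |y.1 - x.1| < δ ∧ 0 < s * (y.1 - x.1) := by
      intro s hs δ hδ
      obtain ⟨ρ', hρ'0, hρ'1, hρ'2⟩ : ∃ ρ' : ℝ, 0 < ρ' ∧ ρ' < r₀ ∧ ρ' < δ / 2 :=
        ⟨min r₀ (δ / 2) / 2, by positivity, by
          have := min_le_left r₀ (δ / 2)
          linarith, by
          have := min_le_right r₀ (δ / 2)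
          linarith⟩
      obtain ⟨y, hyS, hy⟩ := hnear ρ' hρ'0 hρ'1 (x.1 + s * ρ', x.2) (by
        rw [Prod.dist_eq, max_le_iff, Real.dist_eq, Real.dist_eq]
        simp only [add_sub_cancel_left, sub_self, abs_zero]
        refine ⟨?_, hρ'0.le⟩
        rw [abs_mul, hs, one_mul, abs_of_pos hρ'0])
      obtain ⟨y', hy'P, hy'⟩ := Metric.mem_closure_iff.mp hyS (1 / 4 * ρ') (by positivity)
      have h1 : |y'.1 - (x.1 + s * ρ')| ≤ 1 / 2 * ρ' := by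
        have e1 : dist y'.1 y.1 ≤ dist y' y := by rw [Prod.dist_eq]; exact le_max_left _ _
        have e2 : dist y.1 (x.1 + s * ρ') ≤ dist y (x.1 + s * ρ', x.2) := by
          rw [Prod.dist_eq]; exact le_max_left _ _
        have e3 := dist_triangle y'.1 y.1 (x.1 + s * ρ')
        rw [Real.dist_eq] at e3
        rw [dist_comm] at hy'
        linarith
      refine ⟨y', hy'P, ?_, ?_⟩
      · have h2 : |y'.1 - x.1| ≤ |y'.1 - (x.1 + s * ρ')| + |s * ρ'| := by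
          have := abs_add_le (y'.1 - (x.1 + s * ρ')) (s * ρ')
          have e : y'.1 - (x.1 + s * ρ') + s * ρ' = y'.1 - x.1 := by ring
          rwa [e] at this
        rw [abs_mul, hs, one_mul, abs_of_pos hρ'0] at h2
        linarith
      · have h3 : s * s = 1 := by
          rcases abs_eq (zero_le_one) |>.mp hs with h4 | h4 <;> rw [h4] <;> norm_num
        have h4 : |s * (y'.1 - (x.1 + s * ρ'))| ≤ 1 / 2 * ρ' := by
          rw [abs_mul, hs, one_mul]; exact h1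
        have h5 : s * (y'.1 - (x.1 + s * ρ')) = s * (y'.1 - x.1) - ρ' := by
          have : s * (y'.1 - (x.1 + s * ρ')) = s * (y'.1 - x.1) - s * s * ρ' := by ring
          rw [this, h3, one_mul]
        rw [h5, abs_le] at h4
        linarith [h4.1]
    have hineq : ∀ s : ℝ, |s| = 1 → ∀ ε > 0, s * c' ≤ s * c x.1 + 2 * ε := by
      intro s hs ε hε
      obtain ⟨δ₁, hδ₁, h1⟩ := hlo ε hε
      obtain ⟨δ₂, hδ₂, h2⟩ := hc x hxP ε hε
      obtain ⟨y, hyP, hy1, hy2⟩ := hside s hs (min δ₁ δ₂) (lt_min hδ₁ hδ₂)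
      have e1 := h1 y.1 (hy1.trans_le (min_le_left _ _))
      have e2 := h2 y hyP (hy1.trans_le (min_le_right _ _))
      rw [hgP y hyP, hgP x hxP, abs_le] at e1
      have hs2 : s * s = 1 := by
        rcases abs_eq (zero_le_one) |>.mp hs with h4 | h4 <;> rw [h4] <;> norm_num
      obtain ⟨v, hv⟩ : ∃ v, v = s * (y.1 - x.1) := ⟨_, rfl⟩
      have hv' : y.1 - x.1 = s * v := by
        rw [hv, ← mul_assoc, hs2, one_mul]
      rw [← hv] at hy2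
      have habs : |s * v| = v := by rw [abs_mul, hs, one_mul, abs_of_pos hy2]
      rw [hv', habs] at e1 e2
      have e3 : v * (s * c') ≤ v * (s * c x.1 + 2 * ε) := by
        have e4 : v * (s * c') = s * v * c' := by ring
        have e5 : v * (s * c x.1 + 2 * ε) = c x.1 * (s * v) + 2 * (ε * v) := by ring
        rw [e4, e5]
        linarith [e1.1]
      exact le_of_mul_le_mul_left e3 hy2
    refine le_antisymm ?_ ?_
    · refine le_of_forall_pos_le_add fun ε hε => ?_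
      have := hineq 1 (by norm_num) (ε / 2) (by positivity)
      linarith
    · refine le_of_forall_pos_le_add fun ε hε => ?_
      have := hineq (-1) (by norm_num) (ε / 2) (by positivity)
      linarith
  refine ⟨l, fun z₁ hz₁ => ?_⟩
  have h1 := hl z₁ (by rw [hcc]; exact hz₁)
  rw [hgP x hxP] at h1
  exact ⟨h1.1, h1.2.mono fun a ha => hUD ha⟩

/-- **local Fatou theorem in two variables** (upper form): `F` is holomorphic on `Dom`, and at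
every point of the (arbitrary) set `E` some thin cone over the edge is contained in `Dom` and `F`
is bounded there; then at almost every point of `E` the blow-ups of `F` converge to a constant,
locally uniformly on the whole tangent cone. -/
theorem nt2_up {Dom : Set (ℂ × ℂ)} (hF : DifferentiableOn ℂ F Dom)
    {h c : ℝ → ℝ} {E : Set (ℝ × ℝ)}
    (hcone : ∀ x ∈ E, ∃ k > 0, ∃ r > 0, ∃ M : ℝ, TT p q k r (h x.1) x.1 x.2 ⊆ Dom ∧
      ∀ z ∈ TT p q k r (h x.1) x.1 x.2, ‖F z‖ ≤ M)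
    (hc : ∀ x ∈ E, ∀ ε > 0, ∃ δ > 0, ∀ x' ∈ E, |x'.1 - x.1| < δ →
      h x'.1 ≤ h x.1 + c x.1 * (x'.1 - x.1) + ε * |x'.1 - x.1|) :
    ∀ᵐ x : ℝ × ℝ, x ∈ E → ∃ l : ℂ, ∀ z₁ : ℂ × ℂ,
      c x.1 * z₁.2.re + kap p q z₁.2.im < z₁.1.im →
        Tendsto (fun a => F (sc x.1 x.2 (h x.1) a)) (𝓝[>] 0 ×ˢ 𝓝 z₁) (𝓝 l) ∧
        ∀ᶠ a in 𝓝[>] 0 ×ˢ 𝓝 z₁, sc x.1 x.2 (h x.1) a ∈ Dom := by
  set κ : ℕ → ℝ := fun n => 1 / ((n : ℝ) + 1) with hκ
  have hκ0 : ∀ n, 0 < κ n := fun n => by simp only [hκ]; positivity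
  set P : ℕ → ℤ → ℤ → Set (ℝ × ℝ) := fun n i j =>
    {x | x ∈ E ∧ (TT p q (κ n) (κ n) (h x.1) x.1 x.2 ⊆ Dom ∧
      ∀ z ∈ TT p q (κ n) (κ n) (h x.1) x.1 x.2, ‖F z‖ ≤ (n : ℝ) + 1) ∧
      (∀ x' ∈ E, |x'.1 - x.1| < κ n → h x'.1 ≤ h x.1 + ((n : ℝ) + 1) * |x'.1 - x.1|) ∧
      x.1 ∈ Ico (i * (κ n / 2)) ((i + 1) * (κ n / 2)) ∧ x.2 ∈ Ico (j : ℝ) (j + 1)} with hPdef
  have hpiece : ∀ n i j, ∀ᵐ x : ℝ × ℝ, x ∈ P n i j → ∃ l : ℂ, ∀ z₁ : ℂ × ℂ,
      c x.1 * z₁.2.re + kap p q z₁.2.im < z₁.1.im →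
        Tendsto (fun a => F (sc x.1 x.2 (h x.1) a)) (𝓝[>] 0 ×ˢ 𝓝 z₁) (𝓝 l) ∧
        ∀ᶠ a in 𝓝[>] 0 ×ˢ 𝓝 z₁, sc x.1 x.2 (h x.1) a ∈ Dom := by
    intro n i j
    refine piece hF (k := κ n) (r := κ n) (M := (n : ℝ) + 1) (C := (n : ℝ) + 1)
      (ρ := κ n) (hκ0 n) (hκ0 n) (by positivity) (by positivity)
      (fun x hx => hx.2.1) (fun x hx x' hx' hxx => hx.2.2.1 x' hx'.1 hxx) ?_ ?_ ?_
    · refine (Metric.isBounded_Icc ((i * (κ n / 2), (j : ℝ)) : ℝ × ℝ)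
        ((i + 1) * (κ n / 2), (j : ℝ) + 1)).subset fun x hx => ?_
      exact ⟨⟨hx.2.2.2.1.1, hx.2.2.2.2.1⟩, ⟨hx.2.2.2.1.2.le, hx.2.2.2.2.2.le⟩⟩
    · intro x hx x' hx'
      have h1 := hx.2.2.2.1
      have h2 := hx'.2.2.2.1
      have h3 : ((i : ℝ) + 1) * (κ n / 2) = i * (κ n / 2) + κ n / 2 := by ring
      have := hκ0 n
      rw [abs_lt]
      constructor <;> linarith [h1.1, h1.2, h2.1, h2.2]
    · intro x hx ε hε
      obtain ⟨δ, hδ, h1⟩ := hc x hx.1 ε hε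
      exact ⟨δ, hδ, fun x' hx' => h1 x' hx'.1⟩
  have hall : ∀ᵐ x : ℝ × ℝ, ∀ (a : ℕ × ℤ × ℤ), x ∈ P a.1 a.2.1 a.2.2 → ∃ l : ℂ, ∀ z₁ : ℂ × ℂ,
      c x.1 * z₁.2.re + kap p q z₁.2.im < z₁.1.im →
        Tendsto (fun a => F (sc x.1 x.2 (h x.1) a)) (𝓝[>] 0 ×ˢ 𝓝 z₁) (𝓝 l) ∧
        ∀ᶠ a in 𝓝[>] 0 ×ˢ 𝓝 z₁, sc x.1 x.2 (h x.1) a ∈ Dom :=
    ae_all_iff.mpr fun a => hpiece a.1 a.2.1 a.2.2
  filter_upwards [hall] with x hx hxE
  obtain ⟨k, hk, r, hr, M, hT, hM⟩ := hcone x hxE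
  obtain ⟨δ, hδ, h1⟩ := hc x hxE 1 one_pos
  obtain ⟨n, hn⟩ := exists_nat_gt (max (max (1 / k) (1 / r)) (max (max M (|c x.1| + 1)) (1 / δ)))
  have hn1 : 1 / k < n := (le_max_left _ _).trans_lt ((le_max_left _ _).trans_lt hn)
  have hn2 : 1 / r < n := (le_max_right _ _).trans_lt ((le_max_left _ _).trans_lt hn)
  have hn3 : M < n := (le_max_left _ _).trans_lt ((le_max_left _ _).trans_lt
    ((le_max_right _ _).trans_lt hn))
  have hn4 : |c x.1| + 1 < n := (le_max_right _ _).trans_lt ((le_max_left _ _).trans_lt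
    ((le_max_right _ _).trans_lt hn))
  have hn5 : 1 / δ < n := (le_max_right _ _).trans_lt ((le_max_right _ _).trans_lt hn)
  have hinv : ∀ {e : ℝ}, 0 < e → 1 / e < n → κ n ≤ e := by
    intro e he hen
    simp only [hκ]
    rw [div_le_iff₀ (by positivity)]
    rw [div_lt_iff₀ he] at hen
    nlinarith
  have hκk := hinv hk hn1
  have hκr := hinv hr hn2
  have hκδ := hinv hδ hn5
  have hTT : TT p q (κ n) (κ n) (h x.1) x.1 x.2 ⊆ TT p q k r (h x.1) x.1 x.2 := by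
    intro z hz
    obtain ⟨z1, z2, z3⟩ := hz
    have hpos : 0 < z.1.im - h x.1 - kap p q z.2.im := by
      by_contra hneg
      push Not at hneg
      have := mul_nonpos_of_nonneg_of_nonpos (hκ0 n).le hneg
      have := abs_nonneg (z.1.re - x.2)
      have := abs_nonneg (z.2.re - x.1)
      linarith
    exact ⟨z1.trans_le (mul_le_mul_of_nonneg_right hκk hpos.le), z2.trans_le hκr,
      z3.trans_le hκr⟩
  have hκh := half_pos (hκ0 n)
  refine hx (n, ⌊x.1 / (κ n / 2)⌋, ⌊x.2⌋) ⟨hxE, ⟨hTT.trans hT, fun z hz => ?_⟩, ?_, ?_, ?_⟩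
  · exact (hM z (hTT hz)).trans (by linarith)
  · intro x' hx' hxx
    have h2 := h1 x' hx' (hxx.trans_le hκδ)
    have h3 : c x.1 * (x'.1 - x.1) ≤ |c x.1| * |x'.1 - x.1| := by
      rw [← abs_mul]; exact le_abs_self _
    have h4 : (|c x.1| + 1) * |x'.1 - x.1| ≤ ((n : ℝ) + 1) * |x'.1 - x.1| := by
      refine mul_le_mul_of_nonneg_right (by linarith) (abs_nonneg _)
    show h x'.1 ≤ h x.1 + ((n : ℝ) + 1) * |x'.1 - x.1|
    linarith
  · have h2 := Int.floor_le (x.1 / (κ n / 2))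
    have h3 := Int.lt_floor_add_one (x.1 / (κ n / 2))
    rw [le_div_iff₀ hκh] at h2
    rw [div_lt_iff₀ hκh] at h3
    exact ⟨h2, h3⟩
  · exact ⟨Int.floor_le _, Int.lt_floor_add_one _⟩

end Vale.Agent.P097.H899.Nt
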