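import Vale.Agent.P097.H899.Nt2
import Vale.Agent.P097.H877.Bd.Priv

/-!
Two-variable non-tangential limits: **uniqueness** (two-variable Privalov theorem).
-/

open Complex Metric Filter Topology Set MeasureTheory
open Vale.Agent.P097.H877.Bd

namespace Vale.Agent.P097.H899.Nt

variable {h : ℝ → ℝ} {F : ℂ × ℂ → ℂ} {S : Set (ℝ × ℝ)} {U : Set (ℂ × ℂ)} {p q k r M : ℝ}

/-- the slice function -/
noncomputable def slf (h : ℝ → ℝ) (F : ℂ × ℂ → ℂ) (u : ℝ) (ζ : ℂ) : ℂ :=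
  F (ζ + (h u : ℂ) * I, (u : ℂ))

theorem Dat.slf_diff (D : Dat h F S U p q k r M) (u : ℝ) :
    DifferentiableOn ℂ (slf h F u) {ζ : ℂ | (ζ + (h u : ℂ) * I, (u : ℂ)) ∈ U} := by
  intro ζ hζ
  have h1 := D.hF.differentiableAt (D.hU.mem_nhds hζ)
  have h2 : DifferentiableAt ℂ (fun ζ : ℂ => (ζ + (h u : ℂ) * I, (u : ℂ))) ζ :=
    (differentiableAt_id.add_const _).prodMk (differentiableAt_const _)
  exact (h1.comp ζ h2).differentiableWithinAt

theorem seq_cone {σ : ℕ → ℝ} (hσ0 : ∀ n, 0 < σ n) (hσ : Tendsto σ atTop (𝓝 0)) {k h' : ℝ}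
    (hk : 0 < k) (hh' : 0 < h') (y : ℝ) :
    Tendsto (fun n => (y : ℂ) + (σ n : ℂ) * I) atTop (𝓝[cone k h' y] (y : ℂ)) := by
  have hin : ∀ᶠ n in atTop, (y : ℂ) + (σ n : ℂ) * I ∈ cone k h' y := by
    filter_upwards [hσ.eventually (gt_mem_nhds hh')] with n hn
    refine ⟨?_, ?_⟩
    · simp
      exact mul_pos hk (hσ0 n)
    · simpa using hn
  refine tendsto_nhdsWithin_iff.mpr ⟨?_, hin⟩
  have h1 : Tendsto (fun n => (σ n : ℂ)) atTop (𝓝 ((0 : ℝ) : ℂ)) :=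
    (Complex.continuous_ofReal.tendsto 0).comp hσ
  have h2 := (h1.mul_const I).const_add (y : ℂ)
  simpa using h2

/-- **two-variable Privalov theorem**, uniform piece -/
theorem Dat.ae_ne (D : Dat h F S U p q k r M) (hh : Continuous h) :
    ∀ᵐ x : ℝ × ℝ, x ∈ S → (∃ᶠ σ in 𝓝[>] (0 : ℝ), bv h F σ x ≠ 0) →
      ¬ Tendsto (fun σ => bv h F σ x) (𝓝[>] 0) (𝓝 0) := by
  have hr := D.hr
  have hk := D.hk
  obtain ⟨σ, hσ0, hσr, hσ⟩ : ∃ σ : ℕ → ℝ, (∀ n, 0 < σ n) ∧ (∀ n, σ n < r) ∧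
      Tendsto σ atTop (𝓝 0) := by
    refine ⟨fun n => r / ((n : ℝ) + 2), fun n => by positivity, fun n => ?_, ?_⟩
    · rw [div_lt_iff₀ (by positivity)]
      have : (0 : ℝ) ≤ n := Nat.cast_nonneg n
      nlinarith
    · have h1 : Tendsto (fun n : ℕ => (n : ℝ) + 2) atTop atTop :=
        tendsto_atTop_add_const_right _ _ tendsto_natCast_atTop_atTop
      exact h1.const_div_atTop r
  obtain ⟨g, hg, hm, hgl⟩ := D.ae_lim hh hσ0 hσr hσ
  have hSm : MeasurableSet S := D.hS.isClosed.measurableSet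
  -- the set of non degenerate slices
  set O : Set (ℝ × ℝ) := {x | ∃ ζ ∈ cone k r x.2, (ζ + (h x.1 : ℂ) * I, (x.1 : ℂ)) ∈ U ∧
    slf h F x.1 ζ ≠ 0} with hO
  have hOo : IsOpen O := by
    rw [isOpen_iff_mem_nhds]
    rintro x ⟨ζ, hζ, hζU, hne⟩
    have hc1 : Continuous fun x' : ℝ × ℝ => (ζ + (h x'.1 : ℂ) * I, ((x'.1 : ℝ) : ℂ)) := by fun_prop
    have h1 : ∀ᶠ x' : ℝ × ℝ in 𝓝 x, ζ ∈ cone k r x'.2 := by
      have h2 : IsOpen {x' : ℝ × ℝ | |ζ.re - x'.2| < k * ζ.im} :=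
        isOpen_lt (by fun_prop) (by fun_prop)
      filter_upwards [h2.mem_nhds hζ.1] with x' hx'
      exact ⟨hx', hζ.2⟩
    have h2 : ∀ᶠ x' : ℝ × ℝ in 𝓝 x, (ζ + (h x'.1 : ℂ) * I, ((x'.1 : ℝ) : ℂ)) ∈ U :=
      hc1.continuousAt.eventually_mem (D.hU.mem_nhds hζU)
    have h3 : ContinuousAt (fun x' : ℝ × ℝ => slf h F x'.1 ζ) x := by
      have h4 : ContinuousAt F (ζ + (h x.1 : ℂ) * I, ((x.1 : ℝ) : ℂ)) :=
        (D.hF.differentiableAt (D.hU.mem_nhds hζU)).continuousAt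
      exact ContinuousAt.comp (f := fun x' : ℝ × ℝ => (ζ + (h x'.1 : ℂ) * I, ((x'.1 : ℝ) : ℂ)))
        h4 hc1.continuousAt
    filter_upwards [h1, h2, h3.eventually_ne hne] with x' e1 e2 e3
    exact ⟨ζ, e1, e2, e3⟩
  set Z : Set (ℝ × ℝ) := {x | x ∈ S ∧ g x = 0 ∧ x ∈ O ∧
    Tendsto (fun n => S.indicator (bv h F (σ n)) x) atTop (𝓝 (g x))} with hZ
  have hmT : MeasurableSet {x | Tendsto (fun n => S.indicator (bv h F (σ n)) x) atTop (𝓝 (g x))} :=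
    measurableSet_tendsto_fun hm hg
  have hZm : MeasurableSet Z :=
    hSm.inter ((hg (measurableSet_singleton 0)).inter (hOo.measurableSet.inter hmT))
  have hZ0 : (volume : Measure (ℝ × ℝ)) Z = 0 := by
    rw [Measure.volume_eq_prod, Measure.measure_prod_null hZm]
    refine Eventually.of_forall fun u => ?_
    show volume (Prod.mk u ⁻¹' Z) = 0
    have hfat := fatloc (D := {ζ : ℂ | (ζ + (h u : ℂ) * I, (u : ℂ)) ∈ U})
      (f := slf h F u) (D.slf_diff u) (E := {y | (u, y) ∈ S})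
      (fun y hy => ⟨k, D.hk, r, D.hr, M, fun ζ hζ => D.mem hy hζ,
        fun ζ hζ => D.hFM _ (D.mem hy hζ)⟩)
    -- the points where the limit is zero
    have hpri := privalov (D := {ζ : ℂ | (ζ + (h u : ℂ) * I, (u : ℂ)) ∈ U})
      (f := slf h F u) (D.slf_diff u)
      (E := {y | (u, y) ∈ Z ∧ ∃ k > 0, ∃ h₁ > 0,
        cone k h₁ y ⊆ {ζ : ℂ | (ζ + (h u : ℂ) * I, (u : ℂ)) ∈ U} ∧
        Tendsto (slf h F u) (𝓝[cone k h₁ y] (y : ℂ)) (𝓝 0)}) (fun y hy => hy.2)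
    have hae : ∀ᵐ y : ℝ, (u, y) ∉ Z := by
      filter_upwards [hfat, hpri] with y hf hp hyZ
      obtain ⟨hyS, hg0, hyO, hyT⟩ := id hyZ
      obtain ⟨L, hL⟩ := hf hyS
      obtain ⟨h₁, hh₁, hsub, hlim⟩ := hL k hk
      have h3 := hlim.comp (seq_cone hσ0 hσ hk hh₁ y)
      have h4 : Tendsto (fun n => S.indicator (bv h F (σ n)) (u, y)) atTop (𝓝 L) := by
        refine h3.congr fun n => ?_
        rw [indicator_of_mem (show (u, y) ∈ S from hyS)]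
        rfl
      have hL0 : L = 0 := by
        rw [← hg0]
        exact tendsto_nhds_unique h4 hyT
      obtain ⟨k₂, hk₂, h₂, hh₂, hsub₂, hzero⟩ := hp ⟨hyZ, k, hk, h₁, hh₁, hsub, by
        rw [← hL0]; exact hlim⟩
      obtain ⟨ζ, hζ, hζU, hne⟩ := hyO
      -- identity theorem on the cone
      have hcs : cone k r y ⊆ {ζ : ℂ | (ζ + (h u : ℂ) * I, (u : ℂ)) ∈ U} :=
        fun ζ hζ => D.mem hyS hζ
      have hdiff : DifferentiableOn ℂ (slf h F u) (cone k r y) := (D.slf_diff u).mono hcs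
      have han := hdiff.analyticOnNhd (isOpen_cone k r y)
      obtain ⟨s, hs0, hs1⟩ : ∃ s : ℝ, 0 < s ∧ s < min (min r h₂) 1 :=
        ⟨min (min r h₂) 1 / 2, by positivity, by
          have : 0 < min (min r h₂) 1 := by positivity
          linarith⟩
      have hsr : s < r := hs1.trans_le ((min_le_left _ _).trans (min_le_left _ _))
      have hsh : s < h₂ := hs1.trans_le ((min_le_left _ _).trans (min_le_right _ _))
      have hz0 : (y : ℂ) + (s : ℂ) * I ∈ cone k r y := ⟨by simp; exact mul_pos hk hs0, by simpa⟩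
      have hz1 : (y : ℂ) + (s : ℂ) * I ∈ cone k₂ h₂ y := ⟨by simp; exact mul_pos hk₂ hs0, by simpa⟩
      have hev : slf h F u =ᶠ[𝓝 ((y : ℂ) + (s : ℂ) * I)] 0 := by
        filter_upwards [(isOpen_cone k₂ h₂ y).mem_nhds hz1] with ζ' hζ'
        exact hzero ζ' hζ'
      have := han.eqOn_zero_of_preconnected_of_eventuallyEq_zero
        (convex_cone k r y).isPreconnected hz0 hev hζ
      exact hne this
    exact measure_eq_zero_iff_ae_notMem.mpr hae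
  have hZae : ∀ᵐ x : ℝ × ℝ, x ∉ Z := measure_eq_zero_iff_ae_notMem.mp hZ0
  filter_upwards [hZae, hgl] with x hxZ hxg hxS hfr hT
  apply hxZ
  have h1 : Tendsto (fun n => bv h F (σ n) x) atTop (𝓝 0) :=
    hT.comp (tendsto_nhdsWithin_iff.mpr ⟨hσ, Eventually.of_forall fun n => hσ0 n⟩)
  have h2 : Tendsto (fun n => S.indicator (bv h F (σ n)) x) atTop (𝓝 0) := by
    refine h1.congr fun n => ?_
    rw [indicator_of_mem hxS]
  refine ⟨hxS, tendsto_nhds_unique hxg h2, ?_, hxg⟩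
  obtain ⟨s, hs, hs2⟩ := (hfr.and_eventually (Ioo_mem_nhdsGT hr)).exists
  have hc : (x.2 : ℂ) + (s : ℂ) * I ∈ cone k r x.2 :=
    ⟨by simp; exact mul_pos hk hs2.1, by simpa using hs2.2⟩
  exact ⟨(x.2 : ℂ) + (s : ℂ) * I, hc, D.mem (u := x.1) (y := x.2) hxS hc, hs⟩

/-- reduction of almost everywhere statements to uniform pieces (upper form) -/
theorem red_up {Dom : Set (ℂ × ℂ)} (hF : DifferentiableOn ℂ F Dom)
    {h c : ℝ → ℝ} {E : Set (ℝ × ℝ)}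
    (hcone : ∀ x ∈ E, ∃ k > 0, ∃ r > 0, ∃ M : ℝ, TT p q k r (h x.1) x.1 x.2 ⊆ Dom ∧
      ∀ z ∈ TT p q k r (h x.1) x.1 x.2, ‖F z‖ ≤ M)
    (hc : ∀ x ∈ E, ∀ ε > 0, ∃ δ > 0, ∀ x' ∈ E, |x'.1 - x.1| < δ →
      h x'.1 ≤ h x.1 + c x.1 * (x'.1 - x.1) + ε * |x'.1 - x.1|)
    {Q : ℝ × ℝ → Prop}
    (H : ∀ (g : ℝ → ℝ) (S : Set (ℝ × ℝ)) (U : Set (ℂ × ℂ)) (k r M : ℝ), Continuous g →
      (∀ᵐ u : ℝ, DifferentiableAt ℝ g u) → U ⊆ Dom →
      Dat g F S U p q k r M → ∀ᵐ x : ℝ × ℝ, x ∈ S → g x.1 = h x.1 → Q x) :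
    ∀ᵐ x : ℝ × ℝ, x ∈ E → Q x := by
  set κ : ℕ → ℝ := fun n => 1 / ((n : ℝ) + 1) with hκ
  have hκ0 : ∀ n, 0 < κ n := fun n => by simp only [hκ]; positivity
  set P : ℕ → ℤ → ℤ → Set (ℝ × ℝ) := fun n i j =>
    {x | x ∈ E ∧ (TT p q (κ n) (κ n) (h x.1) x.1 x.2 ⊆ Dom ∧
      ∀ z ∈ TT p q (κ n) (κ n) (h x.1) x.1 x.2, ‖F z‖ ≤ (n : ℝ) + 1) ∧
      (∀ x' ∈ E, |x'.1 - x.1| < κ n → h x'.1 ≤ h x.1 + ((n : ℝ) + 1) * |x'.1 - x.1|) ∧
      x.1 ∈ Ico (i * (κ n / 2)) ((i + 1) * (κ n / 2)) ∧ x.2 ∈ Ico (j : ℝ) (j + 1)} with hPdef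
  have hpiece : ∀ n i j, ∀ᵐ x : ℝ × ℝ, x ∈ P n i j → Q x := by
    intro n i j
    have hdiam : ∀ x ∈ P n i j, ∀ x' ∈ P n i j, |x'.1 - x.1| < κ n := by
      intro x hx x' hx'
      have h1 := hx.2.2.2.1
      have h2 := hx'.2.2.2.1
      have h3 : ((i : ℝ) + 1) * (κ n / 2) = i * (κ n / 2) + κ n / 2 := by ring
      have := hκ0 n
      rw [abs_lt]
      constructor <;> linarith [h1.1, h1.2, h2.1, h2.2]
    have hb : Bornology.IsBounded (P n i j) := by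
      refine (Metric.isBounded_Icc ((i * (κ n / 2), (j : ℝ)) : ℝ × ℝ)
        ((i + 1) * (κ n / 2), (j : ℝ) + 1)).subset fun x hx => ?_
      exact ⟨⟨hx.2.2.2.1.1, hx.2.2.2.2.1⟩, ⟨hx.2.2.2.1.2.le, hx.2.2.2.2.2.le⟩⟩
    have hC : (0 : ℝ) ≤ (n : ℝ) + 1 := by positivity
    have hL : LipschitzOnWith ((n : ℝ) + 1).toNNReal h (Prod.fst '' P n i j) := by
      refine LipschitzOnWith.of_dist_le_mul ?_
      rintro _ ⟨x, hx, rfl⟩ _ ⟨x', hx', rfl⟩
      rw [Real.dist_eq, Real.dist_eq, Real.coe_toNNReal _ hC, abs_le]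
      have h1 := hx.2.2.1 x' hx'.1 (hdiam x hx x' hx')
      have h2 := hx'.2.2.1 x hx.1 (hdiam x' hx' x hx)
      rw [abs_sub_comm x'.1 x.1] at h1
      constructor <;> linarith
    obtain ⟨g, hgL, hgh⟩ := hL.extend_real
    have hgc : Continuous g := hgL.continuous
    have hgP : ∀ x ∈ P n i j, g x.1 = h x.1 := fun x hx => (hgh ⟨x, hx, rfl⟩).symm
    set S := closure (P n i j) with hS
    have hSc : IsCompact S := hb.isCompact_closure
    set U : Set (ℂ × ℂ) := ⋃ x ∈ S, TT p q (κ n) (κ n) (g x.1) x.1 x.2 with hU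
    have hUo : IsOpen U := isOpen_biUnion fun x _ => isOpen_TT _ _ _ _ _ _ _
    have hUP : ∀ z ∈ U, ∃ x ∈ P n i j, z ∈ TT p q (κ n) (κ n) (h x.1) x.1 x.2 := by
      intro z hz
      simp only [hU, mem_iUnion] at hz
      obtain ⟨x, hxS, hxz⟩ := hz
      have h1 := TT_eventually hxz
      have h2 : Tendsto (fun y : ℝ × ℝ => (g y.1, y.1, y.2)) (𝓝 x) (𝓝 (g x.1, x.1, x.2)) :=
        (by fun_prop : Continuous fun y : ℝ × ℝ => (g y.1, y.1, y.2)).tendsto x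
      have h3 := h2.eventually h1
      obtain ⟨y, hy, hyP⟩ := (mem_closure_iff_frequently.mp hxS).and_eventually h3 |>.exists
      exact ⟨y, hy, by rw [← hgP y hy]; exact hyP⟩
    have hUD : U ⊆ Dom := fun z hz => by
      obtain ⟨x, hx, hxz⟩ := hUP z hz
      exact hx.2.1.1 hxz
    have D : Dat g F S U p q (κ n) (κ n) ((n : ℝ) + 1) := by
      refine ⟨hκ0 n, hκ0 n, by positivity, hSc, hUo, hF.mono hUD, fun z hz => ?_,
        fun x hx z hz => ?_⟩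
      · obtain ⟨x, hx, hxz⟩ := hUP z hz
        exact hx.2.1.2 z hxz
      · exact mem_biUnion hx hz
    filter_upwards [H g S U _ _ _ hgc hgL.ae_differentiableAt_real hUD D] with x hx hxP
    exact hx (subset_closure hxP) (hgP x hxP)
  have hall : ∀ᵐ x : ℝ × ℝ, ∀ (a : ℕ × ℤ × ℤ), x ∈ P a.1 a.2.1 a.2.2 → Q x :=
    ae_all_iff.mpr fun a => hpiece a.1 a.2.1 a.2.2
  filter_upwards [hall] with x hx hxE
  obtain ⟨k, hk, r, hr, M, hT, hM⟩ := hcone x hxE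
  obtain ⟨δ, hδ, h1⟩ := hc x hxE 1 one_pos
  obtain ⟨n, hn⟩ := exists_nat_gt (max (max (1 / k) (1 / r)) (max (max M (|c x.1| + 1)) (1 / δ)))
  have hn1 : 1 / k < n := (le_max_left _ _).trans_lt ((le_max_left _ _).trans_lt hn)
  have hn2 : 1 / r < n := (le_max_right _ _).trans_lt ((le_max_left _ _).trans_lt hn)
  have hn3 : M < n := (le_max_left _ _).trans_lt ((le_max_left _ _).trans_lt
    ((le_max_right _ _).trans_lt hn))
  have hn4 : |c x.1| + 1 < n := (le_max_right _ _).trans_lt ((le_max_left _ _).trans_lt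
    ((le_max_right _ _).trans_lt hn))
  have hn5 : 1 / δ < n := (le_max_right _ _).trans_lt ((le_max_right _ _).trans_lt hn)
  have hinv : ∀ {e : ℝ}, 0 < e → 1 / e < n → κ n ≤ e := by
    intro e he hen
    simp only [hκ]
    rw [div_le_iff₀ (by positivity)]
    rw [div_lt_iff₀ he] at hen
    nlinarith
  have hκk := hinv hk hn1
  have hκr := hinv hr hn2
  have hκδ := hinv hδ hn5
  have hTT : TT p q (κ n) (κ n) (h x.1) x.1 x.2 ⊆ TT p q k r (h x.1) x.1 x.2 := by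
    intro z hz
    obtain ⟨z1, z2, z3⟩ := hz
    have hpos : 0 < z.1.im - h x.1 - kap p q z.2.im := by
      by_contra hneg
      push Not at hneg
      have := mul_nonpos_of_nonneg_of_nonpos (hκ0 n).le hneg
      have := abs_nonneg (z.1.re - x.2)
      have := abs_nonneg (z.2.re - x.1)
      linarith
    exact ⟨z1.trans_le (mul_le_mul_of_nonneg_right hκk hpos.le), z2.trans_le hκr,
      z3.trans_le hκr⟩
  have hκh := half_pos (hκ0 n)
  refine hx (n, ⌊x.1 / (κ n / 2)⌋, ⌊x.2⌋) ⟨hxE, ⟨hTT.trans hT, fun z hz => ?_⟩, ?_, ?_, ?_⟩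
  · exact (hM z (hTT hz)).trans (by linarith)
  · intro x' hx' hxx
    have h2 := h1 x' hx' (hxx.trans_le hκδ)
    have h3 : c x.1 * (x'.1 - x.1) ≤ |c x.1| * |x'.1 - x.1| := by
      rw [← abs_mul]; exact le_abs_self _
    have h4 : (|c x.1| + 1) * |x'.1 - x.1| ≤ ((n : ℝ) + 1) * |x'.1 - x.1| := by
      refine mul_le_mul_of_nonneg_right (by linarith) (abs_nonneg _)
    show h x'.1 ≤ h x.1 + ((n : ℝ) + 1) * |x'.1 - x.1|
    linarith
  · have h2 := Int.floor_le (x.1 / (κ n / 2))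
    have h3 := Int.lt_floor_add_one (x.1 / (κ n / 2))
    rw [le_div_iff₀ hκh] at h2
    rw [div_lt_iff₀ hκh] at h3
    exact ⟨h2, h3⟩
  · exact ⟨Int.floor_le _, Int.lt_floor_add_one _⟩

/-- radial values, lower form -/
noncomputable def bl (h : ℝ → ℝ) (F : ℂ × ℂ → ℂ) (σ : ℝ) (x : ℝ × ℝ) : ℂ :=
  F ((x.2 : ℂ) + ((h x.1 - σ : ℝ) : ℂ) * I, (x.1 : ℂ))

/-- **two-variable Privalov theorem** (lower form): under the hypotheses of `nt2`, the radial
limit of `F` is not `0` at almost every point of `E` at which `F` does not vanish identically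
along the radius. -/
theorem nt2_ne {Dom : Set (ℂ × ℂ)} (hDom : IsOpen Dom) (hF : DifferentiableOn ℂ F Dom)
    {h c : ℝ → ℝ} {p q : ℝ} {E : Set (ℝ × ℝ)}
    (hcone : ∀ x ∈ E, ∃ M : ℝ, ∀ ε > 0, ∃ r > 0, ∀ t w : ℂ, |t.re - x.2| < r →
      ‖w - x.1‖ < r → h x.1 - r < t.im →
      t.im < h x.1 + c x.1 * (w.re - x.1) + kap p q w.im - ε * ‖w - x.1‖ →
      (t, w) ∈ Dom ∧ ‖F (t, w)‖ ≤ M)
    (hh : ∀ x ∈ E, ∀ ε > 0, ∃ δ > 0, ∀ x' ∈ E, |x'.1 - x.1| < δ →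
      h x.1 + c x.1 * (x'.1 - x.1) - ε * |x'.1 - x.1| ≤ h x'.1) :
    ∀ᵐ x : ℝ × ℝ, x ∈ E → (∃ᶠ σ in 𝓝[>] (0 : ℝ), bl h F σ x ≠ 0) →
      ¬ Tendsto (fun σ => bl h F σ x) (𝓝[>] 0) (𝓝 0) := by
  have hcone' : ∀ x ∈ E, ∃ k > 0, ∃ r > 0, ∃ M : ℝ,
      TTl (p - 1) (q - 1) k r (h x.1) x.1 x.2 ⊆ Dom ∧
      ∀ z ∈ TTl (p - 1) (q - 1) k r (h x.1) x.1 x.2, ‖F z‖ ≤ M := by
    intro x hx
    obtain ⟨M, hM⟩ := hcone x hx
    obtain ⟨r₀, hr₀, hr⟩ := hM 1 one_pos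
    obtain ⟨k, hk, r, hr', hsub⟩ := TTl_sub (h₀ := h x.1) (c₀ := c x.1) (p := p) (q := q)
      (u := x.1) (y := x.2) one_pos hr₀
    refine ⟨k, hk, r, hr', M, fun z hz => ?_, fun z hz => ?_⟩
    · obtain ⟨h1, h2, h3, h4⟩ := hsub z hz
      exact (hr z.1 z.2 h1 h2 h3 h4).1
    · obtain ⟨h1, h2, h3, h4⟩ := hsub z hz
      exact (hr z.1 z.2 h1 h2 h3 h4).2
  set N : ℂ × ℂ → ℂ × ℂ := fun z => (-z.1, -z.2) with hN
  have hNN : ∀ z, N (N z) = z := fun z => by simp [hN]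
  have hNc : Continuous N := by fun_prop
  set E₁ : Set (ℝ × ℝ) := {x | -x ∈ E} with hE₁
  have hF₁ : DifferentiableOn ℂ (fun z => F (N z)) (N ⁻¹' Dom) := by
    intro z hz
    have h1 := hF.differentiableAt (hDom.mem_nhds hz)
    have h2 : DifferentiableAt ℂ N z := by
      show DifferentiableAt ℂ (fun z : ℂ × ℂ => (-z.1, -z.2)) z
      fun_prop
    exact (h1.comp z h2).differentiableWithinAt
  have key := red_up (F := fun z => F (N z)) (p := -(q - 1)) (q := -(p - 1))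
    (Dom := N ⁻¹' Dom) hF₁
    (h := fun u => -h (-u)) (c := fun u => c (-u)) (E := E₁)
    (Q := fun x => (∃ᶠ σ in 𝓝[>] (0 : ℝ), bv (fun u => -h (-u)) (fun z => F (N z)) σ x ≠ 0) →
      ¬ Tendsto (fun σ => bv (fun u => -h (-u)) (fun z => F (N z)) σ x) (𝓝[>] 0) (𝓝 0))
    (fun x hx => by
      obtain ⟨k, hk, r, hr, M, h1, h2⟩ := hcone' (-x) hx
      have hmem : ∀ z, z ∈ TT (-(q - 1)) (-(p - 1)) k r (-h (-x.1)) x.1 x.2 →
          N z ∈ TTl (p - 1) (q - 1) k r (h (-x).1) (-x).1 (-x).2 := by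
        intro z hz
        rw [mem_TTl]
        simpa [hN] using hz
      exact ⟨k, hk, r, hr, M, fun z hz => h1 (hmem z hz), fun z hz => h2 _ (hmem z hz)⟩)
    (fun x hx ε hε => by
      obtain ⟨δ, hδ, h1⟩ := hh (-x) hx ε hε
      refine ⟨δ, hδ, fun x' hx' hxx => ?_⟩
      have e1 : (-x').1 - (-x).1 = -(x'.1 - x.1) := by simp; ring
      have h2 := h1 (-x') hx' (by rw [e1, abs_neg]; exact hxx)
      rw [e1, abs_neg] at h2
      simp only [Prod.fst_neg] at h2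
      show -h (-x'.1) ≤ -h (-x.1) + c (-x.1) * (x'.1 - x.1) + ε * |x'.1 - x.1|
      linarith)
    (fun g S U k r M hg _ _ D => by
      filter_upwards [D.ae_ne hg] with x hx hxS hgx
      have e : ∀ σ, bv (fun u => -h (-u)) (fun z => F (N z)) σ x = bv g (fun z => F (N z)) σ x := by
        intro σ
        simp only [bv, hgx]
      simp only [e]
      exact hx hxS)
  have key2 := (Measure.measurePreserving_neg (volume : Measure (ℝ × ℝ))).quasiMeasurePreserving.ae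
    key
  filter_upwards [key2] with x hx hxE
  have h0 := hx (by simpa [hE₁] using hxE)
  have e : ∀ σ, bv (fun u => -h (-u)) (fun z => F (N z)) σ (-x) = bl h F σ x := by
    intro σ
    simp only [bv, bl, hN, Prod.fst_neg, Prod.snd_neg, neg_neg]
    congr 1
    ext
    · push_cast; ring
    · push_cast; ring
  simp only [e] at h0
  exact h0

end Vale.Agent.P097.H899.Nt
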