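import Vale.Agent.P097.H899.Tr1

/-!
Transfer of non-tangential limits through a holomorphic map: Poisson integrals of measures.
-/

open Complex Metric Filter Topology Set MeasureTheory
open Vale.Agent.P097.H877.Bd

namespace Vale.Agent.P097.H899.Nt

/-- Cauchy integral of a measure -/
noncomputable def cm (μ : Measure ℝ) (z : ℂ) : ℂ := ∫ t, ((t : ℂ) - z)⁻¹ ∂μ

theorem cm_restrict (K : Set ℝ) : cm (volume.restrict K) = cau K := rfl

theorem integrable_cm {μ : Measure ℝ} [IsFiniteMeasure μ] {z : ℂ} (hz : 0 < z.im) :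
    Integrable (fun t : ℝ => ((t : ℂ) - z)⁻¹) μ := by
  have hc : Continuous fun t : ℝ => ((t : ℂ) - z)⁻¹ :=
    (by fun_prop : Continuous fun t : ℝ => (t : ℂ) - z).inv₀ (sub_ne hz)
  refine Integrable.of_bound (C := 1 / z.im) hc.aestronglyMeasurable ?_
  refine Eventually.of_forall fun t => ?_
  rw [norm_inv, one_div]
  refine inv_anti₀ hz ?_
  simpa [abs_of_pos hz] using norm_sub_ge (z := z) t

theorem integrable_pk' {μ : Measure ℝ} [IsFiniteMeasure μ] {z : ℂ} (hz : 0 < z.im) :
    Integrable (pk z) μ := by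
  refine Integrable.of_bound (C := 1 / z.im) (continuous_pk hz).aestronglyMeasurable ?_
  refine Eventually.of_forall fun t => ?_
  rw [Real.norm_eq_abs, abs_of_pos (pk_pos hz t)]
  exact pk_le hz t

theorem cm_im {μ : Measure ℝ} [IsFiniteMeasure μ] {z : ℂ} (hz : 0 < z.im) :
    (cm μ z).im = ∫ t, pk z t ∂μ := by
  unfold cm
  have h1 : (∫ t, ((t : ℂ) - z)⁻¹ ∂μ).im = ∫ t, (((t : ℂ) - z)⁻¹).im ∂μ :=
    (integral_im (integrable_cm hz)).symm
  rw [h1]
  refine integral_congr_ae (Eventually.of_forall fun t => ?_)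
  simp only [Complex.inv_im, Complex.sub_im, Complex.ofReal_im, Complex.normSq_apply,
    Complex.sub_re, Complex.ofReal_re, pk]
  congr 1 <;> ring

theorem differentiableAt_cm {μ : Measure ℝ} [IsFiniteMeasure μ] {z : ℂ} (hz : 0 < z.im) :
    DifferentiableAt ℂ (cm μ) z := by
  have hcont : ∀ w : ℂ, 0 < w.im → Continuous fun t : ℝ => ((t : ℂ) - w)⁻¹ := fun w hw =>
    (by fun_prop : Continuous fun t : ℝ => (t : ℂ) - w).inv₀ (sub_ne hw)
  have him : ∀ w ∈ ball z (z.im / 2), z.im / 2 < w.im := by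
    intro w hw
    rw [mem_ball, dist_eq_norm] at hw
    have := (abs_lt.mp ((Complex.abs_im_le_norm (w - z)).trans_lt hw)).1
    simp only [Complex.sub_im] at this
    linarith
  have key := hasDerivAt_integral_of_dominated_loc_of_deriv_le (μ := μ)
    (F := fun (w : ℂ) (t : ℝ) => ((t : ℂ) - w)⁻¹)
    (F' := fun (w : ℂ) (t : ℝ) => (((t : ℂ) - w) ^ 2)⁻¹)
    (x₀ := z) (s := ball z (z.im / 2)) (bound := fun _ => ((z.im / 2) ^ 2)⁻¹)
    (ball_mem_nhds z (by positivity)) ?_ ?_ ?_ ?_ ?_ ?_
  · exact key.2.differentiableAt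
  · filter_upwards [ball_mem_nhds z (show 0 < z.im / 2 by positivity)] with w hw
    exact (hcont w (by linarith [him w hw])).aestronglyMeasurable
  · exact integrable_cm hz
  · have : Continuous fun t : ℝ => (((t : ℂ) - z) ^ 2)⁻¹ :=
      (by fun_prop : Continuous fun t : ℝ => ((t : ℂ) - z) ^ 2).inv₀
        (fun t => pow_ne_zero 2 (sub_ne hz t))
    exact this.aestronglyMeasurable
  · refine Eventually.of_forall fun t w hw => ?_
    rw [norm_inv, norm_pow]
    have h1 := him w hw
    refine inv_anti₀ (by positivity) ?_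
    have h2 := norm_sub_ge (z := w) t
    rw [abs_of_pos (by linarith)] at h2
    gcongr
    linarith
  · exact integrable_const _
  · refine Eventually.of_forall fun t w hw => ?_
    have h1 := him w hw
    have h2 : (t : ℂ) - w ≠ 0 := sub_ne (by linarith) t
    have h3 : HasDerivAt (fun w : ℂ => (t : ℂ) - w) (-1) w := by
      simpa using (hasDerivAt_id w).const_sub (t : ℂ)
    have h4 := h3.inv h2
    refine h4.congr_deriv ?_
    rw [neg_neg, one_div]

/-- Poisson integral of an interval-like set near an interior point -/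
theorem cau_tendsto_pi {O : Set ℝ} (hO : IsOpen O) (hOv : volume O ≠ ⊤) {b : ℝ} (hb : b ∈ O) :
    ∀ c < Real.pi, ∀ᶠ z : ℂ in 𝓝 (b : ℂ), 0 < z.im → c < (cau O z).im := by
  intro c hc
  obtain ⟨r, hr, hrO⟩ := Metric.isOpen_iff.mp hO b hb
  obtain ⟨T, hT0, hT⟩ : ∃ T : ℝ, 0 < T ∧ c < 2 * Real.arctan T := by
    have h1 : Tendsto (fun R => 2 * Real.arctan R) atTop (𝓝 (2 * (Real.pi / 2))) :=
      (tendsto_nhds_of_tendsto_nhdsWithin Real.tendsto_arctan_atTop).const_mul 2
    have h2 : c < 2 * (Real.pi / 2) := by linarith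
    obtain ⟨R, hR1, hR2⟩ := ((h1.eventually (lt_mem_nhds h2)).and (eventually_gt_atTop 0)).exists
    exact ⟨R, hR2, hR1⟩
  have hδ : 0 < r / (2 * (T + 1)) := by positivity
  have hδ2 : r / (2 * (T + 1)) * (2 * (T + 1)) = r := by field_simp
  filter_upwards [Metric.ball_mem_nhds (b : ℂ) hδ] with z hz hz0
  rw [mem_ball, dist_eq_norm] at hz
  have h1 : |z.re - b| < r / (2 * (T + 1)) := by
    have := (Complex.abs_re_le_norm (z - b)).trans_lt hz
    simpa using this
  have h2 : z.im < r / (2 * (T + 1)) := by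
    have := (Complex.abs_im_le_norm (z - b)).trans_lt hz
    have h3 := (le_abs_self _).trans_lt this
    simpa using h3
  have hsub : Ioo (z.re - T * z.im) (z.re + T * z.im) ⊆ O := by
    intro t ht
    apply hrO
    rw [mem_ball, Real.dist_eq]
    have h4 : |t - z.re| < T * z.im := by
      rw [abs_lt]; constructor <;> linarith [ht.1, ht.2]
    have h5 := abs_sub_le t z.re b
    have h6 : T * z.im ≤ T * (r / (2 * (T + 1))) := by gcongr
    nlinarith
  rw [cau_im hOv hz0]
  refine hT.trans_le ?_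
  rw [← integral_Ioo_pk hz0 hT0]
  exact setIntegral_mono_set (integrable_pk hz0).integrableOn
    (Eventually.of_forall fun t => (pk_pos hz0 t).le)
    (Eventually.of_forall fun t ht => hsub ht)

/-- outer measure control: there is a finite measure `μ` such that near every point of `B`,
`K * Im (cau B) + Im (cm μ)` is almost `K π` for every `K` -/
theorem exists_outer {B : Set ℝ} (hB : MeasurableSet B) (hBv : volume B ≠ ⊤) :
    ∃ μ : Measure ℝ, IsFiniteMeasure μ ∧ ∀ K : ℕ, ∀ b ∈ B, ∀ c < Real.pi, ∀ᶠ z : ℂ in 𝓝 (b : ℂ),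
      0 < z.im → (K : ℝ) * c ≤ (K : ℝ) * (cau B z).im + (cm μ z).im := by
  have h1 : ∀ k : ℕ, ∃ O : Set ℝ, B ⊆ O ∧ IsOpen O ∧ volume O < ⊤ ∧
      volume (O \ B) < ENNReal.ofReal ((1 / 2) ^ k) := by
    intro k
    have hpos : ENNReal.ofReal ((1 / 2 : ℝ) ^ k) ≠ 0 := by
      rw [Ne, ENNReal.ofReal_eq_zero, not_le]
      positivity
    exact hB.exists_isOpen_sdiff_lt hBv hpos
  choose O hBO hOo hOv hOd using h1
  set V : ℕ → Set ℝ := fun k => O k \ B with hV
  have hVm : ∀ k, MeasurableSet (V k) := fun k => (hOo k).measurableSet.diff hB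
  set μ : Measure ℝ := Measure.sum fun k => volume.restrict (V k) with hμ
  have hfin : IsFiniteMeasure μ := by
    refine ⟨?_⟩
    rw [hμ, Measure.sum_apply _ MeasurableSet.univ]
    have h2 : ∀ k, (volume.restrict (V k)) univ ≤ ENNReal.ofReal ((1 / 2) ^ k) := by
      intro k
      rw [Measure.restrict_apply_univ]
      exact (hOd k).le
    refine (ENNReal.tsum_le_tsum h2).trans_lt ?_
    rw [← ENNReal.ofReal_tsum_of_nonneg (fun k => by positivity)
      (summable_geometric_of_lt_one (by norm_num) (by norm_num))]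
    exact ENNReal.ofReal_lt_top
  refine ⟨μ, hfin, fun K b hb c hc => ?_⟩
  have hev : ∀ k ∈ Finset.range K, ∀ᶠ z : ℂ in 𝓝 (b : ℂ), 0 < z.im → c < (cau (O k) z).im :=
    fun k _ => cau_tendsto_pi (hOo k) (hOv k).ne (hBO k hb) c hc
  have hev2 := (Finset.eventually_all (Finset.range K)).mpr hev
  filter_upwards [hev2] with z hz hz0
  -- the sum of the first terms
  have hle : ∀ K : ℕ, ∑ k ∈ Finset.range K, ∫ t in V k, pk z t ≤ ∫ t, pk z t ∂μ := by
    intro K
    have hsle : (∑ k ∈ Finset.range K, volume.restrict (V k)) ≤ μ := by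
      intro s
      rw [Measure.coe_finsetSum, Finset.sum_apply, hμ]
      refine le_trans ?_ (Measure.le_sum_apply _ s)
      exact ENNReal.sum_le_tsum _
    rw [← integral_finsetSum_measure (fun k _ => (integrable_pk hz0).integrableOn)]
    exact integral_mono_measure hsle (Eventually.of_forall fun t => (pk_pos hz0 t).le)
      (integrable_pk' hz0)
  have hsplit : ∀ k, (cau (O k) z).im = (cau B z).im + ∫ t in V k, pk z t := by
    intro k
    rw [cau_im (hOv k).ne hz0, cau_im hBv hz0]
    have h2 : O k = B ∪ V k := by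
      rw [hV]
      simp only
      rw [union_sdiff_self, union_eq_self_of_subset_left (hBO k)]
    conv_lhs => rw [h2]
    exact setIntegral_union disjoint_sdiff_right (hVm k) (integrable_pk hz0).integrableOn
      (integrable_pk hz0).integrableOn
  rw [cm_im hz0]
  have h4 := hle K
  have h3 : ∑ k ∈ Finset.range K, c ≤ ∑ k ∈ Finset.range K, (cau (O k) z).im :=
    Finset.sum_le_sum fun k hk => (hz k hk hz0).le
  simp only [hsplit, Finset.sum_add_distrib, Finset.sum_const, Finset.card_range,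
    nsmul_eq_mul] at h3
  linarith

end Vale.Agent.P097.H899.Nt
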