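import Vale.Agent.P097.H899.Tr2

/-!
Transfer of non-tangential limits through a holomorphic map: composition with Poisson integrals.
-/

open Complex Metric Filter Topology Set MeasureTheory
open Vale.Agent.P097.H877.Bd

namespace Vale.Agent.P097.H899.Nt

/-- a family `E` of edge points `x = (u, y)`, that is `(y + i h(u), u)`, of a domain `Dom`: near
each of them `Dom` contains the wedge `Im t < h(u) + c(u) (Re w - u) + kap p q (Im w)` up to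
`o(|w - u|)`, and `h` is above its affine lower bounds along `E`. -/
structure Edge (Dom : Set (ℂ × ℂ)) (h c : ℝ → ℝ) (p q : ℝ) (E : Set (ℝ × ℝ)) : Prop where
  hDom : IsOpen Dom
  hcone : ∀ x ∈ E, ∀ ε > 0, ∃ r > 0, ∀ t w : ℂ, |t.re - x.2| < r →
      ‖w - x.1‖ < r → h x.1 - r < t.im →
      t.im < h x.1 + c x.1 * (w.re - x.1) + kap p q w.im - ε * ‖w - x.1‖ → (t, w) ∈ Dom
  hh : ∀ x ∈ E, ∀ ε > 0, ∃ δ > 0, ∀ x' ∈ E, |x'.1 - x.1| < δ →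
      h x.1 + c x.1 * (x'.1 - x.1) - ε * |x'.1 - x.1| ≤ h x'.1

/-- the point at depth `σ` below the edge point `x = (u, y)` -/
noncomputable def rad (h : ℝ → ℝ) (x : ℝ × ℝ) (σ : ℝ) : ℂ × ℂ :=
  ((x.2 : ℂ) + ((h x.1 - σ : ℝ) : ℂ) * I, (x.1 : ℂ))

/-- the tangent wedge -/
def wed (c p q : ℝ) : Set (ℂ × ℂ) := {z | z.1.im < c * z.2.re + kap p q z.2.im}

theorem rad_eq (h : ℝ → ℝ) (x : ℝ × ℝ) (σ : ℝ) :
    rad h x σ = sc x.1 x.2 (h x.1) (σ, (-I, 0)) := by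
  unfold rad sc
  ext
  · push_cast; ring
  · simp

theorem mI_mem (c p q : ℝ) : ((-I, 0) : ℂ × ℂ) ∈ wed c p q := by
  simp [wed]

variable {Dom : Set (ℂ × ℂ)} {h c : ℝ → ℝ} {p q : ℝ} {E : Set (ℝ × ℝ)} {F : ℂ × ℂ → ℂ}

theorem Edge.nt (e : Edge Dom h c p q E) (hF : DifferentiableOn ℂ F Dom)
    {M : ℝ} (hM : ∀ z ∈ Dom, ‖F z‖ ≤ M) :
    ∀ᵐ x : ℝ × ℝ, x ∈ E → ∃ l : ℂ, ∀ z₁ ∈ wed (c x.1) p q,
        Tendsto (fun a => F (sc x.1 x.2 (h x.1) a)) (𝓝[>] 0 ×ˢ 𝓝 z₁) (𝓝 l) ∧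
        ∀ᶠ a in 𝓝[>] 0 ×ˢ 𝓝 z₁, sc x.1 x.2 (h x.1) a ∈ Dom := by
  refine nt2 e.hDom hF (fun x hx => ⟨M, fun ε hε => ?_⟩) e.hh
  obtain ⟨r, hr, h1⟩ := e.hcone x hx ε hε
  exact ⟨r, hr, fun t w a1 a2 a3 a4 => ⟨h1 t w a1 a2 a3 a4, hM _ (h1 t w a1 a2 a3 a4)⟩⟩

theorem Edge.ne (e : Edge Dom h c p q E) (hF : DifferentiableOn ℂ F Dom)
    {M : ℝ} (hM : ∀ z ∈ Dom, ‖F z‖ ≤ M) :
    ∀ᵐ x : ℝ × ℝ, x ∈ E → (∃ᶠ σ in 𝓝[>] (0 : ℝ), F (rad h x σ) ≠ 0) →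
      ¬ Tendsto (fun σ => F (rad h x σ)) (𝓝[>] 0) (𝓝 0) := by
  refine nt2_ne (p := p) (q := q) e.hDom hF (fun x hx => ⟨M, fun ε hε => ?_⟩) e.hh
  obtain ⟨r, hr, h1⟩ := e.hcone x hx ε hε
  exact ⟨r, hr, fun t w a1 a2 a3 a4 => ⟨h1 t w a1 a2 a3 a4, hM _ (h1 t w a1 a2 a3 a4)⟩⟩

theorem Edge.dom (e : Edge Dom h c p q E) :
    ∀ᵐ x : ℝ × ℝ, x ∈ E → ∀ z₁ ∈ wed (c x.1) p q,
        ∀ᶠ a in 𝓝[>] 0 ×ˢ 𝓝 z₁, sc x.1 x.2 (h x.1) a ∈ Dom := by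
  filter_upwards [e.nt (F := fun _ => 0) (differentiableOn_const 0) (M := 0)
    (fun z _ => by simp)] with x hx hxE z₁ hz₁
  obtain ⟨l, hl⟩ := hx hxE
  exact (hl z₁ hz₁).2

theorem rad_tendsto : Tendsto (fun σ : ℝ => (σ, ((-I, 0) : ℂ × ℂ))) (𝓝[>] 0)
    (𝓝[>] 0 ×ˢ 𝓝 ((-I, 0) : ℂ × ℂ)) :=
  tendsto_id.prodMk tendsto_const_nhds

theorem norm_expI (w : ℂ) : ‖Complex.exp (I * w)‖ = Real.exp (-w.im) := by
  rw [Complex.norm_exp]
  simp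

/-- zero free bounded functions have a finite non zero limit -/
theorem Edge.nt_ne (e : Edge Dom h c p q E) (hF : DifferentiableOn ℂ F Dom)
    {M : ℝ} (hM : ∀ z ∈ Dom, ‖F z‖ ≤ M) (h0 : ∀ z ∈ Dom, F z ≠ 0) :
    ∀ᵐ x : ℝ × ℝ, x ∈ E → ∃ l : ℂ, l ≠ 0 ∧ ∀ z₁ ∈ wed (c x.1) p q,
        Tendsto (fun a => F (sc x.1 x.2 (h x.1) a)) (𝓝[>] 0 ×ˢ 𝓝 z₁) (𝓝 l) := by
  filter_upwards [e.nt hF hM, e.ne hF hM, e.dom] with x h1 h2 h3 hxE
  obtain ⟨l, hl⟩ := h1 hxE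
  refine ⟨l, ?_, fun z₁ hz₁ => (hl z₁ hz₁).1⟩
  rintro rfl
  have h4 := (hl _ (mI_mem (c x.1) p q)).1.comp rad_tendsto
  have h5 := rad_tendsto.eventually (h3 hxE _ (mI_mem (c x.1) p q))
  simp only [← rad_eq] at h5
  refine h2 hxE (h5.mono fun σ hσ => h0 _ hσ).frequently (h4.congr fun σ => ?_)
  simp only [Function.comp, ← rad_eq]

/-- **composition theorem**: at almost every edge point at which the half plane valued function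
`φ` tends to a point of `B`, the Poisson integral of `B` along `φ` tends to its maximum, on the
whole wedge. -/
theorem Edge.comp (e : Edge Dom h c p q E) {φ : ℂ × ℂ → ℂ} (hφ : DifferentiableOn ℂ φ Dom)
    (hpos : ∀ z ∈ Dom, 0 < (φ z).im) {B : Set ℝ} (hB : MeasurableSet B) (hBv : volume B ≠ ⊤) :
    ∀ᵐ x : ℝ × ℝ, x ∈ E → ∀ b ∈ B,
      Tendsto (fun σ => φ (rad h x σ)) (𝓝[>] 0) (𝓝 (b : ℂ)) → ∀ z₁ ∈ wed (c x.1) p q,
        Tendsto (fun a => (cau B (φ (sc x.1 x.2 (h x.1) a))).im) (𝓝[>] 0 ×ˢ 𝓝 z₁)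
          (𝓝 Real.pi) := by
  obtain ⟨μ, hfin, hμ⟩ := exists_outer hB hBv
  have hBm : ∀ z ∈ Dom, 0 ≤ (cau B (φ z)).im := by
    intro z hz
    rw [cau_im hBv (hpos z hz)]
    exact setIntegral_nonneg hB fun t _ => (pk_pos (hpos z hz) t).le
  have hμm : ∀ z ∈ Dom, 0 ≤ (cm μ (φ z)).im := by
    intro z hz
    rw [cm_im (hpos z hz)]
    exact integral_nonneg fun t => (pk_pos (hpos z hz) t).le
  have hBle : ∀ z ∈ Dom, (cau B (φ z)).im ≤ Real.pi := by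
    intro z hz
    rw [cau_im hBv (hpos z hz)]
    exact setIntegral_pk_le (hpos z hz)
  have hF₁ : DifferentiableOn ℂ (fun z => Complex.exp (I * cau B (φ z))) Dom := by
    intro z hz
    have h1 := hφ.differentiableAt (e.hDom.mem_nhds hz)
    have h2 := (differentiableAt_cau hBv (hpos z hz)).comp z h1
    exact ((h2.const_mul I).cexp).differentiableWithinAt
  have hF₂ : DifferentiableOn ℂ (fun z => Complex.exp (I * cm μ (φ z))) Dom := by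
    intro z hz
    have h1 := hφ.differentiableAt (e.hDom.mem_nhds hz)
    have h2 := (differentiableAt_cm (μ := μ) (hpos z hz)).comp z h1
    exact ((h2.const_mul I).cexp).differentiableWithinAt
  have hM₁ : ∀ z ∈ Dom, ‖Complex.exp (I * cau B (φ z))‖ ≤ 1 := by
    intro z hz
    rw [norm_expI, Real.exp_le_one_iff]
    linarith [hBm z hz]
  have hM₂ : ∀ z ∈ Dom, ‖Complex.exp (I * cm μ (φ z))‖ ≤ 1 := by
    intro z hz
    rw [norm_expI, Real.exp_le_one_iff]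
    linarith [hμm z hz]
  filter_upwards [e.nt_ne hF₁ hM₁ (fun z _ => Complex.exp_ne_zero _),
    e.nt_ne hF₂ hM₂ (fun z _ => Complex.exp_ne_zero _), e.dom] with x hx1 hx2 hx3 hxE b hb hlim
  obtain ⟨l₁, hl₁0, hl₁⟩ := hx1 hxE
  obtain ⟨l₂, hl₂0, hl₂⟩ := hx2 hxE
  have hdom := hx3 hxE
  -- the limits of the imaginary parts
  have hlog : ∀ {G : ℂ → ℂ} {l : ℂ}, l ≠ 0 → ∀ {α : Type} {L : Filter α} {f : α → ℂ},
      Tendsto (fun a => Complex.exp (I * G (f a))) L (𝓝 l) →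
      Tendsto (fun a => (G (f a)).im) L (𝓝 (-Real.log ‖l‖)) := by
    intro G l hl α L f hf
    have h1 := (hf.norm.log (norm_ne_zero_iff.mpr hl)).neg
    refine h1.congr fun a => ?_
    rw [norm_expI, Real.log_exp, neg_neg]
  have hA := fun z₁ hz₁ => hlog (G := cau B) hl₁0 (hl₁ z₁ hz₁)
  have hC := fun z₁ hz₁ => hlog (G := cm μ) hl₂0 (hl₂ z₁ hz₁)
  have hA0 := (hA _ (mI_mem (c x.1) p q)).comp rad_tendsto
  have hC0 := (hC _ (mI_mem (c x.1) p q)).comp rad_tendsto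
  have hd0 := rad_tendsto.eventually (hdom _ (mI_mem (c x.1) p q))
  simp only [Function.comp_def, ← rad_eq] at hA0 hC0 hd0
  have hle : -Real.log ‖l₁‖ ≤ Real.pi :=
    le_of_tendsto hA0 (hd0.mono fun σ hσ => hBle _ hσ)
  have hge : Real.pi ≤ -Real.log ‖l₁‖ := by
    refine le_of_forall_lt fun c' hc' => ?_
    obtain ⟨c'', hc1, hc2⟩ := exists_between hc'
    refine hc1.trans_le ?_
    by_contra hneg
    push Not at hneg
    obtain ⟨K, hK⟩ := exists_nat_gt (-Real.log ‖l₂‖ / (c'' - -Real.log ‖l₁‖))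
    rw [div_lt_iff₀ (by linarith)] at hK
    have h1 : ∀ᶠ σ in 𝓝[>] (0 : ℝ), (K : ℝ) * c'' ≤
        (K : ℝ) * (cau B (φ (rad h x σ))).im + (cm μ (φ (rad h x σ))).im := by
      filter_upwards [hlim.eventually (hμ K b hb c'' hc2), hd0] with σ h2 h3
      exact h2 (hpos _ h3)
    have h2 := ge_of_tendsto ((hA0.const_mul (K : ℝ)).add hC0) h1
    linarith
  have hpi : -Real.log ‖l₁‖ = Real.pi := le_antisymm hle hge
  intro z₁ hz₁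
  rw [← hpi]
  exact hA z₁ hz₁

end Vale.Agent.P097.H899.Nt
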