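import Vale.Agent.P097.H899.Tr3

/-!
Transfer of non-tangential limits through a holomorphic map, on the whole wedge.
-/

open Complex Metric Filter Topology Set MeasureTheory
open Vale.Agent.P097.H877.Bd

namespace Vale.Agent.P097.H899.Nt

variable {Dom : Set (ℂ × ℂ)} {h c : ℝ → ℝ} {p q : ℝ} {E : Set (ℝ × ℝ)} {φ : ℂ × ℂ → ℂ}

/-- half plane valued functions have finite limits almost everywhere -/
theorem Edge.lim (e : Edge Dom h c p q E) (hφ : DifferentiableOn ℂ φ Dom)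
    (hpos : ∀ z ∈ Dom, 0 < (φ z).im) :
    ∀ᵐ x : ℝ × ℝ, x ∈ E → ∃ ξ : ℂ, 0 ≤ ξ.im ∧ ∀ z₁ ∈ wed (c x.1) p q,
      Tendsto (fun a => φ (sc x.1 x.2 (h x.1) a)) (𝓝[>] 0 ×ˢ 𝓝 z₁) (𝓝 ξ) := by
  have hge : ∀ z ∈ Dom, 1 ≤ ‖φ z + I‖ := by
    intro z hz
    have h1 := (le_abs_self _).trans (Complex.abs_im_le_norm (φ z + I))
    rw [Complex.add_im, Complex.I_im] at h1
    linarith [hpos z hz]
  have hne : ∀ z ∈ Dom, φ z + I ≠ 0 := fun z hz => norm_pos_iff.mp (by linarith [hge z hz])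
  have hF : DifferentiableOn ℂ (fun z => (φ z + I)⁻¹) Dom :=
    (hφ.add_const I).inv hne
  have hM : ∀ z ∈ Dom, ‖(φ z + I)⁻¹‖ ≤ 1 := by
    intro z hz
    rw [norm_inv]
    exact inv_le_one_of_one_le₀ (hge z hz)
  filter_upwards [e.nt_ne hF hM (fun z hz => inv_ne_zero (hne z hz)), e.dom] with x h1 h2 hxE
  obtain ⟨l, hl0, hl⟩ := h1 hxE
  have hlim : ∀ z₁ ∈ wed (c x.1) p q,
      Tendsto (fun a => φ (sc x.1 x.2 (h x.1) a)) (𝓝[>] 0 ×ˢ 𝓝 z₁) (𝓝 (l⁻¹ - I)) := by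
    intro z₁ hz₁
    have h3 := ((hl z₁ hz₁).inv₀ hl0).sub_const I
    refine h3.congr fun a => ?_
    rw [inv_inv]
    ring
  refine ⟨l⁻¹ - I, ?_, hlim⟩
  have h3 := (hlim _ (mI_mem (c x.1) p q)).comp rad_tendsto
  have h4 := rad_tendsto.eventually (h2 hxE _ (mI_mem (c x.1) p q))
  have h5 := (Complex.continuous_im.tendsto _).comp h3
  exact ge_of_tendsto h5 (h4.mono fun σ hσ => (hpos _ hσ).le)

/-- the values on null sets are not attained -/
theorem Edge.null (e : Edge Dom h c p q E) (hφ : DifferentiableOn ℂ φ Dom)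
    (hpos : ∀ z ∈ Dom, 0 < (φ z).im) {N : Set ℝ} (hN : volume N = 0) :
    ∀ᵐ x : ℝ × ℝ, x ∈ E → ∀ b ∈ N, ¬ Tendsto (fun σ => φ (rad h x σ)) (𝓝[>] 0) (𝓝 (b : ℂ)) := by
  have hB0 : volume (toMeasurable volume N) = 0 := by rw [measure_toMeasurable, hN]
  filter_upwards [e.comp hφ hpos (measurableSet_toMeasurable volume N) (by rw [hB0]; simp)]
    with x hx hxE b hb hlim
  have h1 := hx hxE b (subset_toMeasurable volume N hb) hlim _ (mI_mem (c x.1) p q)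
  have h2 : ∀ z, cau (toMeasurable volume N) z = 0 := by
    intro z
    unfold cau
    rw [Measure.restrict_eq_zero.mpr hB0, integral_zero_measure]
  simp only [h2, Complex.zero_im] at h1
  have h3 : (𝓝[>] (0 : ℝ) ×ˢ 𝓝 ((-I, 0) : ℂ × ℂ)).NeBot := inferInstance
  have h4 := tendsto_nhds_unique h1 tendsto_const_nhds
  exact Real.pi_ne_zero h4

/-- near an edge point with value in `B` the function stays in thin cones over `B`, on the whole
wedge -/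
theorem Edge.window (e : Edge Dom h c p q E) (hφ : DifferentiableOn ℂ φ Dom)
    (hpos : ∀ z ∈ Dom, 0 < (φ z).im) {B : Set ℝ} (hB : MeasurableSet B) :
    ∀ᵐ x : ℝ × ℝ, x ∈ E → ∀ b ∈ B,
      Tendsto (fun σ => φ (rad h x σ)) (𝓝[>] 0) (𝓝 (b : ℂ)) → ∀ z₁ ∈ wed (c x.1) p q,
        ∀ k > 0, ∀ δ > 0, ∀ᶠ a in 𝓝[>] 0 ×ˢ 𝓝 z₁, ∃ b' ∈ B, |b' - b| < δ ∧
          φ (sc x.1 x.2 (h x.1) a) ∈ cone k δ b' := by
  have hall : ∀ᵐ x : ℝ × ℝ, ∀ n : ℕ, x ∈ E → ∀ b ∈ B ∩ Icc (-n : ℝ) n,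
      Tendsto (fun σ => φ (rad h x σ)) (𝓝[>] 0) (𝓝 (b : ℂ)) → ∀ z₁ ∈ wed (c x.1) p q,
        Tendsto (fun a => (cau (B ∩ Icc (-n : ℝ) n) (φ (sc x.1 x.2 (h x.1) a))).im)
          (𝓝[>] 0 ×ˢ 𝓝 z₁) (𝓝 Real.pi) := by
    rw [ae_all_iff]
    intro n
    exact e.comp hφ hpos (hB.inter measurableSet_Icc)
      (measure_ne_top_of_subset inter_subset_right (by simp [Real.volume_Icc]))
  filter_upwards [hall, e.lim hφ hpos, e.dom] with x h1 h2 h3 hxE b hb hlim z₁ hz₁ k hk δ hδ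
  obtain ⟨n, hn⟩ := exists_nat_gt |b|
  obtain ⟨ξ, hξ0, hξ⟩ := h2 hxE
  have hBv : volume (B ∩ Icc (-n : ℝ) n) ≠ ⊤ :=
    measure_ne_top_of_subset inter_subset_right (by simp [Real.volume_Icc])
  have hξb : ξ = b := by
    have h4 := (hξ _ (mI_mem (c x.1) p q)).comp rad_tendsto
    simp only [Function.comp_def, ← rad_eq] at h4
    exact tendsto_nhds_unique h4 hlim
  have hbn : b ∈ B ∩ Icc (-n : ℝ) n := ⟨hb, by rw [mem_Icc]; exact abs_le.mp hn.le⟩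
  have h5 := h1 n hxE b hbn hlim z₁ hz₁
  have h6 := hξ z₁ hz₁
  rw [hξb] at h6
  -- smaller constants
  obtain ⟨k', hk'0, hk'k, hk'1⟩ : ∃ k' : ℝ, 0 < k' ∧ k' ≤ k ∧ k' ≤ 1 :=
    ⟨min k 1, by positivity, min_le_left _ _, min_le_right _ _⟩
  have h7 : Real.pi - 2 * Real.arctan k' < Real.pi := by
    have := Real.arctan_pos.mpr hk'0
    linarith
  filter_upwards [h5.eventually (lt_mem_nhds h7), h6.eventually (Metric.ball_mem_nhds _
    (show 0 < δ / 2 by positivity)), h3 hxE z₁ hz₁] with a a1 a2 a3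
  have hp := hpos _ a3
  have hex : ∃ b' ∈ B ∩ Icc (-n : ℝ) n,
      |(φ (sc x.1 x.2 (h x.1) a)).re - b'| < k' * (φ (sc x.1 x.2 (h x.1) a)).im := by
    by_contra hneg
    push Not at hneg
    have := cau_le_of_far hBv hp hk'0 hneg
    linarith
  obtain ⟨b', hb', hb'2⟩ := hex
  rw [dist_eq_norm] at a2
  have e1 : |(φ (sc x.1 x.2 (h x.1) a)).re - b| < δ / 2 := by
    have := (Complex.abs_re_le_norm (φ (sc x.1 x.2 (h x.1) a) - b)).trans_lt a2
    simpa using this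
  have e2 : (φ (sc x.1 x.2 (h x.1) a)).im < δ / 2 := by
    have := (le_abs_self _).trans_lt
      ((Complex.abs_im_le_norm (φ (sc x.1 x.2 (h x.1) a) - b)).trans_lt a2)
    simpa using this
  refine ⟨b', hb'.1, ?_, ?_, ?_⟩
  · have e3 := abs_sub_le b' (φ (sc x.1 x.2 (h x.1) a)).re b
    rw [abs_sub_comm b' (φ (sc x.1 x.2 (h x.1) a)).re] at e3
    have e4 : k' * (φ (sc x.1 x.2 (h x.1) a)).im ≤ 1 * (φ (sc x.1 x.2 (h x.1) a)).im := by gcongr
    linarith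
  · exact hb'2.trans_le (mul_le_mul_of_nonneg_right hk'k hp.le)
  · linarith

/-- the points with small oscillation of `G` in the cone form a closed set -/
theorem isClosed_osc {X : Type*} [PseudoMetricSpace X] (G : ℂ → X) (k δ ε : ℝ) :
    IsClosed {b : ℝ | ∀ z ∈ cone k δ b, ∀ z' ∈ cone k δ b, dist (G z) (G z') ≤ ε} := by
  rw [← isOpen_compl_iff, isOpen_iff_mem_nhds]
  intro b hb
  simp only [mem_compl_iff, mem_ofPred_eq, not_forall] at hb
  obtain ⟨z, hz, z', hz', hne⟩ := hb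
  have h1 : ∀ w : ℂ, w ∈ cone k δ b → ∀ᶠ b' : ℝ in 𝓝 b, w ∈ cone k δ b' := by
    intro w hw
    have h2 : IsOpen {b' : ℝ | |w.re - b'| < k * w.im} := isOpen_lt (by fun_prop) (by fun_prop)
    filter_upwards [h2.mem_nhds hw.1] with b' hb'
    exact ⟨hb', hw.2⟩
  filter_upwards [h1 z hz, h1 z' hz'] with b' h2 h3
  simp only [mem_compl_iff, mem_ofPred_eq, not_forall]
  exact ⟨z, h2, z', h3, hne⟩

/-- **transfer theorem**: if `φ` is half plane valued and `G` is any function, then at almost every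
edge point at which `φ` tends to a real point `b` where `G` has a limit `l` in some cone, the
function `G ∘ φ` tends to `l` on the whole wedge. -/
theorem Edge.transfer (e : Edge Dom h c p q E) (hφ : DifferentiableOn ℂ φ Dom)
    (hpos : ∀ z ∈ Dom, 0 < (φ z).im) {X : Type*} [PseudoMetricSpace X] (G : ℂ → X) :
    ∀ᵐ x : ℝ × ℝ, x ∈ E → ∀ b : ℝ,
      Tendsto (fun σ => φ (rad h x σ)) (𝓝[>] 0) (𝓝 (b : ℂ)) → ∀ l : X,
        (∃ k > 0, ∃ δ > 0, Tendsto G (𝓝[cone k δ b] (b : ℂ)) (𝓝 l)) →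
        ∀ z₁ ∈ wed (c x.1) p q,
          Tendsto (fun a => G (φ (sc x.1 x.2 (h x.1) a))) (𝓝[>] 0 ×ˢ 𝓝 z₁) (𝓝 l) := by
  set r : ℕ → ℝ := fun n => 1 / ((n : ℝ) + 1) with hr
  have hr0 : ∀ n, 0 < r n := fun n => by simp only [hr]; positivity
  set B : ℕ → ℕ → ℕ → Set ℝ := fun m i n =>
    {b : ℝ | ∀ z ∈ cone (r i) (r n) b, ∀ z' ∈ cone (r i) (r n) b, dist (G z) (G z') ≤ r m} with hB
  have hall : ∀ᵐ x : ℝ × ℝ, ∀ a : ℕ × ℕ × ℕ, x ∈ E → ∀ b ∈ B a.1 a.2.1 a.2.2,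
      Tendsto (fun σ => φ (rad h x σ)) (𝓝[>] 0) (𝓝 (b : ℂ)) → ∀ z₁ ∈ wed (c x.1) p q,
        ∀ k > 0, ∀ δ > 0, ∀ᶠ w in 𝓝[>] 0 ×ˢ 𝓝 z₁, ∃ b' ∈ B a.1 a.2.1 a.2.2, |b' - b| < δ ∧
          φ (sc x.1 x.2 (h x.1) w) ∈ cone k δ b' := by
    rw [ae_all_iff]
    intro a
    exact e.window hφ hpos (isClosed_osc G _ _ _).measurableSet
  filter_upwards [hall] with x hx hxE b hlim l hl z₁ hz₁
  obtain ⟨k, hk, δ₀, hδ₀, hG⟩ := hl
  have hr_lim : Tendsto r atTop (𝓝 0) := tendsto_one_div_add_atTop_nhds_zero_nat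
  rw [Metric.tendsto_nhds]
  intro ε hε
  obtain ⟨m, hm⟩ := (hr_lim.eventually (gt_mem_nhds (show 0 < ε / 2 by positivity))).exists
  obtain ⟨i, hi⟩ := (hr_lim.eventually (gt_mem_nhds hk)).exists
  have hG' := Metric.tendsto_nhdsWithin_nhds.mp hG (r m / 2) (half_pos (hr0 m))
  obtain ⟨δ, hδ, hG2⟩ := hG'
  have hpos3 : 0 < min δ₀ (δ / (1 + r i)) := lt_min hδ₀ (div_pos hδ (by linarith [hr0 i]))
  obtain ⟨n, hn⟩ := (hr_lim.eventually (gt_mem_nhds hpos3)).exists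
  have hn1 : r n < δ₀ := hn.trans_le (min_le_left _ _)
  have hn2 : r n * (1 + r i) < δ := by
    have := hn.trans_le (min_le_right _ _)
    rwa [lt_div_iff₀ (by linarith [hr0 i])] at this
  -- the small cone at `b`
  have hsmall : ∀ z ∈ cone (r i) (r n) b, dist (G z) l < r m / 2 := by
    intro z hz
    have hz0 := cone_im_pos (hr0 i) hz
    refine hG2 ⟨hz.1.trans_le (mul_le_mul_of_nonneg_right hi.le hz0.le), hz.2.trans hn1⟩ ?_
    rw [dist_eq_norm]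
    have h1 := Complex.norm_le_abs_re_add_abs_im (z - b)
    simp only [Complex.sub_re, Complex.ofReal_re, Complex.sub_im, Complex.ofReal_im, sub_zero] at h1
    rw [abs_of_pos hz0] at h1
    have h2 := hz.1
    have h3 : r i * z.im ≤ r i * r n := mul_le_mul_of_nonneg_left hz.2.le (hr0 i).le
    have h4 := hz.2
    nlinarith
  have hbB : b ∈ B m i n := by
    intro z hz z' hz'
    have h1 := hsmall z hz
    have h2 := hsmall z' hz'
    have h3 := dist_triangle_right (G z) (G z') l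
    linarith
  have hwin := hx (m, i, n) hxE b hbB hlim z₁ hz₁ (r i) (hr0 i) (min (r n) (r i * r n))
    (lt_min (hr0 n) (mul_pos (hr0 i) (hr0 n)))
  filter_upwards [hwin] with w hw
  obtain ⟨b', hb'B, hb'b, hb'c⟩ := hw
  have h1 : |b' - b| < r i * r n := hb'b.trans_le (min_le_right _ _)
  have h2 : φ (sc x.1 x.2 (h x.1) w) ∈ cone (r i) (r n) b' :=
    ⟨hb'c.1, hb'c.2.trans_le (min_le_left _ _)⟩
  set z'' : ℂ := ((b + b') / 2 : ℝ) + ((r n / 2 : ℝ) : ℂ) * I with hz''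
  have e1 : z''.re = (b + b') / 2 := by simp [hz'']
  have e2 : z''.im = r n / 2 := by simp [hz'']
  have h3 : z'' ∈ cone (r i) (r n) b := by
    refine ⟨?_, ?_⟩
    · rw [e1, e2]
      have : (b + b') / 2 - b = (b' - b) / 2 := by ring
      rw [this, abs_div, abs_two]
      linarith
    · rw [e2]; linarith [hr0 n]
  have h4 : z'' ∈ cone (r i) (r n) b' := by
    refine ⟨?_, ?_⟩
    · rw [e1, e2]
      have : (b + b') / 2 - b' = -((b' - b) / 2) := by ring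
      rw [this, abs_neg, abs_div, abs_two]
      linarith
    · rw [e2]; linarith [hr0 n]
  have h5 := hb'B _ h2 _ h4
  have h6 := hsmall _ h3
  have h7 := dist_triangle (G (φ (sc x.1 x.2 (h x.1) w))) (G z'') l
  linarith

end Vale.Agent.P097.H899.Nt
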