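import Vale.Agent.P097.H899.Tr4

/-!
Transfer of non-tangential limits through a holomorphic map: final forms, for arbitrary sets and
for the upper and the lower edge of a strip.
-/

open Complex Metric Filter Topology Set MeasureTheory
open Vale.Agent.P097.H877.Bd

namespace Vale.Agent.P097.H899.Nt

variable {Dom : Set (ℂ × ℂ)} {h c : ℝ → ℝ} {p q : ℝ} {E : Set (ℝ × ℝ)} {φ θ : ℂ × ℂ → ℂ} {H : ℝ}

/-- **transfer theorem for sets** -/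
theorem Edge.set (e : Edge Dom h c p q E) (hφ : DifferentiableOn ℂ φ Dom)
    (hpos : ∀ z ∈ Dom, 0 < (φ z).im) (A : Set ℂ) :
    ∀ᵐ x : ℝ × ℝ, x ∈ E → ∀ b : ℝ,
      Tendsto (fun σ => φ (rad h x σ)) (𝓝[>] 0) (𝓝 (b : ℂ)) →
        (∃ k > 0, ∃ δ > 0, cone k δ b ⊆ A) →
        ∀ z₁ ∈ wed (c x.1) p q, ∀ᶠ a in 𝓝[>] 0 ×ˢ 𝓝 z₁, φ (sc x.1 x.2 (h x.1) a) ∈ A := by
  classical
  filter_upwards [e.transfer hφ hpos (fun z => if z ∈ A then (0 : ℝ) else 1)] with x hx hxE b hb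
    hA z₁ hz₁
  obtain ⟨k, hk, δ, hδ, hsub⟩ := hA
  have h1 := hx hxE b hb 0 ⟨k, hk, δ, hδ, by
    refine (tendsto_const_nhds (x := (0 : ℝ))).congr' ?_
    filter_upwards [self_mem_nhdsWithin] with z hz
    rw [if_pos (hsub hz)]⟩ z₁ hz₁
  filter_upwards [h1.eventually (gt_mem_nhds (show (0 : ℝ) < 1 by norm_num))] with a ha
  by_contra hneg
  rw [if_neg hneg] at ha
  exact lt_irrefl _ ha

/-- cones below the line `Im = H` -/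
def dcone (H k δ b : ℝ) : Set ℂ := {ζ | |ζ.re - b| < k * (H - ζ.im) ∧ H - ζ.im < δ}

/-- cones above the line `Im = - H` -/
def ucone (H k δ b : ℝ) : Set ℂ := {ζ | |ζ.re - b| < k * (ζ.im + H) ∧ ζ.im + H < δ}

theorem mem_dcone {H k δ b : ℝ} {ζ : ℂ} :
    (H : ℂ) * I - ζ ∈ cone k δ (-b) ↔ ζ ∈ dcone H k δ b := by
  unfold cone dcone
  simp only [mem_ofPred_eq, Complex.sub_re, Complex.sub_im, Complex.mul_re, Complex.mul_im,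
    Complex.ofReal_re, Complex.ofReal_im, Complex.I_re, Complex.I_im]
  have e1 : H * 0 - 0 * 1 - ζ.re - -b = -(ζ.re - b) := by ring
  have e2 : H * 1 + 0 * 0 - ζ.im = H - ζ.im := by ring
  rw [e1, e2, abs_neg]

theorem mem_ucone {H k δ b : ℝ} {ζ : ℂ} :
    ζ + (H : ℂ) * I ∈ cone k δ b ↔ ζ ∈ ucone H k δ b := by
  unfold cone ucone
  simp only [mem_ofPred_eq, Complex.add_re, Complex.add_im, Complex.mul_re, Complex.mul_im,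
    Complex.ofReal_re, Complex.ofReal_im, Complex.I_re, Complex.I_im]
  have e1 : ζ.re + (H * 0 - 0 * 1) - b = ζ.re - b := by ring
  have e2 : ζ.im + (H * 1 + 0 * 0) = ζ.im + H := by ring
  rw [e1, e2]

/-- the hypotheses for the upper edge -/
theorem top_pos (hH : ∀ z ∈ Dom, (θ z).im < H) : ∀ z ∈ Dom, 0 < ((H : ℂ) * I - θ z).im := by
  intro z hz
  have := hH z hz
  simp
  exact this

theorem bot_pos (hH : ∀ z ∈ Dom, -H < (θ z).im) : ∀ z ∈ Dom, 0 < (θ z + (H : ℂ) * I).im := by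
  intro z hz
  have := hH z hz
  simp
  linarith

theorem tendsto_top {α : Type*} {L : Filter α} {f : α → ℂ} {H : ℝ} {ξ : ℂ} :
    Tendsto (fun a => (H : ℂ) * I - f a) L (𝓝 ((H : ℂ) * I - ξ)) ↔ Tendsto f L (𝓝 ξ) := by
  constructor
  · intro h1
    have h2 := h1.const_sub ((H : ℂ) * I)
    simpa using h2
  · intro h1
    exact h1.const_sub _

theorem tendsto_bot {α : Type*} {L : Filter α} {f : α → ℂ} {H : ℝ} {ξ : ℂ} :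
    Tendsto (fun a => f a + (H : ℂ) * I) L (𝓝 (ξ + (H : ℂ) * I)) ↔ Tendsto f L (𝓝 ξ) := by
  constructor
  · intro h1
    have h2 := h1.sub_const ((H : ℂ) * I)
    simpa using h2
  · intro h1
    exact h1.add_const _

/-! ### upper edge -/

/-- finite limits on the whole wedge -/
theorem Edge.top_lim (e : Edge Dom h c p q E) (hθ : DifferentiableOn ℂ θ Dom)
    (hH : ∀ z ∈ Dom, (θ z).im < H) :
    ∀ᵐ x : ℝ × ℝ, x ∈ E → ∃ ξ : ℂ, ξ.im ≤ H ∧ ∀ z₁ ∈ wed (c x.1) p q,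
      Tendsto (fun a => θ (sc x.1 x.2 (h x.1) a)) (𝓝[>] 0 ×ˢ 𝓝 z₁) (𝓝 ξ) := by
  filter_upwards [e.lim (hθ.const_sub ((H : ℂ) * I)) (top_pos hH)] with x hx hxE
  obtain ⟨ξ, hξ0, hξ⟩ := hx hxE
  refine ⟨(H : ℂ) * I - ξ, by simpa using hξ0, fun z₁ hz₁ => ?_⟩
  refine tendsto_top (H := H).mp ?_
  rw [sub_sub_cancel]
  exact hξ z₁ hz₁

theorem Edge.top_null (e : Edge Dom h c p q E) (hθ : DifferentiableOn ℂ θ Dom)
    (hH : ∀ z ∈ Dom, (θ z).im < H) {N : Set ℝ} (hN : volume N = 0) :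
    ∀ᵐ x : ℝ × ℝ, x ∈ E → ∀ b ∈ N,
      ¬ Tendsto (fun σ => θ (rad h x σ)) (𝓝[>] 0) (𝓝 ((b : ℂ) + (H : ℂ) * I)) := by
  have hN' : volume (Neg.neg ⁻¹' N) = 0 :=
    (Measure.measurePreserving_neg (volume : Measure ℝ)).quasiMeasurePreserving.preimage_null hN
  filter_upwards [e.null (hθ.const_sub ((H : ℂ) * I)) (top_pos hH) hN'] with x hx hxE b hb hlim
  refine hx hxE (-b) (by simpa using hb) ?_
  have h1 := tendsto_top (H := H).mpr hlim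
  have e1 : (H : ℂ) * I - ((b : ℂ) + (H : ℂ) * I) = ((-b : ℝ) : ℂ) := by push_cast; ring
  rwa [e1] at h1

theorem Edge.top_window (e : Edge Dom h c p q E) (hθ : DifferentiableOn ℂ θ Dom)
    (hH : ∀ z ∈ Dom, (θ z).im < H) {B : Set ℝ} (hB : MeasurableSet B) :
    ∀ᵐ x : ℝ × ℝ, x ∈ E → ∀ b ∈ B,
      Tendsto (fun σ => θ (rad h x σ)) (𝓝[>] 0) (𝓝 ((b : ℂ) + (H : ℂ) * I)) →
        ∀ z₁ ∈ wed (c x.1) p q,
        ∀ k > 0, ∀ δ > 0, ∀ᶠ a in 𝓝[>] 0 ×ˢ 𝓝 z₁, ∃ b' ∈ B, |b' - b| < δ ∧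
          θ (sc x.1 x.2 (h x.1) a) ∈ dcone H k δ b' := by
  filter_upwards [e.window (hθ.const_sub ((H : ℂ) * I)) (top_pos hH)
    (hB.preimage measurable_neg)] with x hx hxE b hb hlim z₁ hz₁ k hk δ hδ
  have h1 := tendsto_top (H := H).mpr hlim
  have e1 : (H : ℂ) * I - ((b : ℂ) + (H : ℂ) * I) = ((-b : ℝ) : ℂ) := by push_cast; ring
  rw [e1] at h1
  filter_upwards [hx hxE (-b) (by simpa using hb) h1 z₁ hz₁ k hk δ hδ] with a ha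
  obtain ⟨b', hb', h2, h3⟩ := ha
  refine ⟨-b', hb', ?_, ?_⟩
  · rw [← abs_neg]
    have : -(-b' - b) = b' - -b := by ring
    rwa [this]
  · rw [← mem_dcone, neg_neg]
    exact h3

/-- **transfer theorem**, upper edge -/
theorem Edge.top_transfer (e : Edge Dom h c p q E) (hθ : DifferentiableOn ℂ θ Dom)
    (hH : ∀ z ∈ Dom, (θ z).im < H) {X : Type*} [PseudoMetricSpace X] (G : ℂ → X) :
    ∀ᵐ x : ℝ × ℝ, x ∈ E → ∀ b : ℝ,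
      Tendsto (fun σ => θ (rad h x σ)) (𝓝[>] 0) (𝓝 ((b : ℂ) + (H : ℂ) * I)) → ∀ l : X,
        (∃ k > 0, ∃ δ > 0, Tendsto G (𝓝[dcone H k δ b] ((b : ℂ) + (H : ℂ) * I)) (𝓝 l)) →
        ∀ z₁ ∈ wed (c x.1) p q,
          Tendsto (fun a => G (θ (sc x.1 x.2 (h x.1) a))) (𝓝[>] 0 ×ˢ 𝓝 z₁) (𝓝 l) := by
  filter_upwards [e.transfer (hθ.const_sub ((H : ℂ) * I)) (top_pos hH)
    (fun ω => G ((H : ℂ) * I - ω))] with x hx hxE b hlim l hl z₁ hz₁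
  obtain ⟨k, hk, δ, hδ, hG⟩ := hl
  have h1 := tendsto_top (H := H).mpr hlim
  have e1 : (H : ℂ) * I - ((b : ℂ) + (H : ℂ) * I) = ((-b : ℝ) : ℂ) := by push_cast; ring
  rw [e1] at h1
  have h2 := hx hxE (-b) h1 l ⟨k, hk, δ, hδ, by
    refine hG.comp (tendsto_nhdsWithin_iff.mpr ⟨?_, ?_⟩)
    · have h3 : Tendsto (fun ω : ℂ => (H : ℂ) * I - ω) (𝓝 ((-b : ℝ) : ℂ))
          (𝓝 ((H : ℂ) * I - ((-b : ℝ) : ℂ))) := tendsto_id.const_sub _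
      have e2 : (H : ℂ) * I - ((-b : ℝ) : ℂ) = (b : ℂ) + (H : ℂ) * I := by push_cast; ring
      rw [e2] at h3
      exact h3.mono_left nhdsWithin_le_nhds
    · filter_upwards [self_mem_nhdsWithin] with ω hω
      rw [← mem_dcone, sub_sub_cancel]
      exact hω⟩ z₁ hz₁
  refine h2.congr fun a => ?_
  rw [sub_sub_cancel]

theorem Edge.top_set (e : Edge Dom h c p q E) (hθ : DifferentiableOn ℂ θ Dom)
    (hH : ∀ z ∈ Dom, (θ z).im < H) (A : Set ℂ) :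
    ∀ᵐ x : ℝ × ℝ, x ∈ E → ∀ b : ℝ,
      Tendsto (fun σ => θ (rad h x σ)) (𝓝[>] 0) (𝓝 ((b : ℂ) + (H : ℂ) * I)) →
        (∃ k > 0, ∃ δ > 0, dcone H k δ b ⊆ A) →
        ∀ z₁ ∈ wed (c x.1) p q, ∀ᶠ a in 𝓝[>] 0 ×ˢ 𝓝 z₁, θ (sc x.1 x.2 (h x.1) a) ∈ A := by
  filter_upwards [e.set (hθ.const_sub ((H : ℂ) * I)) (top_pos hH)
    {ω | (H : ℂ) * I - ω ∈ A}] with x hx hxE b hlim hA z₁ hz₁
  obtain ⟨k, hk, δ, hδ, hsub⟩ := hA
  have h1 := tendsto_top (H := H).mpr hlim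
  have e1 : (H : ℂ) * I - ((b : ℂ) + (H : ℂ) * I) = ((-b : ℝ) : ℂ) := by push_cast; ring
  rw [e1] at h1
  filter_upwards [hx hxE (-b) h1 ⟨k, hk, δ, hδ, fun ω hω => hsub (by
    rw [← mem_dcone, sub_sub_cancel]; exact hω)⟩ z₁ hz₁] with a ha
  rw [sub_sub_cancel] at ha
  exact ha

/-! ### lower edge -/

theorem Edge.bot_lim (e : Edge Dom h c p q E) (hθ : DifferentiableOn ℂ θ Dom)
    (hH : ∀ z ∈ Dom, -H < (θ z).im) :
    ∀ᵐ x : ℝ × ℝ, x ∈ E → ∃ ξ : ℂ, -H ≤ ξ.im ∧ ∀ z₁ ∈ wed (c x.1) p q,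
      Tendsto (fun a => θ (sc x.1 x.2 (h x.1) a)) (𝓝[>] 0 ×ˢ 𝓝 z₁) (𝓝 ξ) := by
  filter_upwards [e.lim (hθ.add_const ((H : ℂ) * I)) (bot_pos hH)] with x hx hxE
  obtain ⟨ξ, hξ0, hξ⟩ := hx hxE
  refine ⟨ξ - (H : ℂ) * I, by simpa using hξ0, fun z₁ hz₁ => ?_⟩
  refine tendsto_bot (H := H).mp ?_
  rw [sub_add_cancel]
  exact hξ z₁ hz₁

theorem Edge.bot_null (e : Edge Dom h c p q E) (hθ : DifferentiableOn ℂ θ Dom)
    (hH : ∀ z ∈ Dom, -H < (θ z).im) {N : Set ℝ} (hN : volume N = 0) :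
    ∀ᵐ x : ℝ × ℝ, x ∈ E → ∀ b ∈ N,
      ¬ Tendsto (fun σ => θ (rad h x σ)) (𝓝[>] 0) (𝓝 ((b : ℂ) - (H : ℂ) * I)) := by
  filter_upwards [e.null (hθ.add_const ((H : ℂ) * I)) (bot_pos hH) hN] with x hx hxE b hb hlim
  refine hx hxE b hb ?_
  have h1 := tendsto_bot (H := H).mpr hlim
  rwa [sub_add_cancel] at h1

theorem Edge.bot_window (e : Edge Dom h c p q E) (hθ : DifferentiableOn ℂ θ Dom)
    (hH : ∀ z ∈ Dom, -H < (θ z).im) {B : Set ℝ} (hB : MeasurableSet B) :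
    ∀ᵐ x : ℝ × ℝ, x ∈ E → ∀ b ∈ B,
      Tendsto (fun σ => θ (rad h x σ)) (𝓝[>] 0) (𝓝 ((b : ℂ) - (H : ℂ) * I)) →
        ∀ z₁ ∈ wed (c x.1) p q,
        ∀ k > 0, ∀ δ > 0, ∀ᶠ a in 𝓝[>] 0 ×ˢ 𝓝 z₁, ∃ b' ∈ B, |b' - b| < δ ∧
          θ (sc x.1 x.2 (h x.1) a) ∈ ucone H k δ b' := by
  filter_upwards [e.window (hθ.add_const ((H : ℂ) * I)) (bot_pos hH) hB] with x hx hxE b hb hlim
    z₁ hz₁ k hk δ hδ
  have h1 := tendsto_bot (H := H).mpr hlim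
  rw [sub_add_cancel] at h1
  filter_upwards [hx hxE b hb h1 z₁ hz₁ k hk δ hδ] with a ha
  obtain ⟨b', hb', h2, h3⟩ := ha
  exact ⟨b', hb', h2, mem_ucone.mp h3⟩

/-- **transfer theorem**, lower edge -/
theorem Edge.bot_transfer (e : Edge Dom h c p q E) (hθ : DifferentiableOn ℂ θ Dom)
    (hH : ∀ z ∈ Dom, -H < (θ z).im) {X : Type*} [PseudoMetricSpace X] (G : ℂ → X) :
    ∀ᵐ x : ℝ × ℝ, x ∈ E → ∀ b : ℝ,
      Tendsto (fun σ => θ (rad h x σ)) (𝓝[>] 0) (𝓝 ((b : ℂ) - (H : ℂ) * I)) → ∀ l : X,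
        (∃ k > 0, ∃ δ > 0, Tendsto G (𝓝[ucone H k δ b] ((b : ℂ) - (H : ℂ) * I)) (𝓝 l)) →
        ∀ z₁ ∈ wed (c x.1) p q,
          Tendsto (fun a => G (θ (sc x.1 x.2 (h x.1) a))) (𝓝[>] 0 ×ˢ 𝓝 z₁) (𝓝 l) := by
  filter_upwards [e.transfer (hθ.add_const ((H : ℂ) * I)) (bot_pos hH)
    (fun ω => G (ω - (H : ℂ) * I))] with x hx hxE b hlim l hl z₁ hz₁
  obtain ⟨k, hk, δ, hδ, hG⟩ := hl
  have h1 := tendsto_bot (H := H).mpr hlim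
  rw [sub_add_cancel] at h1
  have h2 := hx hxE b h1 l ⟨k, hk, δ, hδ, by
    refine hG.comp (tendsto_nhdsWithin_iff.mpr ⟨?_, ?_⟩)
    · have h3 : Tendsto (fun ω : ℂ => ω - (H : ℂ) * I) (𝓝 (b : ℂ))
          (𝓝 ((b : ℂ) - (H : ℂ) * I)) := tendsto_id.sub_const _
      exact h3.mono_left nhdsWithin_le_nhds
    · filter_upwards [self_mem_nhdsWithin] with ω hω
      rw [← mem_ucone, sub_add_cancel]
      exact hω⟩ z₁ hz₁
  refine h2.congr fun a => ?_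
  rw [add_sub_cancel_right]

theorem Edge.bot_set (e : Edge Dom h c p q E) (hθ : DifferentiableOn ℂ θ Dom)
    (hH : ∀ z ∈ Dom, -H < (θ z).im) (A : Set ℂ) :
    ∀ᵐ x : ℝ × ℝ, x ∈ E → ∀ b : ℝ,
      Tendsto (fun σ => θ (rad h x σ)) (𝓝[>] 0) (𝓝 ((b : ℂ) - (H : ℂ) * I)) →
        (∃ k > 0, ∃ δ > 0, ucone H k δ b ⊆ A) →
        ∀ z₁ ∈ wed (c x.1) p q, ∀ᶠ a in 𝓝[>] 0 ×ˢ 𝓝 z₁, θ (sc x.1 x.2 (h x.1) a) ∈ A := by
  filter_upwards [e.set (hθ.add_const ((H : ℂ) * I)) (bot_pos hH)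
    {ω | ω - (H : ℂ) * I ∈ A}] with x hx hxE b hlim hA z₁ hz₁
  obtain ⟨k, hk, δ, hδ, hsub⟩ := hA
  have h1 := tendsto_bot (H := H).mpr hlim
  rw [sub_add_cancel] at h1
  filter_upwards [hx hxE b h1 ⟨k, hk, δ, hδ, fun ω hω => hsub (by
    rw [← mem_ucone, sub_add_cancel]; exact hω)⟩ z₁ hz₁] with a ha
  rw [add_sub_cancel_right] at ha
  exact ha

end Vale.Agent.P097.H899.Nt
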